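import Vale.Agent.P267.H156.Sing
import Vale.Agent.P267.H399.Wirt

/-!
# P267 / RRK-GLOB (B2): the local parametrix in one chart, in the shape of `H221/Sys.lean`
(helper156)

Kernels `C2 → C2 → (V →L[ℂ] V')`, cut off at `|w - z| < d`; `(0,1)`-forms have values in
`Fin 2 → F`.
-/

namespace Vale.Agent.P267.H156

open Filter Topology MeasureTheory Set Metric Module
open Vale.Agent.P267.H315
open scoped ContDiff

set_option linter.unusedSectionVars false

noncomputable section

variable {F : Type} [NormedAddCommGroup F] [NormedSpace ℂ F] [CompleteSpace F]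

/-- `∂/∂z̄_j` of helper399 -/
theorem dzb_eq_dbv {W : Type*} [NormedAddCommGroup W] [NormedSpace ℂ W] (j : Fin 2) (f : V → W)
    (z : V) : FL.dzb j f z = dbv (ev j) f z := by
  have h : (Pi.single j Complex.I : V) = Complex.I • (Pi.single j 1 : V) := by
    rw [← Pi.single_smul, smul_eq_mul, mul_one]
  unfold FL.dzb dbv ev
  rw [h]

/-- the components of a `(0,1)`-form -/
abbrev prj (F : Type) [NormedAddCommGroup F] [NormedSpace ℂ F] (k : Fin 2) :
    (Fin 2 → F) →L[ℂ] F := ContinuousLinearMap.proj k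

/-- `π⁻²` -/
def cpi : ℂ := (((Real.pi ^ 2)⁻¹ : ℝ) : ℂ)

theorem cpi_smul {x : F} (c : ℝ) : cpi • ((Real.pi ^ 2 * c : ℝ) • x) = c • x := by
  unfold cpi
  rw [← Complex.coe_smul, ← Complex.coe_smul, smul_smul]
  congr 1
  push_cast
  have h : (Real.pi : ℂ) ≠ 0 := by exact_mod_cast Real.pi_ne_zero
  field_simp

/-- cut-off near the diagonal -/
def cutk {W : Type*} [NormedAddCommGroup W] (d : ℝ) (g : VV → W) (z w : V) : W :=
  (near d).indicator g (z, w)

variable (D : KData (F →L[ℂ] F)) (f : ℝ → ℝ) (d t : ℝ)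

/-- `P : (0,1) → (0,0)` -/
def kP0 : V → V → ((Fin 2 → F) →L[ℂ] F) :=
  cutk d fun x => cpi • ((ks D f t 2 x).comp (prj F 1) - (ks D f t 3 x).comp (prj F 0))

/-- `P : (0,2) → (0,1)` -/
def kP1 : V → V → (F →L[ℂ] (Fin 2 → F)) :=
  cutk d fun x => ContinuousLinearMap.pi fun k => cpi • ks D f t (iz k) x

/-- the remainder in degree `0` -/
def kS0 : V → V → (F →L[ℂ] F) := cutk d fun x => (-cpi) • ss D f t 2 3 x

/-- the remainder in degree `1` -/
def kS1 : V → V → ((Fin 2 → F) →L[ℂ] (Fin 2 → F)) :=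
  cutk d fun x => ContinuousLinearMap.pi fun k =>
    (-cpi) • ((ss D f t (iz k) 2 x).comp (prj F 1) - (ss D f t (iz k) 3 x).comp (prj F 0))

/-- the remainder in degree `2` -/
def kS2 : V → V → (F →L[ℂ] F) := cutk d fun x => (-cpi) • ss D f t 0 1 x

/-- **the local parametrix** in one chart: `O` the chart domain, `Q ⊆ O` open -/
structure ChartPS (O Q : Set V) (d : ℝ) (p0 : V → V → ((Fin 2 → F) →L[ℂ] F))
    (p1 : V → V → (F →L[ℂ] (Fin 2 → F))) (s0 : V → V → (F →L[ℂ] F))
    (s1 : V → V → ((Fin 2 → F) →L[ℂ] (Fin 2 → F))) (s2 : V → V → (F →L[ℂ] F)) : Prop where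
  d_pos : 0 < d
  sub : ∀ z ∈ Q, ∀ w : V, ‖w - z‖ ≤ d → w ∈ O
  /-- supports -/
  supp : ∃ R, 0 ≤ R ∧ R < d ∧ ∀ z ∈ Q, ∀ w : V, R ≤ ‖w - z‖ →
    p0 z w = 0 ∧ p1 z w = 0 ∧ s0 z w = 0 ∧ s1 z w = 0 ∧ s2 z w = 0
  smooth_s0 : ContDiffOn ℝ ∞ (fun p : V × V => s0 p.1 p.2) (Q ×ˢ univ)
  smooth_s1 : ContDiffOn ℝ ∞ (fun p : V × V => s1 p.1 p.2) (Q ×ˢ univ)
  smooth_s2 : ContDiffOn ℝ ∞ (fun p : V × V => s2 p.1 p.2) (Q ×ˢ univ)
  smooth_p0 : ∀ u : V → Fin 2 → F, ContDiffOn ℝ ∞ u O →
    ContDiffOn ℝ ∞ (fun z => ∫ w, p0 z w (u w)) Q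
  smooth_p1 : ∀ u : V → F, ContDiffOn ℝ ∞ u O →
    ContDiffOn ℝ ∞ (fun z => ∫ w, p1 z w (u w)) Q
  smooth_s0u : ∀ u : V → F, ContDiffOn ℝ ∞ u O →
    ContDiffOn ℝ ∞ (fun z => ∫ w, s0 z w (u w)) Q
  smooth_s1u : ∀ u : V → Fin 2 → F, ContDiffOn ℝ ∞ u O →
    ContDiffOn ℝ ∞ (fun z => ∫ w, s1 z w (u w)) Q
  smooth_s2u : ∀ u : V → F, ContDiffOn ℝ ∞ u O →
    ContDiffOn ℝ ∞ (fun z => ∫ w, s2 z w (u w)) Q
  int_p0 : ∀ u : V → Fin 2 → F, ContinuousOn u O → ∀ z ∈ Q, Integrable fun w => p0 z w (u w)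
  int_p1 : ∀ u : V → F, ContinuousOn u O → ∀ z ∈ Q, Integrable fun w => p1 z w (u w)
  int_s0 : ∀ u : V → F, ContinuousOn u O → ∀ z ∈ Q, Integrable fun w => s0 z w (u w)
  int_s1 : ∀ u : V → Fin 2 → F, ContinuousOn u O → ∀ z ∈ Q, Integrable fun w => s1 z w (u w)
  int_s2 : ∀ u : V → F, ContinuousOn u O → ∀ z ∈ Q, Integrable fun w => s2 z w (u w)
  bound : ∃ B, 0 ≤ B ∧
    (∀ (u : V → Fin 2 → F) (M : ℝ), ContinuousOn u O → ∀ z ∈ Q,
      (∀ w : V, ‖w - z‖ < d → ‖u w‖ ≤ M) → ‖∫ w, p0 z w (u w)‖ ≤ B * M) ∧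
    (∀ (u : V → F) (M : ℝ), ContinuousOn u O → ∀ z ∈ Q,
      (∀ w : V, ‖w - z‖ < d → ‖u w‖ ≤ M) → ‖∫ w, p1 z w (u w)‖ ≤ B * M)
  eq0 : ∀ u : V → F, ContDiffOn ℝ ∞ u O → ∀ z ∈ Q,
    ∫ w, p0 z w (fun j => FL.dzb j u w) = u z - ∫ w, s0 z w (u w)
  eq1 : ∀ u : V → Fin 2 → F, ContDiffOn ℝ ∞ u O → ∀ z ∈ Q,
    (fun j => FL.dzb j (fun y => ∫ w, p0 y w (u w)) z) +
      ∫ w, p1 z w (FL.dzb 0 (fun y => u y 1) w - FL.dzb 1 (fun y => u y 0) w) =
      u z - ∫ w, s1 z w (u w)
  eq2 : ∀ u : V → F, ContDiffOn ℝ ∞ u O → ∀ z ∈ Q,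
    FL.dzb 0 (fun y => (∫ w, p1 y w (u w)) 1) z - FL.dzb 1 (fun y => (∫ w, p1 y w (u w)) 0) z =
      u z - ∫ w, s2 z w (u w)

/-! ### the kernels componentwise -/

variable {D f d t}

theorem cutk_of_mem {W : Type*} [NormedAddCommGroup W] {g : VV → W} {z w : V}
    (h : ‖w - z‖ < d) : cutk d g z w = g (z, w) :=
  indicator_of_mem (show ((z, w) : VV) ∈ near d from h) _

theorem cutk_of_notMem {W : Type*} [NormedAddCommGroup W] {g : VV → W} {z w : V}
    (h : ¬ ‖w - z‖ < d) : cutk d g z w = 0 :=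
  indicator_of_notMem (show ((z, w) : VV) ∉ near d from h) _

theorem kP0_apply (z w : V) (v : Fin 2 → F) : kP0 D f d t z w v =
    cpi • (cutk d (ks D f t 2) z w (v 1) - cutk d (ks D f t 3) z w (v 0)) := by
  by_cases h : ‖w - z‖ < d
  · simp only [kP0, cutk_of_mem h]
    rfl
  · simp only [kP0, cutk_of_notMem h]
    simp

theorem kP1_apply (z w : V) (v : F) (k : Fin 2) : kP1 D f d t z w v k =
    cpi • cutk d (ks D f t (iz k)) z w v := by
  by_cases h : ‖w - z‖ < d
  · simp only [kP1, cutk_of_mem h]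
    rfl
  · simp only [kP1, cutk_of_notMem h]
    simp

theorem kS0_apply (z w : V) (v : F) : kS0 D f d t z w v =
    (-cpi) • cutk d (ss D f t 2 3) z w v := by
  by_cases h : ‖w - z‖ < d
  · simp only [kS0, cutk_of_mem h]
    rfl
  · simp only [kS0, cutk_of_notMem h]
    simp

theorem kS1_apply (z w : V) (v : Fin 2 → F) (k : Fin 2) : kS1 D f d t z w v k =
    (-cpi) • (cutk d (ss D f t (iz k) 2) z w (v 1) - cutk d (ss D f t (iz k) 3) z w (v 0)) := by
  by_cases h : ‖w - z‖ < d
  · simp only [kS1, cutk_of_mem h]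
    rfl
  · simp only [kS1, cutk_of_notMem h]
    simp

theorem kS2_apply (z w : V) (v : F) : kS2 D f d t z w v =
    (-cpi) • cutk d (ss D f t 0 1) z w v := by
  by_cases h : ‖w - z‖ < d
  · simp only [kS2, cutk_of_mem h]
    rfl
  · simp only [kS2, cutk_of_notMem h]
    simp

theorem kint_cut (g : VV → F →L[ℂ] F) (u : V → F) (z : V) :
    kint d g u z = ∫ w, cutk d g z w (u w) := by
  rw [kint_eq]
  simp only
  congr 1
  funext w
  by_cases h : ‖w - z‖ < d
  · rw [cutk_of_mem h, indicator_of_mem (show ((z, w) : VV) ∈ near d from h)]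
  · rw [cutk_of_notMem h, indicator_of_notMem (show ((z, w) : VV) ∉ near d from h)]
    simp

theorem integral_fin2 {G : V → Fin 2 → F} (h : ∀ k, Integrable fun w => G w k) :
    ∫ w, G w = fun k => ∫ w, G w k := by
  funext k
  exact eval_integral h k

theorem integrable_fin2 {G : V → Fin 2 → F} (h : ∀ k, Integrable fun w => G w k) :
    Integrable G := Integrable.of_eval h

namespace LocPS

variable {U : Set VV} {O Q : Set V} (L : LocPS D U O Q f d t)
include L

theorem integrable_ks (j : Fin 4) {u : V → F} (hu : ContinuousOn u O) {z : V} (hz : z ∈ Q) :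
    Integrable fun w => cutk d (ks D f t j) z w (u w) := by
  have h1 := (integrable_indicator_iff measurableSet_ball).2 (L.integrable_K j u hu z hz)
  refine h1.congr (Eventually.of_forall fun w => ?_)
  simp only
  by_cases h : ‖w - z‖ < d
  · rw [cutk_of_mem h, indicator_of_mem (by rwa [mem_ball, dist_eq_norm])]
  · rw [cutk_of_notMem h, indicator_of_notMem (by rwa [mem_ball, dist_eq_norm])]
    simp

theorem integrable_ss (j k : Fin 4) {u : V → F} (hu : ContinuousOn u O) {z : V} (hz : z ∈ Q) :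
    Integrable fun w => cutk d (ss D f t j k) z w (u w) := by
  obtain ⟨R, -, hRd, hR⟩ := L.supp
  have h1 : Continuous fun w => cutk d (ss D f t j k) z w := by
    have h2 := (L.smooth_kernel j k).continuousOn
    rw [← continuousOn_univ]
    exact h2.comp (f := fun w : V => ((z, w) : VV)) (by fun_prop) fun w _ => ⟨hz, mem_univ _⟩
  have h2 : ContinuousOn (fun w => cutk d (ss D f t j k) z w (u w)) (closedBall z R) := by
    refine h1.continuousOn.clm_apply (hu.mono fun w hw => ?_)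
    rw [mem_closedBall, dist_eq_norm] at hw
    exact (L.sub z hz w (hw.trans hRd.le)).2
  have h3 := (integrable_indicator_iff measurableSet_closedBall).2
    (h2.integrableOn_compact (μ := volume) (isCompact_closedBall z R))
  refine h3.congr (Eventually.of_forall fun w => ?_)
  simp only
  by_cases hw : w ∈ closedBall z R
  · rw [indicator_of_mem hw]
  · rw [indicator_of_notMem hw]
    rw [mem_closedBall, dist_eq_norm, not_le] at hw
    by_cases h : ‖w - z‖ < d
    · rw [cutk_of_mem h, (hR z hz w hw.le h).1 j k, zero_apply]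
    · rw [cutk_of_notMem h, zero_apply]

theorem integral_kP0 {u : V → Fin 2 → F} (hu : ContinuousOn u O) {z : V} (hz : z ∈ Q) :
    ∫ w, kP0 D f d t z w (u w) = cpi • (kint d (ks D f t 2) (fun w => u w 1) z -
      kint d (ks D f t 3) (fun w => u w 0) z) := by
  have hu' := continuousOn_pi.1 hu
  simp only [kP0_apply]
  rw [integral_smul, integral_sub (L.integrable_ks 2 (hu' 1) hz) (L.integrable_ks 3 (hu' 0) hz),
    kint_cut, kint_cut]

theorem integral_kP1 {u : V → F} (hu : ContinuousOn u O) {z : V} (hz : z ∈ Q) :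
    ∫ w, kP1 D f d t z w (u w) = fun k => cpi • kint d (ks D f t (iz k)) u z := by
  rw [integral_fin2]
  · funext k
    simp only [kP1_apply]
    rw [integral_smul, kint_cut]
  · intro k
    simp only [kP1_apply]
    exact (L.integrable_ks _ hu hz).smul _

theorem integral_kS0 {u : V → F} {z : V} :
    ∫ w, kS0 D f d t z w (u w) = (-cpi) • kint d (ss D f t 2 3) u z := by
  simp only [kS0_apply]
  rw [integral_smul, kint_cut]

theorem integral_kS2 {u : V → F} {z : V} :
    ∫ w, kS2 D f d t z w (u w) = (-cpi) • kint d (ss D f t 0 1) u z := by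
  simp only [kS2_apply]
  rw [integral_smul, kint_cut]

theorem integral_kS1 {u : V → Fin 2 → F} (hu : ContinuousOn u O) {z : V} (hz : z ∈ Q) :
    ∫ w, kS1 D f d t z w (u w) = fun k => (-cpi) • (kint d (ss D f t (iz k) 2) (fun w => u w 1) z -
      kint d (ss D f t (iz k) 3) (fun w => u w 0) z) := by
  have hu' := continuousOn_pi.1 hu
  rw [integral_fin2]
  · funext k
    simp only [kS1_apply]
    rw [integral_smul, integral_sub (L.integrable_ss _ 2 (hu' 1) hz)
      (L.integrable_ss _ 3 (hu' 0) hz), kint_cut, kint_cut]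
  · intro k
    simp only [kS1_apply]
    exact ((L.integrable_ss _ 2 (hu' 1) hz).sub (L.integrable_ss _ 3 (hu' 0) hz)).smul _

end LocPS

/-- the matrix unit -/
def mun (F : Type) [NormedAddCommGroup F] [NormedSpace ℂ F] (k j : Fin 2) :
    (F →L[ℂ] F) →L[ℂ] ((Fin 2 → F) →L[ℂ] (Fin 2 → F)) :=
  (ContinuousLinearMap.compL ℂ (Fin 2 → F) F (Fin 2 → F)
    (ContinuousLinearMap.single ℂ (fun _ : Fin 2 => F) k)).comp
    ((ContinuousLinearMap.compL ℂ (Fin 2 → F) F F).flip (prj F j))

theorem mun_apply (k j : Fin 2) (g : F →L[ℂ] F) (v : Fin 2 → F) :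
    mun F k j g v = Pi.single k (g (v j)) := rfl

theorem kS1_eq (z w : V) : kS1 D f d t z w = ∑ k : Fin 2, (-cpi) •
    (mun F k 1 (cutk d (ss D f t (iz k) 2) z w) - mun F k 0 (cutk d (ss D f t (iz k) 3) z w)) := by
  refine ContinuousLinearMap.ext fun v => ?_
  funext k
  rw [kS1_apply]
  simp only [Fin.sum_univ_two, _root_.add_apply, _root_.smul_apply, _root_.sub_apply, mun_apply,
    Pi.add_apply, Pi.smul_apply, Pi.sub_apply]
  fin_cases k <;> simp

theorem LocPS.chart {U : Set VV} {O Q : Set V} (L : LocPS D U O Q f d t) (hd : 0 < d)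
    (hO : IsOpen O) (hQ : IsOpen Q) (hf : f 0 = 1) :
    ChartPS O Q d (kP0 D f d t) (kP1 D f d t) (kS0 D f d t) (kS1 D f d t) (kS2 D f d t) := by
  have hsm : ∀ j k, ContDiffOn ℝ ∞ (fun p : V × V => cutk d (ss D f t j k) p.1 p.2)
    (Q ×ˢ univ) := fun j k => L.smooth_kernel j k
  have hdz : ∀ {u : V → F}, ContDiffOn ℝ ∞ u O → ∀ j, ContDiffOn ℝ ∞ (FL.dzb j u) O :=
    fun hu j => FL.contDiffOn_dzb hO hu (by exact_mod_cast le_rfl) j
  have hE : ∀ {g h : V → F}, (∀ z ∈ Q, g z = h z) → ∀ z ∈ Q, g =ᶠ[𝓝 z] h := by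
    intro g h hgh z hz
    filter_upwards [hQ.mem_nhds hz] with y hy using hgh y hy
  exact
  { d_pos := hd
    sub := fun z hz w hw => (L.sub z hz w hw).2
    supp := by
      obtain ⟨R, h0, hRd, hR⟩ := L.supp
      refine ⟨R, h0, hRd, fun z hz w hw => ?_⟩
      have hk : ∀ j, cutk d (ks D f t j) z w = 0 := by
        intro j
        by_cases h : ‖w - z‖ < d
        · rw [cutk_of_mem h, (hR z hz w hw h).2 j]
        · rw [cutk_of_notMem h]
      have hs : ∀ j k, cutk d (ss D f t j k) z w = 0 := by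
        intro j k
        by_cases h : ‖w - z‖ < d
        · rw [cutk_of_mem h, (hR z hz w hw h).1 j k]
        · rw [cutk_of_notMem h]
      refine ⟨?_, ?_, ?_, ?_, ?_⟩
      · ext v
        simp [kP0_apply, hk]
      · refine ContinuousLinearMap.ext fun v => funext fun k => ?_
        simp [kP1_apply, hk]
      · ext v
        simp [kS0_apply, hs]
      · refine ContinuousLinearMap.ext fun v => funext fun k => ?_
        simp [kS1_apply, hs]
      · ext v
        simp [kS2_apply, hs]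
    smooth_s0 := by
      refine ((hsm 2 3).const_smul (-cpi)).congr fun p _ => ?_
      refine ContinuousLinearMap.ext fun v => ?_
      rw [kS0_apply]
      rfl
    smooth_s1 := by
      simp only [kS1_eq]
      refine ContDiffOn.sum fun k _ => ContDiffOn.const_smul _ (ContDiffOn.sub ?_ ?_)
      · exact ((mun F k 1).restrictScalars ℝ).contDiff.comp_contDiffOn (hsm (iz k) 2)
      · exact ((mun F k 0).restrictScalars ℝ).contDiff.comp_contDiffOn (hsm (iz k) 3)
    smooth_s2 := by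
      refine ((hsm 0 1).const_smul (-cpi)).congr fun p _ => ?_
      refine ContinuousLinearMap.ext fun v => ?_
      rw [kS2_apply]
      rfl
    smooth_p0 := by
      intro u hu
      have hu' := contDiffOn_pi.1 hu
      refine (ContDiffOn.const_smul cpi ((L.smooth_K 2 _ (hu' 1)).sub
        (L.smooth_K 3 _ (hu' 0)))).congr fun z hz => ?_
      exact L.integral_kP0 hu.continuousOn hz
    smooth_p1 := by
      intro u hu
      rw [contDiffOn_pi]
      intro k
      refine (ContDiffOn.const_smul cpi (L.smooth_K (iz k) _ hu)).congr fun z hz => ?_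
      exact congrFun (L.integral_kP1 hu.continuousOn hz) k
    smooth_s0u := by
      intro u hu
      refine (ContDiffOn.const_smul (-cpi) (L.smooth_S 2 3 u hu)).congr fun z _ => ?_
      exact L.integral_kS0
    smooth_s1u := by
      intro u hu
      have hu' := contDiffOn_pi.1 hu
      rw [contDiffOn_pi]
      intro k
      refine (ContDiffOn.const_smul (-cpi) ((L.smooth_S (iz k) 2 _ (hu' 1)).sub
        (L.smooth_S (iz k) 3 _ (hu' 0)))).congr fun z hz => ?_
      exact congrFun (L.integral_kS1 hu.continuousOn hz) k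
    smooth_s2u := by
      intro u hu
      refine (ContDiffOn.const_smul (-cpi) (L.smooth_S 0 1 u hu)).congr fun z _ => ?_
      exact L.integral_kS2
    int_p0 := by
      intro u hu z hz
      have hu' := continuousOn_pi.1 hu
      simp only [kP0_apply]
      exact ((L.integrable_ks 2 (hu' 1) hz).sub (L.integrable_ks 3 (hu' 0) hz)).smul _
    int_p1 := by
      intro u hu z hz
      refine integrable_fin2 fun k => ?_
      simp only [kP1_apply]
      exact (L.integrable_ks _ hu hz).smul _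
    int_s0 := by
      intro u hu z hz
      simp only [kS0_apply]
      exact (L.integrable_ss _ _ hu hz).smul _
    int_s1 := by
      intro u hu z hz
      have hu' := continuousOn_pi.1 hu
      refine integrable_fin2 fun k => ?_
      simp only [kS1_apply]
      exact ((L.integrable_ss _ 2 (hu' 1) hz).sub (L.integrable_ss _ 3 (hu' 0) hz)).smul _
    int_s2 := by
      intro u hu z hz
      simp only [kS2_apply]
      exact (L.integrable_ss _ _ hu hz).smul _
    bound := by
      obtain ⟨B, hB0, hB⟩ := L.bound_K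
      refine ⟨‖cpi‖ * (B + B), by positivity, fun u M hu z hz hM => ?_, fun u M hu z hz hM => ?_⟩
      · have hu' := continuousOn_pi.1 hu
        rw [L.integral_kP0 hu hz, norm_smul, mul_assoc]
        refine mul_le_mul_of_nonneg_left ?_ (norm_nonneg _)
        refine (norm_sub_le _ _).trans ?_
        rw [add_mul]
        exact add_le_add (hB 2 _ M (hu' 1) z hz fun w hw => (norm_le_pi_norm (u w) 1).trans (hM w hw))
          (hB 3 _ M (hu' 0) z hz fun w hw => (norm_le_pi_norm (u w) 0).trans (hM w hw))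
      · have hM0 : 0 ≤ M := (norm_nonneg _).trans (hM z (by simpa using hd))
        rw [L.integral_kP1 hu hz, pi_norm_le_iff_of_nonneg (by positivity)]
        intro k
        rw [norm_smul, mul_assoc]
        refine mul_le_mul_of_nonneg_left ?_ (norm_nonneg _)
        refine (hB (iz k) u M hu z hz hM).trans ?_
        nlinarith
    eq0 := by
      intro u hu z hz
      have h1 : ContinuousOn (fun w => fun j => FL.dzb j u w) O :=
        continuousOn_pi.2 fun j => (hdz hu j).continuousOn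
      rw [L.integral_kP0 h1 hz, L.integral_kS0]
      have h2 := L.deg0 u hu z hz
      have h3 : ∀ j : Fin 2, (fun w => FL.dzb j u w) = dbv (ev j) u := fun j =>
        funext fun w => dzb_eq_dbv j u w
      rw [h3, h3, h2, smul_add, cpi_smul, hf, one_smul, neg_smul, sub_neg_eq_add, add_comm]
    eq1 := by
      intro u hu z hz
      have hu' := contDiffOn_pi.1 hu
      have h1 : ContinuousOn (fun w => FL.dzb 0 (fun y => u y 1) w - FL.dzb 1 (fun y => u y 0) w)
          O := ((hdz (hu' 1) 0).continuousOn).sub ((hdz (hu' 0) 1).continuousOn)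
      rw [L.integral_kP1 h1 hz, L.integral_kS1 hu.continuousOn hz]
      funext k
      have e1 : (fun y => ∫ w, kP0 D f d t y w (u w)) =ᶠ[𝓝 z] fun y =>
          cpi • (kint d (ks D f t 2) (fun w => u w 1) y -
            kint d (ks D f t 3) (fun w => u w 0) y) :=
        hE (fun y hy => L.integral_kP0 hu.continuousOn hy) z hz
      have e2 : DifferentiableAt ℝ (fun y => kint d (ks D f t 2) (fun w => u w 1) y -
            kint d (ks D f t 3) (fun w => u w 0) y) z :=
        (((L.smooth_K 2 _ (hu' 1)).sub (L.smooth_K 3 _ (hu' 0))).contDiffAt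
          (hQ.mem_nhds hz)).differentiableAt (by simp)
      have h2 := L.deg1 (fun w => u w 0) (fun w => u w 1) (hu' 0) (hu' 1) k z hz
      simp only [Pi.add_apply, Pi.sub_apply]
      rw [FL.dzb_congr e1, FL.dzb_const_smul cpi e2, dzb_eq_dbv, ← smul_add]
      have h3 : (fun w => FL.dzb 0 (fun y => u y 1) w - FL.dzb 1 (fun y => u y 0) w) =
          fun w => dbv (ev 0) (fun w => u w 1) w - dbv (ev 1) (fun w => u w 0) w := by
        funext w
        rw [dzb_eq_dbv, dzb_eq_dbv]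
      rw [h3, h2, smul_add, cpi_smul, hf, one_smul, neg_smul, sub_neg_eq_add, add_comm]
      congr 1
      fin_cases k <;> rfl
    eq2 := by
      intro u hu z hz
      have e1 : ∀ k, (fun y => (∫ w, kP1 D f d t y w (u w)) k) =ᶠ[𝓝 z] fun y =>
          cpi • kint d (ks D f t (iz k)) u y := fun k =>
        hE (fun y hy => congrFun (L.integral_kP1 hu.continuousOn hy) k) z hz
      have e2 : ∀ j, DifferentiableAt ℝ (fun y => kint d (ks D f t j) u y) z := fun j =>
        ((L.smooth_K j _ hu).contDiffAt (hQ.mem_nhds hz)).differentiableAt (by simp)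
      have h2 := L.deg2 u hu z hz
      rw [FL.dzb_congr (e1 1), FL.dzb_congr (e1 0), FL.dzb_const_smul cpi (e2 _),
        FL.dzb_const_smul cpi (e2 _), dzb_eq_dbv, dzb_eq_dbv, ← smul_sub, L.integral_kS2]
      have h3 : dbv (ev 0) (fun y => kint d (ks D f t (iz 1)) u y) z -
          dbv (ev 1) (fun y => kint d (ks D f t (iz 0)) u y) z =
          kint d (ss D f t 0 1) u z + (Real.pi ^ 2 * f 0 : ℝ) • u z := h2
      rw [h3, smul_add, cpi_smul, hf, one_smul, neg_smul, sub_neg_eq_add, add_comm] }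

/-! ### traces -/

/-- the trace of an operator -/
def trF (W : Type) [NormedAddCommGroup W] [NormedSpace ℂ W] (g : W →L[ℂ] W) : ℂ :=
  LinearMap.trace ℂ W (g : W →ₗ[ℂ] W)

section tr

variable {W : Type} [NormedAddCommGroup W] [NormedSpace ℂ W]

theorem trF_add (g h : W →L[ℂ] W) : trF W (g + h) = trF W g + trF W h := by
  unfold trF
  rw [← map_add]
  rfl

theorem trF_smul (c : ℂ) (g : W →L[ℂ] W) : trF W (c • g) = c * trF W g := by
  unfold trF
  rw [← smul_eq_mul, ← map_smul]
  rfl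

theorem trF_neg (g : W →L[ℂ] W) : trF W (-g) = -trF W g := by
  rw [← neg_one_smul ℂ g, trF_smul, neg_one_mul]

theorem trF_sub (g h : W →L[ℂ] W) : trF W (g - h) = trF W g - trF W h := by
  rw [sub_eq_add_neg, trF_add, trF_neg, sub_eq_add_neg]

theorem trF_mun [FiniteDimensional ℂ F] (k j : Fin 2) (g : F →L[ℂ] F) :
    trF (Fin 2 → F) (mun F k j g) = if j = k then trF F g else 0 := by
  have h1 : ((mun F k j g : (Fin 2 → F) →L[ℂ] (Fin 2 → F)) : (Fin 2 → F) →ₗ[ℂ] (Fin 2 → F)) =
      (LinearMap.single ℂ (fun _ : Fin 2 => F) k).comp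
        ((g : F →ₗ[ℂ] F).comp (LinearMap.proj j)) := rfl
  have h2 : ((g : F →ₗ[ℂ] F).comp (LinearMap.proj j)).comp
      (LinearMap.single ℂ (fun _ : Fin 2 => F) k) = if j = k then (g : F →ₗ[ℂ] F) else 0 := by
    refine LinearMap.ext fun v => ?_
    change g ((Pi.single k v : Fin 2 → F) j) = _
    split_ifs with h
    · subst h
      rw [Pi.single_eq_same]
      rfl
    · rw [Pi.single_eq_of_ne h, map_zero]
      rfl
  unfold trF
  rw [h1, LinearMap.trace_comp_comm', h2]
  split_ifs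
  · rfl
  · exact map_zero _

end tr

/-- **the trace density** of the remainders -/
theorem LocPS.trace_diag [FiniteDimensional ℂ F] {U : Set VV} {O Q : Set V}
    (L : LocPS D U O Q f d t) (hd : 0 < d) (hf : f 0 = 1) {z : V} (hz : z ∈ Q) :
    trF F (kS0 D f d t z z) - trF (Fin 2 → F) (kS1 D f d t z z) + trF F (kS2 D f d t z z) =
      -cpi * trF F (D.Ph (z, z)) := by
  have h0 : ‖z - z‖ < d := by simpa using hd
  have e0 : kS0 D f d t z z = (-cpi) • ss D f t 2 3 (z, z) := by
    rw [kS0, cutk_of_mem h0]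
  have e2 : kS2 D f d t z z = (-cpi) • ss D f t 0 1 (z, z) := by
    rw [kS2, cutk_of_mem h0]
  have h1 := congrArg (trF F) (L.diag z hz)
  rw [hf, Complex.ofReal_one, one_smul, trF_add, trF_sub, trF_add, trF_neg] at h1
  rw [e0, e2, kS1_eq, Fin.sum_univ_two, trF_add, trF_smul, trF_smul, trF_smul, trF_smul,
    trF_sub, trF_sub, trF_mun, trF_mun, trF_mun, trF_mun, cutk_of_mem h0, cutk_of_mem h0,
    cutk_of_mem h0, cutk_of_mem h0, ← h1]
  simp only [iz, Matrix.cons_val_zero, Matrix.cons_val_one, if_true]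
  simp
  ring

/-- the five kernels vanish -/
def KZero (D : KData (F →L[ℂ] F)) (f : ℝ → ℝ) (d t : ℝ) (z w : V) : Prop :=
  kP0 D f d t z w = 0 ∧ kP1 D f d t z w = 0 ∧ kS0 D f d t z w = 0 ∧ kS1 D f d t z w = 0 ∧
    kS2 D f d t z w = 0

theorem kzero_of {D : KData (F →L[ℂ] F)} {f : ℝ → ℝ} {d t : ℝ} {z w : V}
    (h : ‖w - z‖ < d → (∀ j k, ss D f t j k (z, w) = 0) ∧ ∀ j, ks D f t j (z, w) = 0) :
    KZero D f d t z w := by
  have hk : ∀ j, cutk d (ks D f t j) z w = 0 := by
    intro j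
    by_cases hw : ‖w - z‖ < d
    · rw [cutk_of_mem hw, (h hw).2 j]
    · rw [cutk_of_notMem hw]
  have hs : ∀ j k, cutk d (ss D f t j k) z w = 0 := by
    intro j k
    by_cases hw : ‖w - z‖ < d
    · rw [cutk_of_mem hw, (h hw).1 j k]
    · rw [cutk_of_notMem hw]
  refine ⟨?_, ?_, ?_, ?_, ?_⟩
  · ext v
    simp [kP0_apply, hk]
  · refine ContinuousLinearMap.ext fun v => funext fun k => ?_
    simp [kP1_apply, hk]
  · ext v
    simp [kS0_apply, hs]
  · refine ContinuousLinearMap.ext fun v => funext fun k => ?_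
    simp [kS1_apply, hs]
  · ext v
    simp [kS2_apply, hs]

/-- **(B2)**: the local parametrices in one chart for `d ≤ d0` and `t < t0(d, R0)`; the kernels
vanish for `|w - z| ≥ R0`. -/
theorem rrkChart {D : KData (F →L[ℂ] F)} {U : Set VV} {O : Set V}
    {h : V → Matrix (Fin 2) (Fin 2) ℂ} (H : LimHyp D U O h) {f : ℝ → ℝ} {r : ℝ}
    (P : Profile f r) (hr : 0 < r) (hf : f 0 = 1) {Q Kc : Set V} (hQ : IsOpen Q) (hQK : Q ⊆ Kc)
    (hKc : IsCompact Kc) (hKO : Kc ⊆ O) :
    ∃ d0 > 0, ∀ d, 0 < d → d ≤ d0 → ∀ R0, 0 < R0 → ∃ t0 > 0, ∀ t, 0 < t → t < t0 →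
      LocPS D U O Q f d t ∧
      ChartPS O Q d (kP0 D f d t) (kP1 D f d t) (kS0 D f d t) (kS1 D f d t) (kS2 D f d t) ∧
      ∀ z ∈ Q, ∀ w : V, R0 ≤ ‖w - z‖ → KZero D f d t z w := by
  obtain ⟨d0, hd0, h1⟩ := rrkLoc H P hr hQ hQK hKc hKO
  obtain ⟨c, C, d₀, hd₀, hT⟩ := H.restrict.exists_tube hKc hKO
  refine ⟨min d0 d₀, lt_min hd0 hd₀, fun d hd hdd R0 hR0 => ?_⟩
  obtain ⟨t0, ht0, h2⟩ := h1 d hd (hdd.trans (min_le_left _ _))
  have T := hT d hd (hdd.trans (min_le_right _ _))
  have hc := T.c_pos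
  refine ⟨min t0 (min (c / 2 * d ^ 2 / r) (c / 2 * R0 ^ 2 / r)),
    lt_min ht0 (lt_min (by positivity) (by positivity)), fun t ht htt => ?_⟩
  have L := h2 t ht (htt.trans_le (min_le_left _ _))
  have hs : Small r c d t := ⟨ht, by
    have := htt.trans_le ((min_le_right _ _).trans (min_le_left _ _))
    rw [lt_div_iff₀ hr] at this
    linarith⟩
  have hs' : Small r c R0 t := ⟨ht, by
    have := htt.trans_le ((min_le_right _ _).trans (min_le_right _ _))
    rw [lt_div_iff₀ hr] at this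
    linarith⟩
  refine ⟨L, L.chart hd H.open_O hQ hf, fun z hz w hw => kzero_of fun hwd => ?_⟩
  have hzK := hQK hz
  have hRt : Rt r c t ≤ ‖w - z‖ := (Rt_lt P.r_nonneg T.c_pos hR0 hs').le.trans hw
  refine ⟨fun j k => (T.ker_ss P hs j k).supp' hzK hRt hwd, fun j => ?_⟩
  have h3 := Rt_le P.r_nonneg T.c_pos hs.t_pos.le hRt
  have := T.support_K P.two P.r_nonneg P.zero hs.t_pos hzK (v := w - z) hwd h3 j
  rwa [add_sub_cancel] at this

end

end Vale.Agent.P267.H156
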