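import Mathlib

/-!
# P267 / RR-B3 (L3): the constant `∫ f''(h(y,y)) dλ(y) = π² f(0) / det h` (helper156)
-/

namespace Vale.Agent.P267.H156

open Filter Topology MeasureTheory Set Metric Module

noncomputable section

theorem deriv_zero_of_zero {G G' : ℝ → ℝ} {r c x : ℝ} (hG : ∀ x, c ≤ x → HasDerivAt G (G' x) x)
    (h0 : ∀ x, r ≤ x → G x = 0) (hx : c ≤ x) (hrx : r < x) : G' x = 0 := by
  have h9 : HasDerivAt G 0 x := by
    refine (hasDerivAt_const x (0 : ℝ)).congr_of_eventuallyEq ?_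
    filter_upwards [Ioi_mem_nhds hrx] with x hx
    exact h0 x (le_of_lt hx)
  exact (hG _ hx).unique h9

/-- `∫_ℂ G'(a |z|² + c) dλ = -(π / a) G c`, for `G` vanishing at infinity -/
theorem integral_deriv_sq {G G' : ℝ → ℝ} {a c r : ℝ} (ha : 0 < a)
    (hG : ∀ x, c ≤ x → HasDerivAt G (G' x) x) (hc : ContinuousOn G' (Ici c))
    (h0 : ∀ x, r ≤ x → G x = 0) :
    ∫ z : ℂ, G' (a * ‖z‖ ^ 2 + c) = -(Real.pi / a) * G c := by
  have h1 := integral_fun_norm_addHaar (μ := (volume : Measure ℂ))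
    (f := fun x : ℝ => G' (a * x ^ 2 + c))
  rw [h1]
  have h2 : (volume : Measure ℂ).real (ball 0 1) = Real.pi := by
    rw [Measure.real, Complex.volume_ball]
    simp
  have h3 : finrank ℝ ℂ = 2 := Complex.finrank_real_complex
  rw [h2, h3]
  have h4 : ∫ y in Ioi (0 : ℝ), y ^ (2 - 1) • G' (a * y ^ 2 + c) = -(1 / (2 * a)) * G c := by
    have hd : ∀ y ∈ Ici (0 : ℝ), HasDerivAt (fun y : ℝ => (1 / (2 * a)) * G (a * y ^ 2 + c))
        (y ^ (2 - 1) • G' (a * y ^ 2 + c)) y := by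
      intro y hy
      have e1 : HasDerivAt (fun y : ℝ => a * y ^ 2 + c) (a * (2 * y)) y := by
        have := ((hasDerivAt_pow 2 y).const_mul a).add_const c
        simpa using this
      have e2 := (hG (a * y ^ 2 + c) (by nlinarith [sq_nonneg y])).comp y e1
      have e3 := e2.const_mul (1 / (2 * a))
      refine e3.congr_deriv ?_
      simp only [smul_eq_mul, Nat.add_one_sub_one, pow_one]
      field_simp
    have hsupp : ∀ y : ℝ, Real.sqrt (|r - c| / a) < y → G (a * y ^ 2 + c) = 0 := by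
      intro y hy
      refine h0 _ ?_
      have h5 : |r - c| / a < y ^ 2 :=
        (Real.sqrt_lt' (lt_of_le_of_lt (Real.sqrt_nonneg _) hy)).1 hy
      rw [div_lt_iff₀ ha] at h5
      have := le_abs_self (r - c)
      linarith
    have hsupp' : ∀ y : ℝ, Real.sqrt (|r - c| / a) < y → G' (a * y ^ 2 + c) = 0 := by
      intro y hy
      have h5 : |r - c| / a < y ^ 2 :=
        (Real.sqrt_lt' (lt_of_le_of_lt (Real.sqrt_nonneg _) hy)).1 hy
      rw [div_lt_iff₀ ha] at h5
      have h6 := le_abs_self (r - c)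
      exact deriv_zero_of_zero hG h0 (by nlinarith [sq_nonneg y]) (by linarith)
    have hint : IntegrableOn (fun y : ℝ => y ^ (2 - 1) • G' (a * y ^ 2 + c)) (Ioi 0) := by
      have hcont : ContinuousOn (fun y : ℝ => y ^ (2 - 1) • G' (a * y ^ 2 + c))
          (Icc 0 (Real.sqrt (|r - c| / a) + 1)) := by
        have hc1 : Continuous fun y : ℝ => y ^ (2 - 1) := by fun_prop
        have hc2 : Continuous fun y : ℝ => a * y ^ 2 + c := by fun_prop
        refine hc1.continuousOn.smul ?_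
        refine hc.comp hc2.continuousOn ?_
        intro y _
        show c ≤ a * y ^ 2 + c
        nlinarith [sq_nonneg y]
      have hi : IntegrableOn (fun y : ℝ => y ^ (2 - 1) • G' (a * y ^ 2 + c))
          (Icc 0 (Real.sqrt (|r - c| / a) + 1)) := hcont.integrableOn_compact isCompact_Icc
      refine (hi.mono_set Ioc_subset_Icc_self).union (t := Ioi (Real.sqrt (|r - c| / a) + 1)) ?_
        |>.mono_set ?_
      · refine (integrableOn_zero (μ := volume)).congr_fun ?_ measurableSet_Ioi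
        intro y hy
        have : Real.sqrt (|r - c| / a) < y := by
          have : Real.sqrt (|r - c| / a) + 1 < y := hy
          linarith
        simp only [hsupp' y this, smul_zero]
      · intro y hy
        rcases le_or_gt y (Real.sqrt (|r - c| / a) + 1) with h | h
        · exact Or.inl ⟨hy, h⟩
        · exact Or.inr h
    have hlim : Tendsto (fun y : ℝ => (1 / (2 * a)) * G (a * y ^ 2 + c)) atTop (𝓝 0) := by
      refine tendsto_const_nhds.congr' ?_
      filter_upwards [eventually_gt_atTop (Real.sqrt (|r - c| / a))] with y hy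
      rw [hsupp y hy, mul_zero]
    have := integral_Ioi_of_hasDerivAt_of_tendsto' hd hint hlim
    rw [this]
    simp
  rw [h4]
  simp only [nsmul_eq_mul, smul_eq_mul]
  push_cast
  field_simp

/-- the two variable version on `ℂ × ℂ` in completed square form -/
theorem integral_prod_sq {f f' f'' : ℝ → ℝ} {a b r : ℝ} (ha : 0 < a) (hb : 0 < b) (c : ℂ)
    (hf : ∀ x, 0 ≤ x → HasDerivAt f (f' x) x) (hf' : ∀ x, 0 ≤ x → HasDerivAt f' (f'' x) x)
    (hc : Continuous f'') (h0 : ∀ x, r ≤ x → f x = 0) :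
    ∫ p : ℂ × ℂ, f'' (a * ‖p.1 + c * p.2‖ ^ 2 + b * ‖p.2‖ ^ 2) =
      Real.pi ^ 2 / (a * b) * f 0 := by
  have h0' : ∀ x, max r 0 + 1 ≤ x → f' x = 0 := fun x hx =>
    deriv_zero_of_zero hf h0 (by linarith [le_max_right r 0]) (by linarith [le_max_left r 0])
  have h0'' : ∀ x, max r 0 + 2 ≤ x → f'' x = 0 := fun x hx =>
    deriv_zero_of_zero hf' h0' (by linarith [le_max_right r 0]) (by linarith)
  set R : ℝ := max r 0 + 2 with hR
  have hR0 : 0 < R := by positivity
  have hcont : Continuous fun p : ℂ × ℂ => f'' (a * ‖p.1 + c * p.2‖ ^ 2 + b * ‖p.2‖ ^ 2) := by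
    fun_prop
  have hcomp : HasCompactSupport
      fun p : ℂ × ℂ => f'' (a * ‖p.1 + c * p.2‖ ^ 2 + b * ‖p.2‖ ^ 2) := by
    refine HasCompactSupport.intro (isCompact_closedBall (0 : ℂ × ℂ)
      (Real.sqrt (R / a) + ‖c‖ * Real.sqrt (R / b) + Real.sqrt (R / b))) ?_
    intro p hp
    refine h0'' _ ?_
    by_contra hlt
    rw [not_le] at hlt
    apply hp
    have k1 : ‖p.1 + c * p.2‖ ^ 2 ≤ R / a := by
      rw [le_div_iff₀ ha]
      nlinarith [mul_nonneg hb.le (sq_nonneg ‖p.2‖)]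
    have k2 : ‖p.2‖ ^ 2 ≤ R / b := by
      rw [le_div_iff₀ hb]
      nlinarith [mul_nonneg ha.le (sq_nonneg ‖p.1 + c * p.2‖)]
    have k1' := Real.le_sqrt_of_sq_le k1
    have k2' := Real.le_sqrt_of_sq_le k2
    have k3 : ‖p.1‖ ≤ ‖p.1 + c * p.2‖ + ‖c‖ * ‖p.2‖ := by
      have : p.1 = (p.1 + c * p.2) - c * p.2 := by ring
      calc ‖p.1‖ = ‖(p.1 + c * p.2) - c * p.2‖ := by rw [← this]
        _ ≤ ‖p.1 + c * p.2‖ + ‖c * p.2‖ := norm_sub_le _ _
        _ = _ := by rw [norm_mul]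
    rw [mem_closedBall_zero_iff, Prod.norm_def]
    have k4 := mul_le_mul_of_nonneg_left k2' (norm_nonneg c)
    have k5 := Real.sqrt_nonneg (R / b)
    have k6 := Real.sqrt_nonneg (R / a)
    have k7 : 0 ≤ ‖c‖ * Real.sqrt (R / b) := by positivity
    refine max_le ?_ ?_
    · linarith
    · linarith
  have hint : Integrable (fun p : ℂ × ℂ => f'' (a * ‖p.1 + c * p.2‖ ^ 2 + b * ‖p.2‖ ^ 2)) :=
    hcont.integrable_of_hasCompactSupport hcomp
  rw [show (volume : Measure (ℂ × ℂ)) = (volume : Measure ℂ).prod volume from rfl,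
    integral_prod_symm _ (by exact hint)]
  have h1 : ∀ y : ℂ, ∫ x : ℂ, f'' (a * ‖x + c * y‖ ^ 2 + b * ‖y‖ ^ 2) =
      -(Real.pi / a) * f' (b * ‖y‖ ^ 2 + 0) := by
    intro y
    rw [integral_add_right_eq_self (fun x : ℂ => f'' (a * ‖x‖ ^ 2 + b * ‖y‖ ^ 2)) (c * y)]
    rw [integral_deriv_sq (G := f') (r := max r 0 + 1) ha ?_ hc.continuousOn h0', add_zero]
    intro x hx
    exact hf' x (le_trans (by positivity) hx)
  simp only [h1]
  rw [integral_const_mul]
  rw [integral_deriv_sq (G := f) (r := r) hb hf (fun x hx =>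
    (hf' x hx).continuousAt.continuousWithinAt) h0]
  field_simp

/-- hermitian form on `Fin 2 → ℂ` -/
def herm (h : Matrix (Fin 2) (Fin 2) ℂ) (y : Fin 2 → ℂ) : ℂ :=
  ∑ a, ∑ c, h a c * y a * star (y c)

theorem herm_eq {h : Matrix (Fin 2) (Fin 2) ℂ} (hh : h.IsHermitian) (h00 : 0 < (h 0 0).re)
    (y : Fin 2 → ℂ) :
    (herm h y).re = (h 0 0).re * ‖y 0 + (h 1 0 / h 0 0) * y 1‖ ^ 2 +
      (h.det.re / (h 0 0).re) * ‖y 1‖ ^ 2 := by
  have e0 : (h 0 0).im = 0 := by
    have := hh.apply 0 0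
    rw [Complex.star_def, Complex.conj_eq_iff_im] at this
    exact this
  have e1 : (h 1 1).im = 0 := by
    have := hh.apply 1 1
    rw [Complex.star_def, Complex.conj_eq_iff_im] at this
    exact this
  have e2 : h 0 1 = star (h 1 0) := (hh.apply 0 1).symm
  have e3 : h 0 0 = ((h 0 0).re : ℂ) := by
    apply Complex.ext <;> simp [e0]
  have e4 : h 1 0 / h 0 0 = ((h 1 0).re / (h 0 0).re : ℝ) + ((h 1 0).im / (h 0 0).re : ℝ) *
      Complex.I := by
    rw [e3]
    apply Complex.ext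
    · simp [Complex.div_re, Complex.normSq_apply]
    · simp [Complex.div_im, Complex.normSq_apply]
      field_simp
  rw [e4, Matrix.det_fin_two]
  simp only [herm, Fin.sum_univ_two]
  rw [e2]
  simp only [← Complex.normSq_eq_norm_sq, Complex.normSq_apply]
  simp [e0, e1]
  field_simp
  ring

/-- (L3) -/
theorem integral_herm {f f' f'' : ℝ → ℝ} {r : ℝ} {h : Matrix (Fin 2) (Fin 2) ℂ}
    (hh : h.IsHermitian) (h00 : 0 < (h 0 0).re) (hdet : 0 < h.det.re)
    (hf : ∀ x, 0 ≤ x → HasDerivAt f (f' x) x) (hf' : ∀ x, 0 ≤ x → HasDerivAt f' (f'' x) x)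
    (hc : Continuous f'') (h0 : ∀ x, r ≤ x → f x = 0) :
    ∫ y : Fin 2 → ℂ, f'' (herm h y).re = Real.pi ^ 2 / h.det.re * f 0 := by
  have h1 := (volume_preserving_finTwoArrow ℂ).integral_comp'
    (g := fun p : ℂ × ℂ => f'' ((h 0 0).re * ‖p.1 + (h 1 0 / h 0 0) * p.2‖ ^ 2 +
      (h.det.re / (h 0 0).re) * ‖p.2‖ ^ 2))
  have h2 : ∀ y : Fin 2 → ℂ, f'' (herm h y).re =
      (fun p : ℂ × ℂ => f'' ((h 0 0).re * ‖p.1 + (h 1 0 / h 0 0) * p.2‖ ^ 2 +
      (h.det.re / (h 0 0).re) * ‖p.2‖ ^ 2)) (MeasurableEquiv.finTwoArrow y) := by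
    intro y
    rw [herm_eq hh h00]
    rfl
  simp only [h2]
  rw [h1, integral_prod_sq h00 (div_pos hdet h00) _ hf hf' hc h0]
  field_simp

end

end Vale.Agent.P267.H156
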