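import Vale.Agent.P267.H156.Sto

/-!
# P267 / RRK-PS: smoothness of integrals of kernels supported near the diagonal (helper156)
-/

namespace Vale.Agent.P267.H156

open Filter Topology MeasureTheory Set Metric Module
open Vale.Agent.P267.H315
open scoped ContDiff

set_option linter.unusedSectionVars false

noncomputable section

section par

variable {E : Type} {W : Type} [NormedAddCommGroup E] [NormedSpace ℝ E] [FiniteDimensional ℝ E]
  [MeasurableSpace E] [BorelSpace E] (μ : Measure E) [μ.IsAddHaarMeasure]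
  [NormedAddCommGroup W] [NormedSpace ℝ W]

theorem continuousOn_integral_diag {Ω : Set E} (hΩ : IsOpen Ω)
    {G : E × E → W} (hG : ContinuousOn G (Ω ×ˢ univ)) {R : ℝ}
    (h0 : ∀ z ∈ Ω, ∀ w, R < dist w z → G (z, w) = 0) :
    ContinuousOn (fun z => ∫ w, G (z, w) ∂μ) Ω := by
  intro z hz
  refine ContinuousAt.continuousWithinAt ?_
  haveI : ProperSpace E := FiniteDimensional.proper ℝ E
  obtain ⟨ε, hε, hball⟩ := Metric.isOpen_iff.1 hΩ z hz
  have hcl : closedBall z (ε / 2) ⊆ Ω := (closedBall_subset_ball (half_lt_self hε)).trans hball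
  obtain ⟨C, hC⟩ := ((isCompact_closedBall z (ε / 2)).prod
    (isCompact_closedBall z (R + ε))).exists_bound_of_continuousOn
    (hG.mono (Set.prod_mono hcl (subset_univ _)))
  have hslice : ∀ z' ∈ Ω, Continuous fun w => G (z', w) := by
    intro z' hz'
    rw [← continuousOn_univ]
    exact hG.comp (f := fun w : E => ((z', w) : E × E)) (by fun_prop)
      fun w _ => ⟨hz', mem_univ _⟩
  have hbnd : ∀ z' ∈ ball z (ε / 2), ∀ w,
      ‖G (z', w)‖ ≤ (closedBall z (R + ε)).indicator (fun _ => |C|) w := by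
    intro z' hz' w
    by_cases hw : w ∈ closedBall z (R + ε)
    · rw [indicator_of_mem hw]
      exact (hC (z', w) ⟨ball_subset_closedBall hz', hw⟩).trans (le_abs_self C)
    · have hd : R < dist w z' := by
        rw [mem_closedBall, not_le] at hw
        have h1 := dist_triangle w z' z
        have h2 : dist z' z < ε / 2 := hz'
        linarith
      rw [indicator_of_notMem hw, h0 z' (hcl (ball_subset_closedBall hz')) w hd, norm_zero]
  have hint : Integrable ((closedBall z (R + ε)).indicator fun _ => |C|) μ :=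
    (integrable_indicator_iff measurableSet_closedBall).2
      (integrableOn_const (measure_closedBall_lt_top).ne)
  refine continuousAt_of_dominated (bound := (closedBall z (R + ε)).indicator fun _ => |C|)
    ?_ ?_ hint ?_
  · filter_upwards [hΩ.mem_nhds hz] with z' hz'
    exact (hslice z' hz').aestronglyMeasurable
  · filter_upwards [ball_mem_nhds z (half_pos hε)] with z' hz'
    exact Eventually.of_forall fun w => hbnd z' hz' w
  · refine Eventually.of_forall fun w => ?_
    have h1 : ContinuousAt G (z, w) :=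
      hG.continuousAt ((hΩ.prod isOpen_univ).mem_nhds ⟨hz, mem_univ _⟩)
    exact ContinuousAt.comp (f := fun q : E => ((q, w) : E × E)) h1 (by fun_prop)

end par

/-- real version of `hasFDerivAt_integral_diag` -/
theorem hasFDerivAt_integral_diagR {E W : Type} [NormedAddCommGroup E] [NormedSpace ℝ E]
    [FiniteDimensional ℝ E] [MeasurableSpace E] [BorelSpace E] (μ : Measure E)
    [μ.IsAddHaarMeasure] [NormedAddCommGroup W] [NormedSpace ℝ W] {Ω : Set E} (hΩ : IsOpen Ω)
    {G : E × E → W} (hG : ContDiffOn ℝ 1 G (Ω ×ˢ univ)) {R : ℝ}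
    (h0 : ∀ z ∈ Ω, ∀ w, R < dist w z → G (z, w) = 0) {z : E} (hz : z ∈ Ω) :
    HasFDerivAt (fun z => ∫ w, G (z, w) ∂μ)
      (∫ w, (fderiv ℝ G (z, w)).comp (ContinuousLinearMap.inl ℝ E E) ∂μ) z := by
  haveI : ProperSpace E := FiniteDimensional.proper ℝ E
  have hO : IsOpen (Ω ×ˢ (univ : Set E)) := hΩ.prod isOpen_univ
  obtain ⟨ε, hε, hball⟩ := Metric.isOpen_iff.1 hΩ z hz
  have hcl : closedBall z (ε / 2) ⊆ Ω := (closedBall_subset_ball (half_lt_self hε)).trans hball
  set F' : E → E → (E →L[ℝ] W) := fun z w =>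
    (fderiv ℝ G (z, w)).comp (ContinuousLinearMap.inl ℝ E E) with hF'
  have hcont' : ContinuousOn (fun p : E × E => F' p.1 p.2) (Ω ×ˢ univ) := by
    have h1 : ContinuousOn (fderiv ℝ G) (Ω ×ˢ univ) := hG.continuousOn_fderiv_of_isOpen hO le_rfl
    exact h1.clm_comp continuousOn_const
  obtain ⟨C, hC⟩ := ((isCompact_closedBall z (ε / 2)).prod
    (isCompact_closedBall z (R + ε))).exists_bound_of_continuousOn
    (hcont'.mono (Set.prod_mono hcl (subset_univ _)))
  have hvan : ∀ z' ∈ ball z (ε / 2), ∀ w, w ∉ closedBall z (R + ε) → F' z' w = 0 := by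
    intro z' hz' w hw
    have hz'Ω : z' ∈ Ω := hcl (ball_subset_closedBall hz')
    have hd : R < dist w z' := by
      rw [mem_closedBall, not_le] at hw
      have h1 := dist_triangle w z' z
      have h2 : dist z' z < ε / 2 := hz'
      linarith
    have hev : G =ᶠ[𝓝 (z', w)] fun _ => (0 : W) := by
      have ho : IsOpen {p : E × E | R < dist p.2 p.1} :=
        isOpen_lt continuous_const (continuous_snd.dist continuous_fst)
      filter_upwards [ho.mem_nhds (show (z', w) ∈ {p : E × E | R < dist p.2 p.1} from hd),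
        hO.mem_nhds (show (z', w) ∈ Ω ×ˢ (univ : Set E) from ⟨hz'Ω, mem_univ _⟩)] with p hp hp2
      exact h0 p.1 hp2.1 p.2 hp
    simp only [hF']
    rw [hev.fderiv_eq]
    simp
  have hslice : ∀ z' ∈ Ω, Continuous fun w => G (z', w) := by
    intro z' hz'
    rw [← continuousOn_univ]
    exact hG.continuousOn.comp (f := fun w : E => ((z', w) : E × E)) (by fun_prop)
      fun w _ => ⟨hz', mem_univ _⟩
  have hslice' : ∀ z' ∈ Ω, Continuous fun w => F' z' w := by
    intro z' hz'
    rw [← continuousOn_univ]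
    exact hcont'.comp (f := fun w : E => ((z', w) : E × E)) (by fun_prop)
      fun w _ => ⟨hz', mem_univ _⟩
  have hcs : ∀ z' ∈ Ω, HasCompactSupport fun w => G (z', w) := by
    intro z' hz'
    refine HasCompactSupport.intro (isCompact_closedBall z' R) fun w hw => ?_
    rw [mem_closedBall, not_le] at hw
    exact h0 z' hz' w hw
  have hbnd : ∀ z' ∈ ball z (ε / 2), ∀ w,
      ‖F' z' w‖ ≤ (closedBall z (R + ε)).indicator (fun _ => |C|) w := by
    intro z' hz' w
    by_cases hw : w ∈ closedBall z (R + ε)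
    · rw [indicator_of_mem hw]
      exact (hC (z', w) ⟨ball_subset_closedBall hz', hw⟩).trans (le_abs_self C)
    · rw [indicator_of_notMem hw, hvan z' hz' w hw, norm_zero]
  have hint : Integrable ((closedBall z (R + ε)).indicator fun _ => |C|) μ :=
    (integrable_indicator_iff measurableSet_closedBall).2
      (integrableOn_const (measure_closedBall_lt_top).ne)
  refine hasFDerivAt_integral_of_dominated_of_fderiv_le (𝕜 := ℝ)
      (bound := (closedBall z (R + ε)).indicator fun _ => |C|) (F' := F')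
      (ball_mem_nhds z (half_pos hε)) ?_ ?_ ?_ ?_ hint ?_
  · filter_upwards [hΩ.mem_nhds hz] with z' hz'
    exact (hslice z' hz').aestronglyMeasurable
  · exact (hslice z hz).integrable_of_hasCompactSupport (hcs z hz)
  · exact (hslice' z hz).aestronglyMeasurable
  · exact Eventually.of_forall fun w z' hz' => hbnd z' hz' w
  · refine Eventually.of_forall fun w z' hz' => ?_
    have hz'Ω : z' ∈ Ω := hcl (ball_subset_closedBall hz')
    have h1 : HasFDerivAt G (fderiv ℝ G (z', w)) (z', w) :=
      ((hG.contDiffAt (hO.mem_nhds ⟨hz'Ω, mem_univ _⟩)).differentiableAt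
        (by simp)).hasFDerivAt
    exact h1.comp z' (hasFDerivAt_prodMk_left z' w)

theorem contDiffOn_integral_diag_nat {E : Type} [NormedAddCommGroup E] [NormedSpace ℝ E]
    [FiniteDimensional ℝ E] [MeasurableSpace E] [BorelSpace E] (μ : Measure E)
    [μ.IsAddHaarMeasure] {Ω : Set E} (hΩ : IsOpen Ω) {R : ℝ} (n : ℕ) :
    ∀ {W : Type} [NormedAddCommGroup W] [NormedSpace ℝ W]
      {G : E × E → W}, ContDiffOn ℝ n G (Ω ×ˢ univ) →
      (∀ z ∈ Ω, ∀ w, R < dist w z → G (z, w) = 0) →
      ContDiffOn ℝ n (fun z => ∫ w, G (z, w) ∂μ) Ω := by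
  have hO : IsOpen (Ω ×ˢ (univ : Set E)) := hΩ.prod isOpen_univ
  induction n with
  | zero =>
    intro W _ _ G hG h0
    simp only [CharP.cast_eq_zero, contDiffOn_zero] at hG ⊢
    exact continuousOn_integral_diag μ hΩ hG h0
  | succ n ih =>
    intro W _ _ G hG h0
    have hG1 : ContDiffOn ℝ 1 G (Ω ×ˢ univ) := hG.of_le (by norm_cast; omega)
    have hcast : ((n + 1 : ℕ) : WithTop ℕ∞) = (n : WithTop ℕ∞) + 1 := by norm_cast
    have hGn : ContDiffOn ℝ ((n : WithTop ℕ∞) + 1) G (Ω ×ˢ univ) := by rwa [hcast] at hG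
    rw [hcast, contDiffOn_succ_iff_fderiv_of_isOpen hΩ]
    refine ⟨fun z hz => (hasFDerivAt_integral_diagR μ hΩ hG1 h0
      hz).differentiableAt.differentiableWithinAt, by simp, ?_⟩
    have h1 : ContDiffOn ℝ n (fun p => (fderiv ℝ G p).comp (ContinuousLinearMap.inl ℝ E E))
        (Ω ×ˢ univ) := by
      have h2 : ContDiffOn ℝ n (fderiv ℝ G) (Ω ×ˢ univ) := hGn.fderiv_of_isOpen hO le_rfl
      exact h2.clm_comp contDiffOn_const
    have h3 : ∀ z ∈ Ω, ∀ w, R < dist w z →
        (fderiv ℝ G (z, w)).comp (ContinuousLinearMap.inl ℝ E E) = 0 := by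
      intro z hz w hw
      have hev : G =ᶠ[𝓝 (z, w)] fun _ => (0 : W) := by
        have ho : IsOpen {p : E × E | R < dist p.2 p.1} :=
          isOpen_lt continuous_const (continuous_snd.dist continuous_fst)
        filter_upwards [ho.mem_nhds (show (z, w) ∈ {p : E × E | R < dist p.2 p.1} from hw),
          hO.mem_nhds (show (z, w) ∈ Ω ×ˢ (univ : Set E) from ⟨hz, mem_univ _⟩)] with p hp hp2
        exact h0 p.1 hp2.1 p.2 hp
      rw [hev.fderiv_eq]
      simp
    refine (ih h1 h3).congr fun z hz => ?_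
    exact (hasFDerivAt_integral_diagR μ hΩ hG1 h0 hz).fderiv

theorem contDiffOn_integral_diag {E : Type} [NormedAddCommGroup E] [NormedSpace ℝ E]
    [FiniteDimensional ℝ E] [MeasurableSpace E] [BorelSpace E] (μ : Measure E)
    [μ.IsAddHaarMeasure] {Ω : Set E} (hΩ : IsOpen Ω) {R : ℝ} {W : Type}
    [NormedAddCommGroup W] [NormedSpace ℝ W] {G : E × E → W}
    (hG : ContDiffOn ℝ ∞ G (Ω ×ˢ univ))
    (h0 : ∀ z ∈ Ω, ∀ w, R < dist w z → G (z, w) = 0) :
    ContDiffOn ℝ ∞ (fun z => ∫ w, G (z, w) ∂μ) Ω := by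
  rw [contDiffOn_infty]
  exact fun n => contDiffOn_integral_diag_nat μ hΩ n (hG.of_le (by exact_mod_cast le_top)) h0

end

end Vale.Agent.P267.H156
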