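import Vale.Agent.P267.H156.Sto

/-!
# P267 / RRK-PS: `∂̄` of a uniform limit (helper156)
-/

namespace Vale.Agent.P267.H156

open Filter Topology MeasureTheory Set Metric Module
open Vale.Agent.P267.H315
open scoped ContDiff

set_option linter.unusedSectionVars false

noncomputable section

variable {E W : Type*} [NormedAddCommGroup E] [NormedSpace ℂ E] [FiniteDimensional ℝ E]
  [MeasurableSpace E] [BorelSpace E] (μ : Measure E) [μ.IsAddHaarMeasure]
  [NormedAddCommGroup W] [NormedSpace ℂ W]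

theorem continuousOn_dbv {Ω : Set E} (hΩ : IsOpen Ω) {φ : E → W} (hφ : ContDiffOn ℝ 1 φ Ω)
    (e : E) : ContinuousOn (dbv e φ) Ω := by
  have h1 : ContinuousOn (fderiv ℝ φ) Ω := hφ.continuousOn_fderiv_of_isOpen hΩ le_rfl
  have h2 : ∀ e, ContinuousOn (fun x => fderiv ℝ φ x e) Ω := fun e =>
    h1.clm_apply continuousOn_const
  unfold dbv
  exact ((h2 e).add ((h2 _).const_smul Complex.I)).const_smul (1 / 2 : ℂ)

/-- continuity of `c • ψ` extended by zero -/
theorem cont_smul_supp {Ω : Set E} (hΩ : IsOpen Ω) {c : E → ℂ} (hc : Continuous c)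
    (hs : tsupport c ⊆ Ω) {ψ : E → W} (hψ : ContinuousOn ψ Ω) :
    Continuous fun x => c x • ψ x := by
  rw [continuous_iff_continuousAt]
  intro x
  by_cases hx : x ∈ Ω
  · exact hc.continuousAt.smul (hψ.continuousAt (hΩ.mem_nhds hx))
  · have hx' : x ∉ tsupport c := fun h => hx (hs h)
    have : (fun x => c x • ψ x) =ᶠ[𝓝 x] fun _ => 0 := by
      filter_upwards [(isClosed_tsupport c).isOpen_compl.mem_nhds hx'] with y hy
      rw [image_eq_zero_of_notMem_tsupport hy, zero_smul]
    exact (continuousAt_const (y := (0 : W))).congr this.symm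

theorem integrable_smul_supp {Ω : Set E} (hΩ : IsOpen Ω) {c : E → ℂ} (hc : Continuous c)
    (hcc : HasCompactSupport c) (hs : tsupport c ⊆ Ω) {ψ : E → W} (hψ : ContinuousOn ψ Ω) :
    Integrable (fun x => c x • ψ x) μ :=
  (cont_smul_supp hΩ hc hs hψ).integrable_of_hasCompactSupport hcc.smul_right

/-- integration by parts -/
theorem integral_by_parts {Ω : Set E} (hΩ : IsOpen Ω) {c : E → ℂ} (hc : ContDiff ℝ 1 c)
    (hcc : HasCompactSupport c) (hs : tsupport c ⊆ Ω) {φ : E → W} (hφ : ContDiffOn ℝ 1 φ Ω)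
    (e : E) : ∫ x, c x • dbv e φ x ∂μ = - ∫ x, dbv e c x • φ x ∂μ := by
  have hg : ContDiff ℝ 1 fun x => c x • φ x := by
    rw [contDiff_iff_contDiffAt]
    intro x
    by_cases hx : x ∈ Ω
    · exact hc.contDiffAt.smul (hφ.contDiffAt (hΩ.mem_nhds hx))
    · have hx' : x ∉ tsupport c := fun h => hx (hs h)
      have : (fun x => c x • φ x) =ᶠ[𝓝 x] fun _ => 0 := by
        filter_upwards [(isClosed_tsupport c).isOpen_compl.mem_nhds hx'] with y hy
        rw [image_eq_zero_of_notMem_tsupport hy, zero_smul]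
      exact (contDiffAt_const (c := (0 : W))).congr_of_eventuallyEq this
  have h0 := integral_dbv_zero μ hg hcc.smul_right e
  have hdc : Continuous (dbv e c) := by
    rw [← continuousOn_univ]
    exact continuousOn_dbv isOpen_univ hc.contDiffOn e
  have hsd : tsupport (dbv e c) ⊆ tsupport c := by
    refine closure_minimal ?_ (isClosed_tsupport c)
    intro x hx
    by_contra hx'
    apply hx
    have : c =ᶠ[𝓝 x] fun _ => 0 := by
      filter_upwards [(isClosed_tsupport c).isOpen_compl.mem_nhds hx'] with y hy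
      exact image_eq_zero_of_notMem_tsupport hy
    rw [dbv_congr this, dbv_const]
  have hcd : HasCompactSupport (dbv e c) :=
    IsCompact.of_isClosed_subset hcc (isClosed_tsupport _) hsd
  have e1 : ∀ x, dbv e (fun x => c x • φ x) x = dbv e c x • φ x + c x • dbv e φ x := by
    intro x
    by_cases hx : x ∈ Ω
    · exact dbv_smul (hc.differentiable (by simp) x)
        ((hφ.contDiffAt (hΩ.mem_nhds hx)).differentiableAt (by simp))
    · have hx' : x ∉ tsupport c := fun h => hx (hs h)
      have h1 : (fun x => c x • φ x) =ᶠ[𝓝 x] fun _ => 0 := by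
        filter_upwards [(isClosed_tsupport c).isOpen_compl.mem_nhds hx'] with y hy
        rw [image_eq_zero_of_notMem_tsupport hy, zero_smul]
      have hx'' : x ∉ tsupport (dbv e c) := fun h => hx' (hsd h)
      rw [dbv_congr h1, dbv_const, image_eq_zero_of_notMem_tsupport hx',
        image_eq_zero_of_notMem_tsupport hx'', zero_smul, zero_smul, add_zero]
  simp only [e1] at h0
  rw [integral_add (integrable_smul_supp μ hΩ hdc hcd (hsd.trans hs) hφ.continuousOn)
    (integrable_smul_supp μ hΩ hc.continuous hcc hs (continuousOn_dbv hΩ hφ e))] at h0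
  exact eq_neg_of_add_eq_zero_right h0

/-- integrals against a fixed compactly supported function converge -/
theorem tendsto_integral_smul {Ω : Set E} (hΩ : IsOpen Ω) {c : E → ℂ} (hc : Continuous c)
    (hcc : HasCompactSupport c) (hs : tsupport c ⊆ Ω) {ι : Type*} {l : Filter ι}
    {ψ : ι → E → W} {ψ₀ : E → W}
    (hψ : ∀ n, ContinuousOn (ψ n) Ω) (hψ₀ : ContinuousOn ψ₀ Ω)
    (hlim : TendstoUniformlyOn ψ ψ₀ l Ω) :
    Tendsto (fun n => ∫ x, c x • ψ n x ∂μ) l (𝓝 (∫ x, c x • ψ₀ x ∂μ)) := by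
  have hci : Integrable (fun x => ‖c x‖) μ :=
    (hc.integrable_of_hasCompactSupport hcc).norm
  rw [Metric.tendsto_nhds]
  intro ε hε
  set M := ∫ x, ‖c x‖ ∂μ with hM
  have hM0 : 0 ≤ M := integral_nonneg fun x => norm_nonneg _
  have hlim' := (Metric.tendstoUniformlyOn_iff.1 hlim) (ε / (M + 1)) (by positivity)
  filter_upwards [hlim'] with n hn
  rw [dist_eq_norm, ← integral_sub (integrable_smul_supp μ hΩ hc hcc hs (hψ n))
    (integrable_smul_supp μ hΩ hc hcc hs hψ₀)]
  have hb : ∀ x, ‖c x • ψ n x - c x • ψ₀ x‖ ≤ ‖c x‖ * (ε / (M + 1)) := by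
    intro x
    by_cases hx : x ∈ Ω
    · rw [← smul_sub, norm_smul]
      refine mul_le_mul_of_nonneg_left ?_ (norm_nonneg _)
      have := hn x hx
      rw [dist_comm, dist_eq_norm] at this
      exact this.le
    · have hx' : x ∉ tsupport c := fun h => hx (hs h)
      rw [image_eq_zero_of_notMem_tsupport hx']
      simp
  calc ‖∫ x, (c x • ψ n x - c x • ψ₀ x) ∂μ‖ ≤ ∫ x, ‖c x‖ * (ε / (M + 1)) ∂μ :=
        norm_integral_le_of_norm_le (hci.mul_const _) (Eventually.of_forall hb)
    _ = M * (ε / (M + 1)) := by rw [integral_mul_const]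
    _ < ε := by
        rw [mul_div_assoc', div_lt_iff₀ (by positivity)]
        nlinarith

include μ in
/-- `∂̄` of a uniform limit, several terms -/
theorem dbv_limit [CompleteSpace W] {Ω : Set E} (hΩ : IsOpen Ω) {κ : Type*} [Fintype κ]
    (e : κ → E)
    {ι : Type*} {l : Filter ι} [l.NeBot] {φ : κ → E → W} {φn : ι → κ → E → W}
    (hφ : ∀ i, ContDiffOn ℝ 1 (φ i) Ω) (hφn : ∀ n i, ContDiffOn ℝ 1 (φn n i) Ω)
    (hlim : ∀ i, TendstoUniformlyOn (fun n => φn n i) (φ i) l Ω)
    {G : E → W} (hG : ContinuousOn G Ω)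
    (hGn : TendstoUniformlyOn (fun n z => ∑ i, dbv (e i) (φn n i) z) G l Ω) :
    ∀ z ∈ Ω, ∑ i, dbv (e i) (φ i) z = G z := by
  set H : E → W := fun z => ∑ i, dbv (e i) (φ i) z - G z with hH
  have hcd : ∀ i, ContinuousOn (dbv (e i) (φ i)) Ω := fun i => continuousOn_dbv hΩ (hφ i) (e i)
  have hcdn : ∀ n i, ContinuousOn (dbv (e i) (φn n i)) Ω := fun n i =>
    continuousOn_dbv hΩ (hφn n i) (e i)
  have hHc : ContinuousOn H Ω :=
    (continuousOn_finsetSum _ fun i _ => hcd i).sub hG
  have hae : ∀ᵐ x ∂μ, x ∈ Ω → H x = 0 := by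
    refine hΩ.ae_eq_zero_of_integral_contDiff_smul_eq_zero
      (hHc.locallyIntegrableOn hΩ.measurableSet) ?_
    intro g hg hgc hgs
    set c : E → ℂ := fun x => ((g x : ℝ) : ℂ) with hc
    have hc1 : ContDiff ℝ 1 c :=
      (Complex.ofRealCLM.contDiff.comp hg).of_le (by simp)
    have hts : tsupport c ⊆ tsupport g := by
      refine closure_mono ?_
      intro x hx
      simp only [hc, Function.mem_support, ne_eq, Complex.ofReal_eq_zero] at hx
      exact hx
    have hcc : HasCompactSupport c := IsCompact.of_isClosed_subset hgc (isClosed_tsupport _) hts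
    have hcs : tsupport c ⊆ Ω := hts.trans hgs
    have hint : ∀ ψ : E → W, ContinuousOn ψ Ω → Integrable (fun x => c x • ψ x) μ :=
      fun ψ hψ => integrable_smul_supp μ hΩ hc1.continuous hcc hcs hψ
    -- first limit
    have L1 : Tendsto (fun n => ∫ x, c x • (∑ i, dbv (e i) (φn n i) x) ∂μ) l
        (𝓝 (∫ x, c x • G x ∂μ)) :=
      tendsto_integral_smul μ hΩ hc1.continuous hcc hcs
        (fun n => continuousOn_finsetSum _ fun i _ => hcdn n i) hG hGn
    -- second limit
    have hdc : ∀ i, Continuous (dbv (e i) c) := by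
      intro i
      rw [← continuousOn_univ]
      exact continuousOn_dbv isOpen_univ hc1.contDiffOn (e i)
    have hsd : ∀ i, tsupport (dbv (e i) c) ⊆ tsupport c := by
      intro i
      refine closure_minimal ?_ (isClosed_tsupport c)
      intro x hx
      by_contra hx'
      apply hx
      have : c =ᶠ[𝓝 x] fun _ => 0 := by
        filter_upwards [(isClosed_tsupport c).isOpen_compl.mem_nhds hx'] with y hy
        exact image_eq_zero_of_notMem_tsupport hy
      rw [dbv_congr this, dbv_const]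
    have hcd' : ∀ i, HasCompactSupport (dbv (e i) c) := fun i =>
      IsCompact.of_isClosed_subset hcc (isClosed_tsupport _) (hsd i)
    have L2 : Tendsto (fun n => ∑ i, -∫ x, dbv (e i) c x • φn n i x ∂μ) l
        (𝓝 (∑ i, -∫ x, dbv (e i) c x • φ i x ∂μ)) := by
      refine tendsto_finsetSum _ fun i _ => ?_
      exact (tendsto_integral_smul μ hΩ (hdc i) (hcd' i) ((hsd i).trans hcs)
        (fun n => (hφn n i).continuousOn) (hφ i).continuousOn (hlim i)).neg
    have E1 : ∀ ψ : κ → E → W, (∀ i, ContDiffOn ℝ 1 (ψ i) Ω) →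
        ∫ x, c x • (∑ i, dbv (e i) (ψ i) x) ∂μ = ∑ i, -∫ x, dbv (e i) c x • ψ i x ∂μ := by
      intro ψ hψ
      have h1 : ∀ x, c x • (∑ i, dbv (e i) (ψ i) x) = ∑ i, c x • dbv (e i) (ψ i) x := fun x =>
        Finset.smul_sum
      simp only [h1]
      rw [integral_finsetSum _ fun i _ => hint _ (continuousOn_dbv hΩ (hψ i) (e i))]
      exact Finset.sum_congr rfl fun i _ => integral_by_parts μ hΩ hc1 hcc hcs (hψ i) (e i)
    have L3 : Tendsto (fun n => ∫ x, c x • (∑ i, dbv (e i) (φn n i) x) ∂μ) l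
        (𝓝 (∫ x, c x • (∑ i, dbv (e i) (φ i) x) ∂μ)) := by
      rw [E1 φ hφ]
      exact L2.congr fun n => (E1 (φn n) (hφn n)).symm
    have E2 := tendsto_nhds_unique L3 L1
    have E3 : ∀ x, g x • H x = c x • (∑ i, dbv (e i) (φ i) x) - c x • G x := by
      intro x
      rw [← smul_sub, hc, hH]
      exact (Complex.coe_smul (g x) _).symm
    simp only [E3]
    rw [integral_sub (hint _ (continuousOn_finsetSum _ fun i _ => hcd i)) (hint _ hG), E2,
      sub_self]
  -- a continuous function vanishing a.e. on an open set vanishes there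
  intro z hz
  by_contra hne
  have hHz : H z ≠ 0 := fun h => hne (sub_eq_zero.1 h)
  have hopen : ∀ᶠ x in 𝓝 z, H x ≠ 0 ∧ x ∈ Ω :=
    ((hHc.continuousAt (hΩ.mem_nhds hz)).eventually_ne hHz).and (hΩ.mem_nhds hz)
  obtain ⟨s, hs, hso, hzs⟩ := _root_.eventually_nhds_iff.1 hopen
  have hpos : 0 < μ s := hso.measure_pos μ ⟨z, hzs⟩
  have hzero : μ s = 0 := by
    refine measure_mono_null ?_ hae
    intro x hx h
    exact (hs x hx).1 (h (hs x hx).2)
  exact hpos.ne' hzero

end

end Vale.Agent.P267.H156
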