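import Vale.Agent.P267.H156.KLim4
import Vale.Agent.P267.H156.Weak
import Vale.Agent.P267.H156.Par

/-!
# P267 / RRK-PS: the identities `K ∂̄ u = S u - c u`, `∂̄ K u + K ∂̄ u = S u - c u`,
`∂̄ K v = S v - c v` in one chart (helper156)
-/

namespace Vale.Agent.P267.H156

open Filter Topology MeasureTheory Set Metric Module
open Vale.Agent.P267.H315
open scoped ContDiff

set_option linter.unusedSectionVars false

noncomputable section

variable {F : Type} [NormedAddCommGroup F] [NormedSpace ℂ F] [CompleteSpace F]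

/-- the operator with kernel `g` -/
def kint (d : ℝ) (g : VV → F →L[ℂ] F) (u : V → F) (z : V) : F :=
  ∫ v in ball (0 : V) d, g (z, z + v) (u (z + v))

/-- the neighbourhood `|w - z| < d` of the diagonal -/
def near (d : ℝ) : Set VV := {x | ‖x.2 - x.1‖ < d}

theorem isOpen_near (d : ℝ) : IsOpen (near d) :=
  isOpen_lt (by fun_prop) continuous_const

theorem setIntegral_near (d : ℝ) (Φ : VV → F) (z : V) :
    ∫ v in ball (0 : V) d, Φ (z, z + v) = ∫ w, (near d).indicator Φ (z, w) := by
  rw [← integral_add_left_eq_self (fun w => (near d).indicator Φ (z, w)) z,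
    ← integral_indicator measurableSet_ball]
  refine integral_congr_ae (Eventually.of_forall fun v => ?_)
  simp only
  by_cases hv : v ∈ ball (0 : V) d
  · have : ((z, z + v) : VV) ∈ near d := by
      simp only [near, Set.mem_ofPred_eq, add_sub_cancel_left]
      simpa using hv
    rw [indicator_of_mem hv, indicator_of_mem this]
  · have : ((z, z + v) : VV) ∉ near d := by
      simp only [near, Set.mem_ofPred_eq, add_sub_cancel_left]
      simpa using hv
    rw [indicator_of_notMem hv, indicator_of_notMem this]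

/-- the unit vectors `e_0, e_1` of `V` -/
def ev (k : Fin 2) : V := Pi.single k 1

theorem dir_w0 : dir 2 = ((0, ev 0) : VV) := rfl
theorem dir_w1 : dir 3 = ((0, ev 1) : VV) := rfl
theorem dir_z0 : dir 0 = ((ev 0, 0) : VV) := rfl
theorem dir_z1 : dir 1 = ((ev 1, 0) : VV) := rfl

/-- index of the `w̄_k` direction -/
def iw (k : Fin 2) : Fin 4 := ![2, 3] k

/-- index of the `z̄_k` direction -/
def iz (k : Fin 2) : Fin 4 := ![0, 1] k

theorem dir_iw (k : Fin 2) : dir (iw k) = ((0, ev k) : VV) := by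
  fin_cases k <;> rfl

theorem dir_iz (k : Fin 2) : dir (iz k) = ((ev k, 0) : VV) := by
  fin_cases k <;> rfl

section kernels

variable {K O : Set V} {U : Set VV} {d R : ℝ}

/-- geometric situation -/
structure Geo (K O : Set V) (U : Set VV) (d R : ℝ) : Prop where
  compact : IsCompact K
  open_U : IsOpen U
  open_O : IsOpen O
  R_nonneg : 0 ≤ R
  R_lt : R < d
  sub : ∀ z ∈ K, ∀ v : V, ‖v‖ ≤ d → (z, z + v) ∈ U ∧ z + v ∈ O

theorem Geo.sub' (h : Geo K O U d R) {z : V} (hz : z ∈ K) {w : V} (hw : ‖w - z‖ ≤ d) :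
    (z, w) ∈ U ∧ w ∈ O := by
  have := h.sub z hz (w - z) hw
  rwa [add_sub_cancel] at this

/-- a kernel of class `C¹` with support in `|w - z| ≤ R` -/
structure Ker (K : Set V) (U : Set VV) (d R : ℝ) (g : VV → F →L[ℂ] F) : Prop where
  smooth : ContDiffOn ℝ 1 g U
  supp : ∀ z ∈ K, ∀ v : V, R ≤ ‖v‖ → ‖v‖ < d → g (z, z + v) = 0

theorem Ker.supp' {g : VV → F →L[ℂ] F} (h : Ker K U d R g) {z : V} (hz : z ∈ K) {w : V}
    (h1 : R ≤ ‖w - z‖) (h2 : ‖w - z‖ < d) : g (z, w) = 0 := by
  have := h.supp z hz (w - z) h1 h2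
  rwa [add_sub_cancel] at this

/-- integrability of continuous kernels over the ball -/
theorem Geo.integrableOn (G : Geo K O U d R) {Φ : VV → F} (hΦ : ContinuousOn Φ (U ∩ Prod.snd ⁻¹' O))
    {z : V} (hz : z ∈ K) : IntegrableOn (fun v => Φ (z, z + v)) (ball (0 : V) d) := by
  have h1 : ContinuousOn (fun v : V => Φ (z, z + v)) (closedBall 0 d) := by
    refine hΦ.comp (by fun_prop) fun v hv => ?_
    have := G.sub z hz v (by simpa using hv)
    exact ⟨this.1, this.2⟩
  exact (h1.integrableOn_compact (isCompact_closedBall _ _)).mono_set ball_subset_closedBall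

theorem cont_app {g : VV → F →L[ℂ] F} {u : V → F} (hg : ContinuousOn g U)
    (hu : ContinuousOn u O) : ContinuousOn (fun x : VV => g x (u x.2)) (U ∩ Prod.snd ⁻¹' O) := by
  have h1 : ContinuousOn g (U ∩ Prod.snd ⁻¹' O) := hg.mono inter_subset_left
  have h2 : ContinuousOn (fun x : VV => u x.2) (U ∩ Prod.snd ⁻¹' O) :=
    hu.comp continuousOn_snd fun x hx => hx.2
  exact h1.clm_apply h2

theorem Geo.integrableOn_app (G : Geo K O U d R) {g : VV → F →L[ℂ] F} {u : V → F}
    (hg : ContinuousOn g U) (hu : ContinuousOn u O) {z : V} (hz : z ∈ K) :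
    IntegrableOn (fun v => g (z, z + v) (u (z + v))) (ball (0 : V) d) :=
  G.integrableOn (cont_app hg hu) hz

theorem smooth_app {g : VV → F →L[ℂ] F} {u : V → F} (hg : ContDiffOn ℝ 1 g U)
    (hu : ContDiffOn ℝ 1 u O) :
    ContDiffOn ℝ 1 (fun x : VV => g x (u x.2)) (U ∩ Prod.snd ⁻¹' O) := by
  have h1 : ContDiffOn ℝ 1 g (U ∩ Prod.snd ⁻¹' O) := hg.mono inter_subset_left
  have h2 : ContDiffOn ℝ 1 (fun x : VV => u x.2) (U ∩ Prod.snd ⁻¹' O) :=
    hu.comp contDiffOn_snd fun x hx => hx.2
  have h3 : ContDiffOn ℝ 1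
      (fun x => (ContinuousLinearMap.restrictScalarsL ℂ F F ℝ ℝ) (g x)) (U ∩ Prod.snd ⁻¹' O) :=
    (ContinuousLinearMap.restrictScalarsL ℂ F F ℝ ℝ).contDiff.comp_contDiffOn h1
  exact h3.clm_apply h2

/-- integration by parts in `w` -/
theorem Geo.ibp (G : Geo K O U d R) {g : VV → F →L[ℂ] F} (hg : Ker K U d R g) {u : V → F}
    (hu : ContDiffOn ℝ 1 u O) {z : V} (hz : z ∈ K) (k : Fin 2) :
    kint d (db (iw k) g) u z + kint d g (dbv (ev k) u) z = 0 := by
  set Φ : VV → F := fun x => g x (u x.2) with hΦ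
  have hop : IsOpen (U ∩ Prod.snd ⁻¹' O) := G.open_U.inter (G.open_O.preimage continuous_snd)
  have hΦs : ContDiffOn ℝ 1 Φ (U ∩ Prod.snd ⁻¹' O) := smooth_app hg.smooth hu
  -- the slice, extended by zero
  set ψ : V → F := (ball z d).indicator fun w => Φ (z, w) with hψ
  have hψs : ContDiff ℝ 1 ψ := by
    rw [← contDiffOn_univ]
    refine contDiffOn_indicator (C := closedBall z R) isOpen_univ isOpen_ball
      isClosed_closedBall ?_ ?_ ?_
    · rw [univ_inter]
      refine hΦs.comp (by fun_prop) fun w hw => ?_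
      have := G.sub' hz (w := w) (by
        have : dist w z < d := hw
        rw [dist_eq_norm] at this
        exact this.le)
      exact this
    · rintro w ⟨-, hw⟩ hwc
      rw [mem_closedBall, not_le, dist_eq_norm] at hwc
      rw [mem_ball, dist_eq_norm] at hw
      simp only [hΦ]
      rw [hg.supp' hz hwc.le hw]
      simp
    · rintro w ⟨-, hw⟩
      exact closedBall_subset_ball G.R_lt hw
  have hψc : HasCompactSupport ψ := by
    refine HasCompactSupport.intro (isCompact_closedBall z d) fun w hw => ?_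
    refine indicator_of_notMem (fun h => hw (ball_subset_closedBall h)) _
  have h0 := integral_dbv_zero (volume : Measure V) hψs hψc (ev k)
  -- compare with the integral over the ball
  have hcmp : ∀ w, dbv (ev k) ψ w = (near d).indicator (fun x => dbv ((0, ev k) : VV) Φ x)
      (z, w) := by
    intro w
    by_cases hw : w ∈ ball z d
    · have hw' : ((z, w) : VV) ∈ near d := by
        rw [mem_ball, dist_eq_norm] at hw
        exact hw
      rw [indicator_of_mem hw']
      have hmem := G.sub' hz (w := w) (by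
        rw [mem_ball, dist_eq_norm] at hw
        exact hw.le)
      have hd : DifferentiableAt ℝ Φ (z, w) :=
        (hΦs.contDiffAt (hop.mem_nhds hmem)).differentiableAt (by simp)
      rw [dbv_snd hd]
      refine dbv_congr ?_
      filter_upwards [isOpen_ball.mem_nhds hw] with y hy
      exact indicator_of_mem hy _
    · have hw' : ((z, w) : VV) ∉ near d := by
        rw [mem_ball, dist_eq_norm] at hw
        exact hw
      rw [indicator_of_notMem hw']
      have hev : ψ =ᶠ[𝓝 w] fun _ => 0 := by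
        have hop' : IsOpen (closedBall z R)ᶜ := isClosed_closedBall.isOpen_compl
        have hwR : w ∈ (closedBall z R)ᶜ := fun h => hw (closedBall_subset_ball G.R_lt h)
        filter_upwards [hop'.mem_nhds hwR] with y hy
        by_cases hyb : y ∈ ball z d
        · rw [hψ, indicator_of_mem hyb]
          rw [mem_compl_iff, mem_closedBall, not_le, dist_eq_norm] at hy
          rw [mem_ball, dist_eq_norm] at hyb
          simp only [hΦ]
          rw [hg.supp' hz hy.le hyb]
          simp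
        · exact indicator_of_notMem hyb _
      rw [dbv_congr hev, dbv_const]
  simp only [hcmp] at h0
  rw [← setIntegral_near] at h0
  -- product rule
  have hprod : ∀ v ∈ ball (0 : V) d, dbv ((0, ev k) : VV) Φ (z, z + v) =
      (db (iw k) g (z, z + v)) (u (z + v)) + g (z, z + v) (dbv (ev k) u (z + v)) := by
    intro v hv
    have hmem := G.sub z hz v (by
      rw [mem_ball_zero_iff] at hv
      exact hv.le)
    have hgd : DifferentiableAt ℝ g (z, z + v) :=
      (hg.smooth.contDiffAt (G.open_U.mem_nhds hmem.1)).differentiableAt (by simp)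
    have hud : DifferentiableAt ℝ u (z + v) :=
      (hu.contDiffAt (G.open_O.mem_nhds hmem.2)).differentiableAt (by simp)
    have hud' : DifferentiableAt ℝ (fun x : VV => u x.2) (z, z + v) :=
      DifferentiableAt.comp (f := fun x : VV => x.2) (z, z + v) hud differentiableAt_snd
    rw [hΦ, dbv_apply' _ hgd hud', dbv_snd_const hud, db, dir_iw]
  rw [setIntegral_congr_fun measurableSet_ball hprod] at h0
  have c1 : ContinuousOn (db (iw k) g) U := continuousOn_dbv G.open_U hg.smooth _
  have c2 : ContinuousOn (dbv (ev k) u) O := continuousOn_dbv G.open_O hu _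
  rw [integral_add (G.integrableOn_app c1 hu.continuousOn hz)
    (G.integrableOn_app hg.smooth.continuousOn c2 hz)] at h0
  exact h0

/-- the joint extension by zero -/
theorem Geo.smooth_ext (G : Geo K O U d R) {n : WithTop ℕ∞} {Φ : VV → F}
    (hΦ : ContDiffOn ℝ n Φ (U ∩ Prod.snd ⁻¹' O))
    (h0 : ∀ z ∈ K, ∀ v : V, R ≤ ‖v‖ → ‖v‖ < d → Φ (z, z + v) = 0) :
    ContDiffOn ℝ n ((near d).indicator Φ) (interior K ×ˢ univ) := by
  have h0' : ∀ z ∈ K, ∀ w : V, R ≤ ‖w - z‖ → ‖w - z‖ < d → Φ (z, w) = 0 := by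
    intro z hz w h1 h2
    have := h0 z hz (w - z) h1 h2
    rwa [add_sub_cancel] at this
  refine contDiffOn_indicator (C := {x : VV | ‖x.2 - x.1‖ ≤ R})
    (isOpen_interior.prod isOpen_univ) (isOpen_near d)
    (isClosed_le (by fun_prop) continuous_const) ?_ ?_ ?_
  · refine hΦ.mono ?_
    rintro ⟨z, w⟩ ⟨⟨hz, -⟩, hw⟩
    have hw' : ‖w - z‖ < d := hw
    exact G.sub' (interior_subset hz) hw'.le
  · rintro ⟨z, w⟩ ⟨⟨hz, -⟩, hw⟩ hC
    have hw' : ‖w - z‖ < d := hw
    have hC' : ¬ ‖w - z‖ ≤ R := hC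
    rw [not_le] at hC'
    exact h0' z (interior_subset hz) w hC'.le hw'
  · rintro ⟨z, w⟩ ⟨-, hw⟩
    have hw' : ‖w - z‖ ≤ R := hw
    exact hw'.trans_lt G.R_lt

theorem Geo.ext_zero (G : Geo K O U d R) {Φ : VV → F}
    (h0 : ∀ z ∈ K, ∀ v : V, R ≤ ‖v‖ → ‖v‖ < d → Φ (z, z + v) = 0) {z : V} (hz : z ∈ interior K)
    {w : V} (hw : R < dist w z) : (near d).indicator Φ (z, w) = 0 := by
  by_cases h : ((z, w) : VV) ∈ near d
  · rw [indicator_of_mem h]
    have := h0 z (interior_subset hz) (w - z) (by rw [← dist_eq_norm]; exact hw.le) h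
    rwa [add_sub_cancel] at this
  · exact indicator_of_notMem h _

theorem Ker.app_zero {g : VV → F →L[ℂ] F} (hg : Ker K U d R g) (u : V → F) :
    ∀ z ∈ K, ∀ v : V, R ≤ ‖v‖ → ‖v‖ < d → (fun x : VV => g x (u x.2)) (z, z + v) = 0 := by
  intro z hz v h1 h2
  simp only
  rw [hg.supp z hz v h1 h2]
  simp

theorem kint_eq (d : ℝ) (g : VV → F →L[ℂ] F) (u : V → F) :
    kint d g u = fun z => ∫ w, (near d).indicator (fun x : VV => g x (u x.2)) (z, w) := by
  funext z
  exact setIntegral_near d (fun x : VV => g x (u x.2)) z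

/-- smoothness of `kint` -/
theorem Geo.contDiffOn_kint (G : Geo K O U d R) {g : VV → F →L[ℂ] F} (hg : Ker K U d R g)
    (hgs : ContDiffOn ℝ ∞ g U) {u : V → F} (hu : ContDiffOn ℝ ∞ u O) :
    ContDiffOn ℝ ∞ (kint d g u) (interior K) := by
  have h1 : ContDiffOn ℝ ∞ (fun x : VV => g x (u x.2)) (U ∩ Prod.snd ⁻¹' O) := by
    have h1 : ContDiffOn ℝ ∞ g (U ∩ Prod.snd ⁻¹' O) := hgs.mono inter_subset_left
    have h2 : ContDiffOn ℝ ∞ (fun x : VV => u x.2) (U ∩ Prod.snd ⁻¹' O) :=
      hu.comp contDiffOn_snd fun x hx => hx.2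
    have h3 : ContDiffOn ℝ ∞
        (fun x => (ContinuousLinearMap.restrictScalarsL ℂ F F ℝ ℝ) (g x)) (U ∩ Prod.snd ⁻¹' O) :=
      (ContinuousLinearMap.restrictScalarsL ℂ F F ℝ ℝ).contDiff.comp_contDiffOn h1
    exact h3.clm_apply h2
  rw [kint_eq]
  exact contDiffOn_integral_diag (R := R) volume isOpen_interior
    (G.smooth_ext h1 (hg.app_zero u)) fun z hz w hw => G.ext_zero (hg.app_zero u) hz hw

theorem Geo.contDiffOn_kint_one (G : Geo K O U d R) {g : VV → F →L[ℂ] F} (hg : Ker K U d R g)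
    {u : V → F} (hu : ContDiffOn ℝ 1 u O) :
    ContDiffOn ℝ 1 (kint d g u) (interior K) := by
  rw [kint_eq]
  exact contDiffOn_integral_diag_nat (R := R) volume isOpen_interior 1
    (G.smooth_ext (smooth_app hg.smooth hu) (hg.app_zero u))
    fun z hz w hw => G.ext_zero (hg.app_zero u) hz hw

/-- `∂̄_z` under the integral -/
theorem Geo.dbv_kint (G : Geo K O U d R) {g : VV → F →L[ℂ] F} (hg : Ker K U d R g) {u : V → F}
    (hu : ContDiffOn ℝ 1 u O) {z : V} (hz : z ∈ interior K) (k : Fin 2) :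
    dbv (ev k) (kint d g u) z = kint d (db (iz k) g) u z := by
  have hop : IsOpen (U ∩ Prod.snd ⁻¹' O) := G.open_U.inter (G.open_O.preimage continuous_snd)
  have hΦs := smooth_app hg.smooth hu
  have hext := G.smooth_ext hΦs (hg.app_zero u)
  rw [kint_eq, dbv_integral_diag (R := R) volume isOpen_interior hext
    (fun z hz w hw => G.ext_zero (hg.app_zero u) hz hw) hz]
  have hcmp : ∀ w, dbv ((ev k, 0) : VV) ((near d).indicator (fun x : VV => g x (u x.2))) (z, w) =
      (near d).indicator (fun x : VV => db (iz k) g x (u x.2)) (z, w) := by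
    intro w
    by_cases hw : ((z, w) : VV) ∈ near d
    · have hw' : ‖w - z‖ < d := hw
      have hmem := G.sub' (interior_subset hz) hw'.le
      have hev : (near d).indicator (fun x : VV => g x (u x.2)) =ᶠ[𝓝 (z, w)]
          fun x : VV => g x (u x.2) := by
        filter_upwards [(isOpen_near d).mem_nhds hw] with y hy
        exact indicator_of_mem hy _
      rw [indicator_of_mem hw, dbv_congr hev]
      have hgd : DifferentiableAt ℝ g (z, w) :=
        (hg.smooth.contDiffAt (G.open_U.mem_nhds hmem.1)).differentiableAt (by simp)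
      have hud : DifferentiableAt ℝ u w :=
        (hu.contDiffAt (G.open_O.mem_nhds hmem.2)).differentiableAt (by simp)
      have hud' : DifferentiableAt ℝ (fun x : VV => u x.2) (z, w) :=
        DifferentiableAt.comp (f := fun x : VV => x.2) (z, w) hud differentiableAt_snd
      rw [dbv_apply' _ hgd hud', dbv_fst_const hud, map_zero, add_zero, db, dir_iz]
    · rw [indicator_of_notMem hw]
      have hnR : R < dist w z := by
        have : ¬ ‖w - z‖ < d := hw
        rw [not_lt] at this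
        rw [dist_eq_norm]
        exact G.R_lt.trans_le this
      have hev : (near d).indicator (fun x : VV => g x (u x.2)) =ᶠ[𝓝 (z, w)] fun _ => 0 := by
        have ho : IsOpen {p : VV | R < dist p.2 p.1} :=
          isOpen_lt continuous_const (continuous_snd.dist continuous_fst)
        filter_upwards [ho.mem_nhds (show (z, w) ∈ {p : VV | R < dist p.2 p.1} from hnR),
          (isOpen_interior.prod isOpen_univ).mem_nhds
            (show (z, w) ∈ interior K ×ˢ (univ : Set V) from ⟨hz, mem_univ _⟩)] with p hp hp2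
        exact G.ext_zero (hg.app_zero u) hp2.1 hp
      rw [dbv_congr hev, dbv_const]
  simp only [hcmp]
  rw [← setIntegral_near]
  rfl

/-- additivity of `kint` in the kernel -/
theorem Geo.kint_sub (G : Geo K O U d R) {g g' : VV → F →L[ℂ] F} {u : V → F}
    (hg : ContinuousOn g U) (hg' : ContinuousOn g' U) (hu : ContinuousOn u O) {z : V}
    (hz : z ∈ K) : kint d (fun x => g x - g' x) u z = kint d g u z - kint d g' u z := by
  unfold kint
  rw [← integral_sub (G.integrableOn_app hg hu hz) (G.integrableOn_app hg' hu hz)]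
  rfl

theorem Geo.kint_sub_right (G : Geo K O U d R) {g : VV → F →L[ℂ] F} {u u' : V → F}
    (hg : ContinuousOn g U) (hu : ContinuousOn u O) (hu' : ContinuousOn u' O) {z : V}
    (hz : z ∈ K) : kint d g (fun w => u w - u' w) z = kint d g u z - kint d g u' z := by
  unfold kint
  rw [← integral_sub (G.integrableOn_app hg hu hz) (G.integrableOn_app hg hu' hz)]
  simp only [map_sub]

/-- kernels which agree on the tube -/
theorem Geo.kint_congr (G : Geo K O U d R) {g g' : VV → F →L[ℂ] F} (u : V → F)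
    (h : ∀ x ∈ U, g x = g' x) {z : V} (hz : z ∈ K) : kint d g u z = kint d g' u z := by
  refine setIntegral_congr_fun measurableSet_ball fun v hv => ?_
  have := G.sub z hz v (by
    rw [mem_ball_zero_iff] at hv
    exact hv.le)
  show g (z, z + v) (u (z + v)) = g' (z, z + v) (u (z + v))
  rw [h _ this.1]

/-- **degree 0** for smooth kernels -/
theorem Geo.deg0 (G : Geo K O U d R) {g : Fin 4 → VV → F →L[ℂ] F} (hg : ∀ j, Ker K U d R (g j))
    {S : Fin 4 → Fin 4 → VV → F →L[ℂ] F}
    (hS : ∀ i j, ∀ x ∈ U, db i (g j) x - db j (g i) x = S i j x)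
    {u : V → F} (hu : ContDiffOn ℝ 1 u O) {z : V} (hz : z ∈ K) :
    kint d (g 2) (dbv (ev 1) u) z - kint d (g 3) (dbv (ev 0) u) z = kint d (S 2 3) u z := by
  have a1 := G.ibp (hg 2) hu hz 1
  have a2 := G.ibp (hg 3) hu hz 0
  have e1 : iw 1 = 3 := rfl
  have e2 : iw 0 = 2 := rfl
  rw [e1] at a1
  rw [e2] at a2
  have c1 : ContinuousOn (db 3 (g 2)) U := continuousOn_dbv G.open_U (hg 2).smooth _
  have c2 : ContinuousOn (db 2 (g 3)) U := continuousOn_dbv G.open_U (hg 3).smooth _
  have a3 := G.kint_sub c2 c1 hu.continuousOn hz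
  have a4 : kint d (fun x => db 2 (g 3) x - db 3 (g 2) x) u z = kint d (S 2 3) u z :=
    G.kint_congr u (hS 2 3) hz
  rw [← a4, a3, ← sub_eq_zero]
  have : kint d (g 2) (dbv (ev 1) u) z - kint d (g 3) (dbv (ev 0) u) z -
      (kint d (db 2 (g 3)) u z - kint d (db 3 (g 2)) u z) =
      (kint d (db 3 (g 2)) u z + kint d (g 2) (dbv (ev 1) u) z) -
      (kint d (db 2 (g 3)) u z + kint d (g 3) (dbv (ev 0) u) z) := by abel
  rw [this, a1, a2, sub_zero]

/-- **degree 1** for smooth kernels -/
theorem Geo.deg1 (G : Geo K O U d R) {g : Fin 4 → VV → F →L[ℂ] F} (hg : ∀ j, Ker K U d R (g j))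
    {S : Fin 4 → Fin 4 → VV → F →L[ℂ] F}
    (hS : ∀ i j, ∀ x ∈ U, db i (g j) x - db j (g i) x = S i j x)
    {u0 u1 : V → F} (hu0 : ContDiffOn ℝ 1 u0 O) (hu1 : ContDiffOn ℝ 1 u1 O) {z : V}
    (hz : z ∈ interior K) (k : Fin 2) :
    dbv (ev k) (fun z => kint d (g 2) u1 z - kint d (g 3) u0 z) z +
      kint d (g (iz k)) (fun w => dbv (ev 0) u1 w - dbv (ev 1) u0 w) z =
      kint d (S (iz k) 2) u1 z - kint d (S (iz k) 3) u0 z := by
  have hzK := interior_subset hz
  have d2 : DifferentiableAt ℝ (kint d (g 2) u1) z :=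
    ((G.contDiffOn_kint_one (hg 2) hu1).contDiffAt (isOpen_interior.mem_nhds hz)).differentiableAt
      (by simp)
  have d3 : DifferentiableAt ℝ (kint d (g 3) u0) z :=
    ((G.contDiffOn_kint_one (hg 3) hu0).contDiffAt (isOpen_interior.mem_nhds hz)).differentiableAt
      (by simp)
  rw [dbv_sub d2 d3, G.dbv_kint (hg 2) hu1 hz, G.dbv_kint (hg 3) hu0 hz,
    G.kint_sub_right (hg (iz k)).smooth.continuousOn (continuousOn_dbv G.open_O hu1 _)
      (continuousOn_dbv G.open_O hu0 _) hzK]
  have a1 := G.ibp (hg (iz k)) hu1 hzK 0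
  have a2 := G.ibp (hg (iz k)) hu0 hzK 1
  have e1 : iw 1 = 3 := rfl
  have e2 : iw 0 = 2 := rfl
  rw [e2] at a1
  rw [e1] at a2
  have cz2 : ContinuousOn (db (iz k) (g 2)) U := continuousOn_dbv G.open_U (hg 2).smooth _
  have cz3 : ContinuousOn (db (iz k) (g 3)) U := continuousOn_dbv G.open_U (hg 3).smooth _
  have c2 : ContinuousOn (db 2 (g (iz k))) U := continuousOn_dbv G.open_U (hg (iz k)).smooth _
  have c3 : ContinuousOn (db 3 (g (iz k))) U := continuousOn_dbv G.open_U (hg (iz k)).smooth _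
  have b1 := G.kint_sub cz2 c2 hu1.continuousOn hzK
  have b2 := G.kint_sub cz3 c3 hu0.continuousOn hzK
  have b3 : kint d (fun x => db (iz k) (g 2) x - db 2 (g (iz k)) x) u1 z =
      kint d (S (iz k) 2) u1 z := G.kint_congr u1 (hS (iz k) 2) hzK
  have b4 : kint d (fun x => db (iz k) (g 3) x - db 3 (g (iz k)) x) u0 z =
      kint d (S (iz k) 3) u0 z := G.kint_congr u0 (hS (iz k) 3) hzK
  rw [← b3, ← b4, b1, b2]
  have h1 : kint d (g (iz k)) (dbv (ev 0) u1) z = - kint d (db 2 (g (iz k))) u1 z :=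
    eq_neg_of_add_eq_zero_right a1
  have h2 : kint d (g (iz k)) (dbv (ev 1) u0) z = - kint d (db 3 (g (iz k))) u0 z :=
    eq_neg_of_add_eq_zero_right a2
  rw [h1, h2]
  abel

/-- **degree 2** for smooth kernels -/
theorem Geo.deg2 (G : Geo K O U d R) {g : Fin 4 → VV → F →L[ℂ] F} (hg : ∀ j, Ker K U d R (g j))
    {S : Fin 4 → Fin 4 → VV → F →L[ℂ] F}
    (hS : ∀ i j, ∀ x ∈ U, db i (g j) x - db j (g i) x = S i j x)
    {u : V → F} (hu : ContDiffOn ℝ 1 u O) {z : V} (hz : z ∈ interior K) :
    dbv (ev 0) (kint d (g 1) u) z - dbv (ev 1) (kint d (g 0) u) z = kint d (S 0 1) u z := by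
  have hzK := interior_subset hz
  rw [G.dbv_kint (hg 1) hu hz, G.dbv_kint (hg 0) hu hz]
  have e1 : iz 1 = 1 := rfl
  have e2 : iz 0 = 0 := rfl
  rw [e1, e2]
  have c1 : ContinuousOn (db 0 (g 1)) U := continuousOn_dbv G.open_U (hg 1).smooth _
  have c2 : ContinuousOn (db 1 (g 0)) U := continuousOn_dbv G.open_U (hg 0).smooth _
  rw [← G.kint_sub c1 c2 hu.continuousOn hzK]
  exact G.kint_congr u (hS 0 1) hzK

end kernels

end

end Vale.Agent.P267.H156
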