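import Vale.Agent.P267.H156.Three

/-!
# P267 / RRK-LIM: the bound `‖K_t‖_{L¹} ≤ C √t` for the kernels `h_t(q) A + h_t'(q) A'`,
`h_t(x) = f(x/t)/x` (helper156)
-/

namespace Vale.Agent.P267.H156

open Filter Topology MeasureTheory Set Metric Module

set_option linter.unusedSectionVars false

noncomputable section

section radial

variable {V : Type*} [NormedAddCommGroup V] [NormedSpace ℝ V] [FiniteDimensional ℝ V]
  [MeasurableSpace V] [BorelSpace V] (μ : Measure V) [μ.IsAddHaarMeasure]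

/-- the radial function `1_{[0,R]}(x) x^{-(n-1)}` -/
def rad1 (n : ℕ) (R : ℝ) (x : ℝ) : ℝ := (Iic R).indicator (fun x => (x ^ (n - 1))⁻¹) x

theorem rad1_nonneg (n : ℕ) (R : ℝ) {x : ℝ} (hx : 0 ≤ x) : 0 ≤ rad1 n R x := by
  unfold rad1
  exact indicator_apply_nonneg (fun _ => by positivity)

theorem integrable_rad1 [Nontrivial V] (R : ℝ) :
    Integrable (fun v : V => rad1 (finrank ℝ V) R ‖v‖) μ := by
  rw [integrable_fun_norm_addHaar μ (f := rad1 (finrank ℝ V) R)]
  have h : ∀ y ∈ Ioi (0 : ℝ), y ^ (finrank ℝ V - 1) • rad1 (finrank ℝ V) R y =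
      (Iic R).indicator (fun _ => (1 : ℝ)) y := by
    intro y hy
    have hy' : (0 : ℝ) < y := hy
    unfold rad1
    by_cases h1 : y ∈ Iic R
    · rw [indicator_of_mem h1, indicator_of_mem h1, smul_eq_mul,
        mul_inv_cancel₀ (by positivity)]
    · rw [indicator_of_notMem h1, indicator_of_notMem h1, smul_zero]
  rw [integrableOn_congr_fun h measurableSet_Ioi]
  have h2 : IntegrableOn (fun _ : ℝ => (1 : ℝ)) (Ioi 0 ∩ Iic R) := by
    rw [Ioi_inter_Iic]
    exact integrableOn_const measure_Ioc_lt_top.ne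
  rw [IntegrableOn, integrable_indicator_iff measurableSet_Iic, IntegrableOn,
    Measure.restrict_restrict measurableSet_Iic, inter_comm]
  exact h2

theorem integral_rad1 [Nontrivial V] {R : ℝ} (hR : 0 ≤ R) :
    ∫ v : V, rad1 (finrank ℝ V) R ‖v‖ ∂μ = finrank ℝ V * μ.real (ball 0 1) * R := by
  rw [integral_fun_norm_addHaar μ (f := rad1 (finrank ℝ V) R)]
  have h : ∫ y in Ioi (0 : ℝ), y ^ (finrank ℝ V - 1) • rad1 (finrank ℝ V) R y = R := by
    have h0 : ∀ y ∈ Ioi (0 : ℝ), y ^ (finrank ℝ V - 1) • rad1 (finrank ℝ V) R y =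
        (Iic R).indicator (fun _ => (1 : ℝ)) y := by
      intro y hy
      have hy' : (0 : ℝ) < y := hy
      unfold rad1
      by_cases h1 : y ∈ Iic R
      · rw [indicator_of_mem h1, indicator_of_mem h1, smul_eq_mul,
          mul_inv_cancel₀ (by positivity)]
      · rw [indicator_of_notMem h1, indicator_of_notMem h1, smul_zero]
    rw [setIntegral_congr_fun measurableSet_Ioi h0, integral_indicator measurableSet_Iic,
      Measure.restrict_restrict measurableSet_Iic, inter_comm, Ioi_inter_Iic,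
      setIntegral_const]
    simp [hR]
  rw [h]
  simp only [nsmul_eq_mul, smul_eq_mul]
  ring

end radial

section K

variable {F : Type*} [NormedAddCommGroup F] [NormedSpace ℝ F] [CompleteSpace F]
  {Z : Type*} [TopologicalSpace Z]

/-- `h_t(x) = f(x/t)/x` -/
def hK (f : ℝ → ℝ) (t x : ℝ) : ℝ := f (x / t) / x

/-- `h_t'(x)` -/
def hK' (f f' : ℝ → ℝ) (t x : ℝ) : ℝ := t⁻¹ * f' (x / t) / x - f (x / t) / x ^ 2

variable {f f' f'' : ℝ → ℝ} {G r : ℝ}

theorem hasDerivAt_hK (hf : Cut f f' f'' G r) {t x : ℝ} (ht : 0 < t) (hx : 0 < x) :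
    HasDerivAt (hK f t) (hK' f f' t x) x := by
  have h1 : HasDerivAt (fun x => f (x / t)) (f' (x / t) * t⁻¹) x := by
    have := (hf.d1 (x / t) (by positivity)).comp x ((hasDerivAt_id x).div_const t)
    simpa [Function.comp_def] using this
  have h2 := h1.div (hasDerivAt_id x) hx.ne'
  refine h2.congr_deriv ?_
  simp only [hK', id]
  field_simp

theorem abs_hK_le (hf : Cut f f' f'' G r) {t x : ℝ} (ht : 0 < t) (hx : 0 < x) :
    |hK f t x| ≤ G / x := by
  unfold hK
  rw [abs_div, abs_of_pos hx]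
  exact div_le_div_of_nonneg_right (hf.p0.bdd _ (by positivity)) hx.le

theorem abs_hK'_le (hf : Cut f f' f'' G r) {t x : ℝ} (ht : 0 < t) (hx : 0 < x) :
    |hK' f f' t x| ≤ G * (r + 1) / x ^ 2 := by
  have hG := hf.p0.G_nonneg
  have hr := hf.p0.r_nonneg
  have h1 : |t⁻¹ * f' (x / t) / x| ≤ G * r / x ^ 2 := by
    rcases le_or_gt r (x / t) with h | h
    · rw [hf.p1.zero _ h, mul_zero, zero_div, abs_zero]
      positivity
    · rw [abs_div, abs_mul, abs_of_pos hx, abs_of_pos (inv_pos.2 ht)]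
      have h2 : |f' (x / t)| ≤ G := hf.p1.bdd _ (by positivity)
      have h3 : x ≤ r * t := by
        rw [div_lt_iff₀ ht] at h
        exact h.le
      rw [div_le_div_iff₀ hx (by positivity)]
      have h4 : t⁻¹ * |f' (x / t)| * x ≤ G * r := by
        calc t⁻¹ * |f' (x / t)| * x ≤ t⁻¹ * G * (r * t) := by gcongr
          _ = G * r := by field_simp
      calc t⁻¹ * |f' (x / t)| * x ^ 2 = t⁻¹ * |f' (x / t)| * x * x := by ring
        _ ≤ G * r * x := mul_le_mul_of_nonneg_right h4 hx.le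
  have h2 : |f (x / t) / x ^ 2| ≤ G / x ^ 2 := by
    rw [abs_div, abs_of_pos (by positivity : 0 < x ^ 2)]
    exact div_le_div_of_nonneg_right (hf.p0.bdd _ (by positivity)) (by positivity)
  unfold hK'
  calc |t⁻¹ * f' (x / t) / x - f (x / t) / x ^ 2| ≤
      |t⁻¹ * f' (x / t) / x| + |f (x / t) / x ^ 2| := abs_sub _ _
    _ ≤ G * r / x ^ 2 + G / x ^ 2 := add_le_add h1 h2
    _ = _ := by ring

theorem hK_zero (hf : Cut f f' f'' G r) {t x : ℝ} (h : r ≤ x / t) : hK f t x = 0 := by
  unfold hK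
  rw [hf.p0.zero _ h, zero_div]

theorem hK'_zero (hf : Cut f f' f'' G r) {t x : ℝ} (h : r ≤ x / t) : hK' f f' t x = 0 := by
  unfold hK'
  rw [hf.p0.zero _ h, hf.p1.zero _ h]
  simp

/-- the singular kernel `h_t(q) A + h_t'(q) A'` -/
def kerK (f f' : ℝ → ℝ) (q : (Fin 2 → ℂ) → ℝ) (A A' : (Fin 2 → ℂ) → F) (t : ℝ)
    (v : Fin 2 → ℂ) : F :=
  hK f t (q v) • A v + hK' f f' t (q v) • A' v

/-- pointwise bound -/
theorem norm_kerK_le {q : (Fin 2 → ℂ) → ℝ} {c d : ℝ} (hq : SqDist q c d)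
    (hf : Cut f f' f'' G r) {A A' : (Fin 2 → ℂ) → F} {B : ℝ} (hB : 0 ≤ B)
    (hA : ∀ v, ‖v‖ < d → ‖A v‖ ≤ B * ‖v‖) (hA' : ∀ v, ‖v‖ < d → ‖A' v‖ ≤ B * ‖v‖)
    {t : ℝ} (ht : 0 < t) {v : Fin 2 → ℂ} (hv : ‖v‖ < d) :
    ‖kerK f f' q A A' t v‖ ≤
      (G * B / c * d ^ 2 + G * (r + 1) * B / c ^ 2) *
        rad1 4 (Real.sqrt (r * t / c)) ‖v‖ := by
  have hc := hq.c_pos
  have hd := hq.d_pos
  have hG := hf.p0.G_nonneg
  have hr := hf.p0.r_nonneg
  have hlow := hq.lower v hv
  have hconst : 0 ≤ G * B / c * d ^ 2 + G * (r + 1) * B / c ^ 2 := by positivity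
  rcases (norm_nonneg v).eq_or_lt with h0 | h0
  · -- v = 0
    have hv0 : v = 0 := norm_eq_zero.1 h0.symm
    have e1 : A v = 0 := by
      have := hA v hv
      rw [← h0, mul_zero] at this
      exact norm_le_zero_iff.1 this
    have e2 : A' v = 0 := by
      have := hA' v hv
      rw [← h0, mul_zero] at this
      exact norm_le_zero_iff.1 this
    unfold kerK
    rw [e1, e2, smul_zero, smul_zero, add_zero, norm_zero]
    exact mul_nonneg hconst (rad1_nonneg _ _ (norm_nonneg v))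
  · have hqpos : 0 < q v := lt_of_lt_of_le (by positivity) hlow
    by_cases hR : ‖v‖ ≤ Real.sqrt (r * t / c)
    · have hrad : rad1 4 (Real.sqrt (r * t / c)) ‖v‖ = (‖v‖ ^ 3)⁻¹ := by
        unfold rad1
        rw [indicator_of_mem (by exact hR)]
      rw [hrad]
      have b1 : ‖hK f t (q v) • A v‖ ≤ G * B / c * d ^ 2 * (‖v‖ ^ 3)⁻¹ := by
        rw [norm_smul, Real.norm_eq_abs]
        calc |hK f t (q v)| * ‖A v‖ ≤ (G / (c * ‖v‖ ^ 2)) * (B * ‖v‖) := by
              refine mul_le_mul ((abs_hK_le hf ht hqpos).trans ?_) (hA v hv) (norm_nonneg _)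
                (by positivity)
              exact div_le_div_of_nonneg_left hG (by positivity) hlow
          _ = G * B / c * ‖v‖ ^ 2 * (‖v‖ ^ 3)⁻¹ := by field_simp
          _ ≤ _ := by
              refine mul_le_mul_of_nonneg_right ?_ (by positivity)
              refine mul_le_mul_of_nonneg_left ?_ (by positivity)
              exact pow_le_pow_left₀ h0.le hv.le 2
      have b2 : ‖hK' f f' t (q v) • A' v‖ ≤ G * (r + 1) * B / c ^ 2 * (‖v‖ ^ 3)⁻¹ := by
        rw [norm_smul, Real.norm_eq_abs]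
        calc |hK' f f' t (q v)| * ‖A' v‖ ≤ (G * (r + 1) / (c * ‖v‖ ^ 2) ^ 2) * (B * ‖v‖) := by
              refine mul_le_mul ((abs_hK'_le hf ht hqpos).trans ?_) (hA' v hv) (norm_nonneg _)
                (by positivity)
              refine div_le_div_of_nonneg_left (by positivity) (by positivity) ?_
              exact pow_le_pow_left₀ (by positivity) hlow 2
          _ = _ := by field_simp
      unfold kerK
      calc ‖hK f t (q v) • A v + hK' f f' t (q v) • A' v‖ ≤ _ := norm_add_le _ _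
        _ ≤ _ := add_le_add b1 b2
        _ = _ := by ring
    · rw [not_le] at hR
      have h1 : r * t / c < ‖v‖ ^ 2 :=
        (Real.sqrt_lt' (lt_of_le_of_lt (Real.sqrt_nonneg _) hR)).1 hR
      rw [div_lt_iff₀ hc] at h1
      have h2 : r ≤ q v / t := by
        rw [le_div_iff₀ ht]
        linarith
      unfold kerK
      rw [hK_zero hf h2, hK'_zero hf h2, zero_smul, zero_smul, add_zero, norm_zero]
      exact mul_nonneg hconst (rad1_nonneg _ _ (norm_nonneg v))

/-- the constant in the bound for the singular kernels -/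
def constK (G r B c d : ℝ) : ℝ :=
  (G * B / c * d ^ 2 + G * (r + 1) * B / c ^ 2) *
    (4 * (volume : Measure (Fin 2 → ℂ)).real (ball 0 1) * Real.sqrt (r / c))

theorem integrableOn_kerK {q : (Fin 2 → ℂ) → ℝ} {c d : ℝ} (hq : SqDist q c d)
    (hf : Cut f f' f'' G r) {A A' : (Fin 2 → ℂ) → F} {B : ℝ} (hB : 0 ≤ B)
    (hqm : AEStronglyMeasurable q (volume.restrict (ball 0 d)))
    (hAm : AEStronglyMeasurable A (volume.restrict (ball 0 d)))
    (hAm' : AEStronglyMeasurable A' (volume.restrict (ball 0 d)))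
    (hA : ∀ v, ‖v‖ < d → ‖A v‖ ≤ B * ‖v‖) (hA' : ∀ v, ‖v‖ < d → ‖A' v‖ ≤ B * ‖v‖)
    {t : ℝ} (ht : 0 < t) :
    IntegrableOn (kerK f f' q A A' t) (ball 0 d) := by
  have h1 : IntegrableOn (fun v : Fin 2 → ℂ =>
      (G * B / c * d ^ 2 + G * (r + 1) * B / c ^ 2) *
        rad1 4 (Real.sqrt (r * t / c)) ‖v‖) (ball 0 d) := by
    have := integrable_rad1 (volume : Measure (Fin 2 → ℂ)) (Real.sqrt (r * t / c))
    rw [finrank_V] at this
    exact (this.const_mul _).integrableOn
  refine Integrable.mono' h1 ?_ ?_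
  · have m1 : Measurable (hK f t) := by
      unfold hK
      have := hf.c0.measurable
      fun_prop
    have m2 : Measurable (hK' f f' t) := by
      unfold hK'
      have := hf.c0.measurable
      have := hf.c1.measurable
      fun_prop
    unfold kerK
    exact ((m1.comp_aemeasurable hqm.aemeasurable).aestronglyMeasurable.smul hAm).add
      ((m2.comp_aemeasurable hqm.aemeasurable).aestronglyMeasurable.smul hAm')
  · refine (ae_restrict_iff' measurableSet_ball).2 (Eventually.of_forall fun v hv => ?_)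
    exact norm_kerK_le hq hf hB hA hA' ht (by simpa using hv)

/-- (KBOUND) -/
theorem integral_norm_kerK_le {q : (Fin 2 → ℂ) → ℝ} {c d : ℝ} (hq : SqDist q c d)
    (hf : Cut f f' f'' G r) {A A' : (Fin 2 → ℂ) → F} {B : ℝ} (hB : 0 ≤ B)
    (hA : ∀ v, ‖v‖ < d → ‖A v‖ ≤ B * ‖v‖) (hA' : ∀ v, ‖v‖ < d → ‖A' v‖ ≤ B * ‖v‖)
    {t : ℝ} (ht : 0 < t) :
    ∫ v in ball (0 : Fin 2 → ℂ) d, ‖kerK f f' q A A' t v‖ ≤ constK G r B c d * Real.sqrt t := by
  have hc := hq.c_pos
  have hG := hf.p0.G_nonneg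
  have hr := hf.p0.r_nonneg
  have hconst : 0 ≤ G * B / c * d ^ 2 + G * (r + 1) * B / c ^ 2 := by positivity
  have h0 := integrable_rad1 (volume : Measure (Fin 2 → ℂ)) (Real.sqrt (r * t / c))
  have h0' := integral_rad1 (volume : Measure (Fin 2 → ℂ)) (Real.sqrt_nonneg (r * t / c))
  rw [finrank_V] at h0 h0'
  calc ∫ v in ball (0 : Fin 2 → ℂ) d, ‖kerK f f' q A A' t v‖
      ≤ ∫ v in ball (0 : Fin 2 → ℂ) d, (G * B / c * d ^ 2 + G * (r + 1) * B / c ^ 2) *
        rad1 4 (Real.sqrt (r * t / c)) ‖v‖ := by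
        refine integral_mono_of_nonneg (Eventually.of_forall fun v => norm_nonneg _)
          (h0.const_mul _).integrableOn ?_
        refine (ae_restrict_iff' measurableSet_ball).2 (Eventually.of_forall fun v hv => ?_)
        exact norm_kerK_le hq hf hB hA hA' ht (by simpa using hv)
    _ ≤ ∫ v : Fin 2 → ℂ, (G * B / c * d ^ 2 + G * (r + 1) * B / c ^ 2) *
        rad1 4 (Real.sqrt (r * t / c)) ‖v‖ := by
        refine setIntegral_le_integral (h0.const_mul _) (Eventually.of_forall fun v => ?_)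
        exact mul_nonneg hconst (rad1_nonneg _ _ (norm_nonneg v))
    _ = (G * B / c * d ^ 2 + G * (r + 1) * B / c ^ 2) *
        ((4 : ℕ) * (volume : Measure (Fin 2 → ℂ)).real (ball 0 1) *
          Real.sqrt (r * t / c)) := by
        rw [integral_const_mul, h0']
    _ = _ := by
        unfold constK
        have : Real.sqrt (r * t / c) = Real.sqrt (r / c) * Real.sqrt t := by
          rw [← Real.sqrt_mul (by positivity)]
          congr 1
          ring
        rw [this]
        push_cast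
        ring

end K

end

end Vale.Agent.P267.H156
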