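import Mathlib

/-!
# P267 / RRK-LIM: uniform Taylor estimates along `{z} × V` near a compact set (helper156)
-/

namespace Vale.Agent.P267.H156

open Filter Topology Set Metric
open scoped ContDiff

noncomputable section

variable {P V W : Type*} [NormedAddCommGroup P] [NormedSpace ℝ P]
  [NormedAddCommGroup V] [NormedSpace ℝ V] [FiniteDimensional ℝ V]
  [NormedAddCommGroup W] [NormedSpace ℝ W]

/-- a tube around `K × {0}` -/
theorem exists_tube {K : Set P} (hK : IsCompact K) {U : Set (P × V)} (hU : IsOpen U)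
    (h : ∀ z ∈ K, (z, (0 : V)) ∈ U) :
    ∃ d > 0, K ×ˢ closedBall (0 : V) d ⊆ U := by
  obtain ⟨u, v, hu, hv, hKu, h0v, huv⟩ := generalized_tube_lemma hK
    (isCompact_singleton (x := (0 : V))) hU (by
      rintro ⟨z, v⟩ ⟨hz, hv⟩
      rw [mem_singleton_iff] at hv
      subst hv
      exact h z hz)
  obtain ⟨ε, hε, hb⟩ := Metric.isOpen_iff.1 hv 0 (h0v rfl)
  refine ⟨ε / 2, half_pos hε, ?_⟩
  rintro ⟨z, x⟩ ⟨hz, hx⟩
  refine huv ⟨hKu hz, hb ?_⟩
  rw [mem_closedBall_zero_iff] at hx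
  rw [mem_ball_zero_iff]
  simp only at hx ⊢
  linarith

variable {K : Set P} {U : Set (P × V)} {d : ℝ} {φ : P × V → W}

theorem bdd_of_contOn (hK : IsCompact K) (hφ : ContinuousOn φ (K ×ˢ closedBall (0 : V) d)) :
    ∃ C, 0 ≤ C ∧ ∀ z ∈ K, ∀ v, ‖v‖ ≤ d → ‖φ (z, v)‖ ≤ C := by
  obtain ⟨C, hC⟩ := (hK.prod (isCompact_closedBall (0 : V) d)).exists_bound_of_continuousOn hφ
  exact ⟨max C 0, le_max_right _ _, fun z hz v hv =>
    (hC (z, v) ⟨hz, by simpa using hv⟩).trans (le_max_left _ _)⟩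

/-- first order -/
theorem taylor1 (hK : IsCompact K) (hU : IsOpen U) (hsub : K ×ˢ closedBall (0 : V) d ⊆ U)
    (hφ : ContDiffOn ℝ 1 φ U) (h0 : ∀ z ∈ K, φ (z, 0) = 0) :
    ∃ C, 0 ≤ C ∧ ∀ z ∈ K, ∀ v, ‖v‖ ≤ d → ‖φ (z, v)‖ ≤ C * ‖v‖ := by
  have hc : ContinuousOn (fderiv ℝ φ) (K ×ˢ closedBall (0 : V) d) :=
    (hφ.continuousOn_fderiv_of_isOpen hU le_rfl).mono hsub
  obtain ⟨C, hC0, hC⟩ := bdd_of_contOn hK hc
  refine ⟨C, hC0, fun z hz v hv => ?_⟩
  have hd : ∀ x ∈ closedBall (0 : V) d, HasFDerivWithinAt (fun x => φ (z, x))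
      ((fderiv ℝ φ (z, x)).comp (ContinuousLinearMap.inr ℝ P V)) (closedBall (0 : V) d) x := by
    intro x hx
    have h1 : HasFDerivAt φ (fderiv ℝ φ (z, x)) (z, x) :=
      ((hφ.contDiffAt (hU.mem_nhds (hsub ⟨hz, hx⟩))).differentiableAt (by simp)).hasFDerivAt
    exact (h1.comp x (hasFDerivAt_prodMk_right z x)).hasFDerivWithinAt
  have hb : ∀ x ∈ closedBall (0 : V) d,
      ‖(fderiv ℝ φ (z, x)).comp (ContinuousLinearMap.inr ℝ P V)‖ ≤ C := by
    intro x hx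
    refine (ContinuousLinearMap.opNorm_comp_le _ _).trans ?_
    have h2 := hC z hz x (by simpa using hx)
    have h3 : ‖ContinuousLinearMap.inr ℝ P V‖ ≤ 1 := by
      refine ContinuousLinearMap.opNorm_le_bound _ zero_le_one fun y => ?_
      simp [Prod.norm_def]
    calc _ ≤ C * 1 := mul_le_mul h2 h3 (norm_nonneg _) hC0
      _ = C := mul_one C
  have h0d : (0 : V) ∈ closedBall (0 : V) d := by
    simpa using (norm_nonneg v).trans hv
  have hvd : v ∈ closedBall (0 : V) d := by simpa using hv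
  have := (convex_closedBall (0 : V) d).norm_image_sub_le_of_norm_hasFDerivWithin_le hd hb h0d hvd
  rw [h0 z hz, sub_zero, sub_zero] at this
  exact this

/-- second order -/
theorem taylor2 (hK : IsCompact K) (hU : IsOpen U) (hsub : K ×ˢ closedBall (0 : V) d ⊆ U)
    (hφ : ContDiffOn ℝ 2 φ U) (h0 : ∀ z ∈ K, φ (z, 0) = 0)
    (h1 : ∀ z ∈ K, ∀ v, fderiv ℝ φ (z, 0) (0, v) = 0) :
    ∃ C, 0 ≤ C ∧ ∀ z ∈ K, ∀ v, ‖v‖ ≤ d → ‖φ (z, v)‖ ≤ C * ‖v‖ ^ 2 := by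
  -- the partial derivative
  have hψ : ContDiffOn ℝ 1 (fun p => (fderiv ℝ φ p).comp (ContinuousLinearMap.inr ℝ P V)) U := by
    have h2 : ContDiffOn ℝ 1 (fderiv ℝ φ) U :=
      hφ.fderiv_of_isOpen hU (by norm_num)
    exact h2.clm_comp contDiffOn_const
  obtain ⟨C, hC0, hC⟩ := taylor1 hK hU hsub hψ (by
    intro z hz
    ext v
    simpa using h1 z hz v)
  refine ⟨C, hC0, fun z hz v hv => ?_⟩
  have hv' : closedBall (0 : V) ‖v‖ ⊆ closedBall (0 : V) d := closedBall_subset_closedBall hv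
  have hd : ∀ x ∈ closedBall (0 : V) ‖v‖, HasFDerivWithinAt (fun x => φ (z, x))
      ((fderiv ℝ φ (z, x)).comp (ContinuousLinearMap.inr ℝ P V)) (closedBall (0 : V) ‖v‖) x := by
    intro x hx
    have h1 : HasFDerivAt φ (fderiv ℝ φ (z, x)) (z, x) :=
      ((hφ.contDiffAt (hU.mem_nhds (hsub ⟨hz, hv' hx⟩))).differentiableAt (by simp)).hasFDerivAt
    exact (h1.comp x (hasFDerivAt_prodMk_right z x)).hasFDerivWithinAt
  have hb : ∀ x ∈ closedBall (0 : V) ‖v‖,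
      ‖(fderiv ℝ φ (z, x)).comp (ContinuousLinearMap.inr ℝ P V)‖ ≤ C * ‖v‖ := by
    intro x hx
    have hx1 : ‖x‖ ≤ ‖v‖ := by simpa using hx
    exact (hC z hz x (hx1.trans hv)).trans (mul_le_mul_of_nonneg_left hx1 hC0)
  have h0d : (0 : V) ∈ closedBall (0 : V) ‖v‖ := by simp
  have hvd : v ∈ closedBall (0 : V) ‖v‖ := by simp
  have := (convex_closedBall (0 : V) ‖v‖).norm_image_sub_le_of_norm_hasFDerivWithin_le hd hb
    h0d hvd
  rw [h0 z hz, sub_zero, sub_zero] at this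
  calc _ ≤ C * ‖v‖ * ‖v‖ := this
    _ = _ := by ring

end

end Vale.Agent.P267.H156
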