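import Vale.Agent.P267.H315.KerCalc
import Vale.Agent.P267.H156.KBound
import Vale.Agent.P267.H156.Tay

/-!
# P267 / RRK-LIM for the kernels `KData.S`, `KData.K` (helper156)
-/

namespace Vale.Agent.P267.H156

open Filter Topology MeasureTheory Set Metric Module
open Vale.Agent.P267.H315
open scoped ContDiff

set_option linter.unusedSectionVars false

noncomputable section

/-- `(z, v) ↦ (z, z + v)` -/
def sh : VV →L[ℝ] VV :=
  (ContinuousLinearMap.fst ℝ V V).prod
    (ContinuousLinearMap.fst ℝ V V + ContinuousLinearMap.snd ℝ V V)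

@[simp] theorem sh_apply (p : VV) : sh p = (p.1, p.1 + p.2) := rfl

variable {A : Type*} [NormedRing A] [NormedAlgebra ℂ A]

/-- hypotheses of the limit theorems -/
structure LimHyp (D : KData A) (U : Set VV) (O : Set V) (h : V → Matrix (Fin 2) (Fin 2) ℂ) :
    Prop where
  rel : D.Rel U
  open_U : IsOpen U
  open_O : IsOpen O
  diag : ∀ z ∈ O, (z, z) ∈ U
  h_smooth : ∀ a c, ContDiffOn ℝ ∞ (fun z => h z a c) O
  isHerm : ∀ z ∈ O, (h z).IsHermitian
  pos : ∀ z ∈ O, 0 < (h z 0 0).re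
  det_pos : ∀ z ∈ O, 0 < (h z).det.re
  b_eq : ∀ x ∈ U, ∀ a, D.b a x = ∑ c, h x.1 a c * star (D.s c x)
  s_diag : ∀ z ∈ O, ∀ a, D.s a (z, z) = 0
  ds_diag : ∀ z ∈ O, ∀ a v, fderiv ℝ (D.s a) (z, z) (0, v) = v a
  m_diag : ∀ z ∈ O, D.m (z, z) = 1

/-! ### perturbation of hermitian forms -/

theorem herm_diff {H : Matrix (Fin 2) (Fin 2) ℂ} {M : ℝ} (hM : ∀ a c, ‖H a c‖ ≤ M)
    (y e : Fin 2 → ℂ) :
    |(herm H (y + e)).re - (herm H y).re| ≤ 4 * M * (2 * ‖y‖ * ‖e‖ + ‖e‖ ^ 2) := by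
  have hM0 : 0 ≤ M := (norm_nonneg _).trans (hM 0 0)
  have h1 : herm H (y + e) - herm H y =
      ∑ a, ∑ c, H a c * (y a * star (e c) + e a * star (y c) + e a * star (e c)) := by
    unfold herm
    rw [← Finset.sum_sub_distrib]
    refine Finset.sum_congr rfl fun a _ => ?_
    rw [← Finset.sum_sub_distrib]
    refine Finset.sum_congr rfl fun c _ => ?_
    simp only [Pi.add_apply, star_add]
    ring
  have h2 : ∀ a c, ‖H a c * (y a * star (e c) + e a * star (y c) + e a * star (e c))‖ ≤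
      M * (2 * ‖y‖ * ‖e‖ + ‖e‖ ^ 2) := by
    intro a c
    rw [norm_mul]
    refine mul_le_mul (hM a c) ?_ (norm_nonneg _) hM0
    refine norm_add₃_le.trans ?_
    simp only [norm_mul, norm_star]
    have y1 := norm_le_pi_norm y a
    have y2 := norm_le_pi_norm y c
    have e1 := norm_le_pi_norm e a
    have e2 := norm_le_pi_norm e c
    have k1 := mul_le_mul y1 e2 (norm_nonneg _) (norm_nonneg _)
    have k2 := mul_le_mul e1 y2 (norm_nonneg _) (norm_nonneg _)
    have k3 := mul_le_mul e1 e2 (norm_nonneg _) (norm_nonneg _)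
    nlinarith
  calc |(herm H (y + e)).re - (herm H y).re| = |(herm H (y + e) - herm H y).re| := by
        rw [Complex.sub_re]
    _ ≤ ‖herm H (y + e) - herm H y‖ := Complex.abs_re_le_norm _
    _ ≤ ∑ a, ∑ c, ‖H a c * (y a * star (e c) + e a * star (y c) + e a * star (e c))‖ := by
        rw [h1]
        exact (norm_sum_le _ _).trans (Finset.sum_le_sum fun a _ => norm_sum_le _ _)
    _ ≤ ∑ a : Fin 2, ∑ c : Fin 2, M * (2 * ‖y‖ * ‖e‖ + ‖e‖ ^ 2) :=
        Finset.sum_le_sum fun a _ => Finset.sum_le_sum fun c _ => h2 a c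
    _ = _ := by simp; ring

theorem herm_pos {H : Matrix (Fin 2) (Fin 2) ℂ} (hh : H.IsHermitian) (h0 : 0 < (H 0 0).re)
    (hd : 0 < H.det.re) {y : Fin 2 → ℂ} (hy : y ≠ 0) : 0 < (herm H y).re := by
  rw [herm_eq hh h0]
  by_cases h1 : y 1 = 0
  · have h2 : y 0 ≠ 0 := by
      intro h2
      apply hy
      funext i
      fin_cases i
      · exact h2
      · exact h1
    rw [h1]
    simp only [mul_zero, add_zero, norm_zero]
    have : 0 < ‖y 0‖ := norm_pos_iff.2 h2
    positivity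
  · have : 0 < ‖y 1‖ := norm_pos_iff.2 h1
    positivity

theorem herm_smul (H : Matrix (Fin 2) (Fin 2) ℂ) (ε : ℝ) (y : Fin 2 → ℂ) :
    (herm H (ε • y)).re = ε ^ 2 * (herm H y).re := by
  have : herm H (ε • y) = ((ε ^ 2 : ℝ) : ℂ) * herm H y := by
    unfold herm
    rw [Finset.mul_sum]
    refine Finset.sum_congr rfl fun a _ => ?_
    rw [Finset.mul_sum]
    refine Finset.sum_congr rfl fun c _ => ?_
    simp only [Pi.smul_apply, Complex.real_smul, star_mul', Complex.star_def, Complex.conj_ofReal]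
    push_cast
    ring
  rw [this, Complex.re_ofReal_mul]

/-- uniform lower bound -/
theorem exists_lower {K : Set V} (hK : IsCompact K) {h : V → Matrix (Fin 2) (Fin 2) ℂ}
    (hc : ∀ a c, ContinuousOn (fun z => h z a c) K)
    (hh : ∀ z ∈ K, (h z).IsHermitian) (h0 : ∀ z ∈ K, 0 < (h z 0 0).re)
    (hd : ∀ z ∈ K, 0 < (h z).det.re) :
    ∃ c > 0, ∀ z ∈ K, ∀ v, c * ‖v‖ ^ 2 ≤ (herm (h z) v).re := by
  rcases K.eq_empty_or_nonempty with rfl | hne
  · exact ⟨1, one_pos, fun z hz => absurd hz (by simp)⟩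
  have hcont : ContinuousOn (fun p : V × V => (herm (h p.1) p.2).re)
      (K ×ˢ sphere (0 : V) 1) := by
    refine Complex.continuous_re.comp_continuousOn ?_
    unfold herm
    refine continuousOn_finsetSum _ fun a _ => continuousOn_finsetSum _ fun c _ => ?_
    have h1 : ContinuousOn (fun p : V × V => h p.1 a c) (K ×ˢ sphere (0 : V) 1) :=
      (hc a c).comp continuousOn_fst fun p hp => hp.1
    have h2 : ContinuousOn (fun p : V × V => p.2 a) (K ×ˢ sphere (0 : V) 1) := by fun_prop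
    have h3 : ContinuousOn (fun p : V × V => star (p.2 c)) (K ×ˢ sphere (0 : V) 1) := by
      fun_prop
    exact (h1.mul h2).mul h3
  have hne' : (K ×ˢ sphere (0 : V) 1).Nonempty := by
    refine hne.prod ?_
    exact NormedSpace.sphere_nonempty.2 zero_le_one
  obtain ⟨p, hp, hmin⟩ := (hK.prod (isCompact_sphere (0 : V) 1)).exists_isMinOn hne' hcont
  have hpos : 0 < (herm (h p.1) p.2).re :=
    herm_pos (hh _ hp.1) (h0 _ hp.1) (hd _ hp.1) (by
      intro h
      have := hp.2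
      rw [h] at this
      simp at this)
  refine ⟨_, hpos, fun z hz v => ?_⟩
  rcases eq_or_ne v 0 with rfl | hv
  · simp [herm]
  · have hv' : 0 < ‖v‖ := norm_pos_iff.2 hv
    have hs : (‖v‖⁻¹ • v) ∈ sphere (0 : V) 1 := by
      rw [mem_sphere_zero_iff_norm, norm_smul, norm_inv, norm_norm, inv_mul_cancel₀ hv'.ne']
    have h1 := hmin (show (z, ‖v‖⁻¹ • v) ∈ K ×ˢ sphere (0 : V) 1 from ⟨hz, hs⟩)
    simp only [Set.mem_ofPred_eq] at h1
    rw [herm_smul] at h1
    calc (herm (h p.1) p.2).re * ‖v‖ ^ 2 ≤ ‖v‖⁻¹ ^ 2 * (herm (h z) v).re * ‖v‖ ^ 2 :=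
          mul_le_mul_of_nonneg_right h1 (by positivity)
      _ = _ := by field_simp

namespace LimHyp

variable {D : KData A} {U : Set VV} {O : Set V} {h : V → Matrix (Fin 2) (Fin 2) ℂ}
  (H : LimHyp D U O h)

include H

theorem rr_eq {x : VV} (hx : x ∈ U) : D.rr x = herm (h x.1) (fun a => D.s a x) := by
  unfold KData.rr herm
  rw [H.b_eq x hx, H.b_eq x hx]
  simp only [Fin.sum_univ_two]
  ring

theorem b_diag {z : V} (hz : z ∈ O) (a : Fin 2) : D.b a (z, z) = 0 := by
  rw [H.b_eq _ (H.diag z hz)]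
  simp [H.s_diag z hz]

theorem shU_open : IsOpen (sh ⁻¹' U) := H.open_U.preimage sh.continuous

theorem comp_sh {W : Type*} [NormedAddCommGroup W] [NormedSpace ℝ W] {g : VV → W} {n : ℕ∞}
    (hg : ContDiffOn ℝ n g U) : ContDiffOn ℝ n (fun p : VV => g (sh p)) (sh ⁻¹' U) :=
  hg.comp sh.contDiff.contDiffOn fun _ hp => hp

/-- the main uniform estimate -/
theorem exists_tubeQ {K : Set V} (hK : IsCompact K) (hKO : K ⊆ O) :
    ∃ c C d₀, 0 < c ∧ 0 < d₀ ∧ (∀ z ∈ K, ∀ v : V, ‖v‖ ≤ d₀ → (z, z + v) ∈ U ∧ z + v ∈ O) ∧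
      ∀ d, 0 < d → d ≤ d₀ → TubeQ K h (fun z v => (D.rr (z, z + v)).re) c C d := by
  have hcont : ∀ a c, ContinuousOn (fun z => h z a c) K := fun a c =>
    (H.h_smooth a c).continuousOn.mono hKO
  obtain ⟨c, hc, hlow⟩ := exists_lower hK hcont (fun z hz => H.isHerm z (hKO hz))
    (fun z hz => H.pos z (hKO hz)) (fun z hz => H.det_pos z (hKO hz))
  -- the tube
  obtain ⟨d1, hd1, hsub1⟩ := exists_tube hK H.shU_open (fun z hz => by
    show sh (z, 0) ∈ U
    rw [sh_apply, add_zero]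
    exact H.diag z (hKO hz))
  obtain ⟨d2, hd2, hsub2⟩ := exists_tube (P := V) (V := V) hK
    (H.open_O.preimage (show Continuous fun p : V × V => p.1 + p.2 by fun_prop)) (fun z hz => by
      show z + 0 ∈ O
      rw [add_zero]
      exact hKO hz)
  set d3 := min (min d1 d2) 1 with hd3
  have hd3pos : 0 < d3 := by positivity
  have hsub : K ×ˢ closedBall (0 : V) d3 ⊆ sh ⁻¹' U :=
    (Set.prod_mono le_rfl (closedBall_subset_closedBall
      ((min_le_left _ _).trans (min_le_left _ _)))).trans hsub1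
  -- Taylor for s
  have hT : ∀ a, ∃ C, 0 ≤ C ∧ ∀ z ∈ K, ∀ v : V, ‖v‖ ≤ d3 →
      ‖D.s a (z, z + v) - v a‖ ≤ C * ‖v‖ ^ 2 := by
    intro a
    have hφ : ContDiffOn ℝ ∞ (fun p : VV => D.s a (sh p) - p.2 a) (sh ⁻¹' U) := by
      refine (H.comp_sh (H.rel.smooth_s a)).sub ?_
      have : ContDiff ℝ ∞ (fun p : VV => p.2 a) := by fun_prop
      exact this.contDiffOn
    refine taylor2 (φ := fun p : VV => D.s a (sh p) - p.2 a) hK H.shU_open hsub
      (hφ.of_le (WithTop.coe_le_coe.2 le_top)) ?_ ?_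
    · intro z hz
      simp [H.s_diag z (hKO hz)]
    · intro z hz v
      have h1 : HasFDerivAt (D.s a) (fderiv ℝ (D.s a) (sh (z, 0))) (sh (z, 0)) := by
        have : sh (z, (0 : V)) = (z, z) := by simp
        rw [this]
        exact (H.rel.ds' H.open_U (H.diag z (hKO hz)) a).hasFDerivAt
      have h2 := h1.comp (z, (0 : V)) sh.hasFDerivAt
      have h3 : HasFDerivAt (fun p : VV => p.2 a)
          ((ContinuousLinearMap.proj (R := ℝ) (φ := fun _ : Fin 2 => ℂ) a).comp
            (ContinuousLinearMap.snd ℝ V V)) (z, (0 : V)) :=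
        ((ContinuousLinearMap.proj (R := ℝ) (φ := fun _ : Fin 2 => ℂ) a).comp
            (ContinuousLinearMap.snd ℝ V V)).hasFDerivAt
      have h4 := (h2.sub h3).fderiv
      have h5 : fderiv ℝ (fun p : VV => D.s a (sh p) - p.2 a) (z, 0) =
          (fderiv ℝ (D.s a) (sh (z, 0))).comp sh -
          ((ContinuousLinearMap.proj (R := ℝ) (φ := fun _ : Fin 2 => ℂ) a).comp
            (ContinuousLinearMap.snd ℝ V V)) := h4
      rw [h5]
      have := H.ds_diag z (hKO hz) a v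
      simp only [ContinuousLinearMap.sub_apply, ContinuousLinearMap.comp_apply, sh_apply,
        add_zero, zero_add, this, ContinuousLinearMap.coe_snd', ContinuousLinearMap.proj_apply,
        sub_self]
  choose Cs hCs0 hCs using hT
  set S := Cs 0 + Cs 1 with hS
  have hS0 : 0 ≤ S := add_nonneg (hCs0 0) (hCs0 1)
  have hs : ∀ z ∈ K, ∀ v : V, ‖v‖ ≤ d3 → ‖(fun a => D.s a (z, z + v)) - v‖ ≤ S * ‖v‖ ^ 2 := by
    intro z hz v hv
    rw [pi_norm_le_iff_of_nonneg (by positivity)]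
    intro a
    have h1 := hCs a z hz v hv
    have h2 : Cs a ≤ S := by
      fin_cases a
      · simpa [hS] using hCs0 1
      · simpa [hS] using hCs0 0
    exact h1.trans (mul_le_mul_of_nonneg_right h2 (by positivity))
  -- bound for h
  have hM : ∃ M, 0 ≤ M ∧ ∀ z ∈ K, ∀ a c, ‖h z a c‖ ≤ M := by
    have : ∀ a c, ∃ M, ∀ z ∈ K, ‖h z a c‖ ≤ M := fun a c =>
      hK.exists_bound_of_continuousOn (hcont a c)
    choose M hM using this
    refine ⟨∑ a, ∑ c, |M a c|, by positivity, fun z hz a c => ?_⟩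
    calc ‖h z a c‖ ≤ |M a c| := (hM a c z hz).trans (le_abs_self _)
      _ ≤ ∑ c, |M a c| := Finset.single_le_sum (f := fun c => |M a c|)
          (fun c _ => abs_nonneg _) (Finset.mem_univ c)
      _ ≤ _ := Finset.single_le_sum (f := fun a => ∑ c, |M a c|)
          (fun a _ => Finset.sum_nonneg fun c _ => abs_nonneg _) (Finset.mem_univ a)
  obtain ⟨M, hM0, hM⟩ := hM
  set C := 4 * M * (2 * S + S ^ 2) with hC
  have hC0 : 0 ≤ C := by positivity
  have herr : ∀ z ∈ K, ∀ v : V, ‖v‖ ≤ d3 →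
      |(D.rr (z, z + v)).re - (herm (h z) v).re| ≤ C * ‖v‖ ^ 3 := by
    intro z hz v hv
    have hx : (z, z + v) ∈ U := hsub (show (z, v) ∈ K ×ˢ closedBall (0 : V) d3 from ⟨hz, by simpa using hv⟩)
    rw [H.rr_eq hx]
    have h1 := herm_diff (hM z hz) v ((fun a => D.s a (z, z + v)) - v)
    rw [add_sub_cancel] at h1
    refine h1.trans ?_
    have h2 := hs z hz v hv
    have hv1 : ‖v‖ ≤ 1 := hv.trans (min_le_right _ _)
    have h3 : ‖(fun a => D.s a (z, z + v)) - v‖ ^ 2 ≤ S ^ 2 * ‖v‖ ^ 3 := by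
      calc ‖(fun a => D.s a (z, z + v)) - v‖ ^ 2 ≤ (S * ‖v‖ ^ 2) ^ 2 :=
            pow_le_pow_left₀ (norm_nonneg _) h2 2
        _ = S ^ 2 * ‖v‖ ^ 3 * ‖v‖ := by ring
        _ ≤ S ^ 2 * ‖v‖ ^ 3 * 1 := by gcongr
        _ = _ := mul_one _
    have h4 : 2 * ‖v‖ * ‖(fun a => D.s a (z, z + v)) - v‖ ≤ 2 * S * ‖v‖ ^ 3 := by
      calc 2 * ‖v‖ * ‖(fun a => D.s a (z, z + v)) - v‖ ≤ 2 * ‖v‖ * (S * ‖v‖ ^ 2) := by gcongr
        _ = _ := by ring
    calc 4 * M * (2 * ‖v‖ * ‖(fun a => D.s a (z, z + v)) - v‖ +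
          ‖(fun a => D.s a (z, z + v)) - v‖ ^ 2) ≤
          4 * M * (2 * S * ‖v‖ ^ 3 + S ^ 2 * ‖v‖ ^ 3) := by gcongr
      _ = _ := by rw [hC]; ring
  refine ⟨c, C, min d3 (rad c C), hc, ?_, ?_, ?_⟩
  · refine lt_min hd3pos ?_
    unfold rad
    positivity
  · intro z hz v hv
    have hv3 : ‖v‖ ≤ d3 := hv.trans (min_le_left _ _)
    refine ⟨hsub (show (z, v) ∈ K ×ˢ closedBall (0 : V) d3 from ⟨hz, by simpa using hv3⟩), ?_⟩
    exact hsub2 (show (z, v) ∈ K ×ˢ closedBall (0 : V) d2 from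
      ⟨hz, by simpa using hv3.trans ((min_le_left _ _).trans (min_le_right _ _))⟩)
  · intro d hd0 hd
    have hdd : ∀ v : V, ‖v‖ < d → ‖v‖ ≤ d3 := fun v hv =>
      hv.le.trans (hd.trans (min_le_left _ _))
    refine ⟨⟨hc, hC0, hd0, fun z _ ε v => herm_smul _ _ _, hlow,
      fun z hz v hv => herr z hz v (hdd v hv), fun v => ?_⟩, hd.trans (min_le_right _ _), ?_,
      fun z hz => H.isHerm z (hKO hz), fun z hz => H.pos z (hKO hz),
      fun z hz => H.det_pos z (hKO hz)⟩
    · refine Complex.continuous_re.comp_continuousOn ?_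
      unfold herm
      refine continuousOn_finsetSum _ fun a _ => continuousOn_finsetSum _ fun c _ => ?_
      exact ((hcont a c).mul continuousOn_const).mul continuousOn_const
    · intro z hz
      refine ContinuousOn.aestronglyMeasurable ?_ measurableSet_ball
      refine Complex.continuous_re.comp_continuousOn ?_
      unfold KData.rr
      have hmap : ContinuousOn (fun v : V => ((z, z + v) : VV)) (ball 0 d) := by fun_prop
      have hmaps : MapsTo (fun v : V => ((z, z + v) : VV)) (ball 0 d) U := fun v hv =>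
        hsub (show (z, v) ∈ K ×ˢ closedBall (0 : V) d3 from
          ⟨hz, by simpa using hdd v (by simpa using hv)⟩)
      exact (((H.rel.smooth_b 0).continuousOn.comp hmap hmaps).mul
        ((H.rel.smooth_s 0).continuousOn.comp hmap hmaps)).add
        (((H.rel.smooth_b 1).continuousOn.comp hmap hmaps).mul
        ((H.rel.smooth_s 1).continuousOn.comp hmap hmaps))

end LimHyp

end

end Vale.Agent.P267.H156
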