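import Vale.Agent.P267.H315.KerUse
import Vale.Agent.P267.H156.KLim

/-!
# P267 / RRK-LIM for the kernels `KData.Sf`, `KData.Kf` (helper156)
-/

namespace Vale.Agent.P267.H156

open Filter Topology MeasureTheory Set Metric Module
open Vale.Agent.P267.H315
open scoped ContDiff

set_option linter.unusedSectionVars false

noncomputable section

/-! ### values on the diagonal -/

section diag

variable {A : Type*} [NormedRing A] [NormedAlgebra ℂ A] {D : KData A} {U : Set VV} {O : Set V}
  {h : V → Matrix (Fin 2) (Fin 2) ℂ} (H : LimHyp D U O h)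

include H

theorem LimHyp.B_w {z : V} (hz : z ∈ O) (k a : Fin 2) :
    D.B (![2, 3] k) a (z, z) = h z a k := by
  have hx := H.diag z hz
  have hb : D.B (![2, 3] k) a (z, z) = db (![2, 3] k) (D.b a) (z, z) := by
    simp [KData.B, H.b_diag hz]
  rw [hb]
  -- the function b_a near (z,z)
  have he : D.b a =ᶠ[𝓝 (z, z)] fun x => ∑ c, h x.1 a c * star (D.s c x) := by
    filter_upwards [H.open_U.mem_nhds hx] with x hx' using H.b_eq x hx' a
  have hs : ∀ c, HasFDerivAt (D.s c) (fderiv ℝ (D.s c) (z, z)) (z, z) := fun c =>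
    (H.rel.ds' H.open_U hx c).hasFDerivAt
  have hh : ∀ c, HasFDerivAt (fun x : VV => h x.1 a c)
      ((fderiv ℝ (fun z => h z a c) z).comp (ContinuousLinearMap.fst ℝ V V)) (z, z) := by
    intro c
    have h1 : HasFDerivAt (fun z => h z a c) (fderiv ℝ (fun z => h z a c) z) z :=
      (((H.h_smooth a c).contDiffAt (H.open_O.mem_nhds hz)).differentiableAt
        (by simp)).hasFDerivAt
    exact h1.comp (z, z) (ContinuousLinearMap.fst ℝ V V).hasFDerivAt
  have hf : fderiv ℝ (D.b a) (z, z) = ∑ c, h z a c •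
      ((Complex.conjCLE : ℂ →L[ℝ] ℂ).comp (fderiv ℝ (D.s c) (z, z))) := by
    rw [he.fderiv_eq]
    have h1 : HasFDerivAt (fun x : VV => ∑ c, h x.1 a c * star (D.s c x))
        (∑ c, (h z a c • ((Complex.conjCLE : ℂ →L[ℝ] ℂ).comp (fderiv ℝ (D.s c) (z, z))) +
          (star (D.s c (z, z))) •
            ((fderiv ℝ (fun z => h z a c) z).comp (ContinuousLinearMap.fst ℝ V V)))) (z, z) := by
      refine HasFDerivAt.fun_sum fun c _ => ?_
      have h2 : HasFDerivAt (fun x => star (D.s c x))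
          ((Complex.conjCLE : ℂ →L[ℝ] ℂ).comp (fderiv ℝ (D.s c) (z, z))) (z, z) :=
        ((Complex.conjCLE : ℂ →L[ℝ] ℂ).hasFDerivAt).comp (z, z) (hs c)
      exact (hh c).mul h2
    rw [h1.fderiv]
    refine Finset.sum_congr rfl fun c _ => ?_
    rw [H.s_diag z hz c, star_zero]
    refine ContinuousLinearMap.ext fun v => ?_
    simp [ContinuousLinearMap.add_apply]
  have hd : ∀ v : V, fderiv ℝ (D.b a) (z, z) (0, v) = ∑ c, h z a c * star (v c) := by
    intro v
    rw [hf]
    simp only [ContinuousLinearMap.sum_apply, ContinuousLinearMap.smul_apply,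
      ContinuousLinearMap.comp_apply, H.ds_diag z hz, smul_eq_mul]
    rfl
  have e' (v : V) : Complex.I • ((0, v) : VV) = (0, Complex.I • v) := by simp
  have hdir : dir (![2, 3] k) = ((0, Pi.single k 1) : VV) := by
    fin_cases k <;> simp [dir]
  rw [db, hdir, dbv, e', hd, hd]
  fin_cases k <;> fin_cases a <;> simp [Fin.sum_univ_two] <;> ring_nf <;> simp [Complex.I_sq] <;>
    ring_nf

theorem LimHyp.B_z {z : V} (hz : z ∈ O) (k a : Fin 2) :
    D.B (![0, 1] k) a (z, z) = - h z a k := by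
  have hx := H.diag z hz
  have hB (j : Fin 4) (a : Fin 2) : D.B j a (z, z) = db j (D.b a) (z, z) := by
    simp [KData.B, H.b_diag hz]
  have hd := KData.Rel.db_diag (H.rel.db' H.open_U hx a) (by
    filter_upwards [H.open_O.mem_nhds hz] with y hy using H.b_diag hy a)
  have hw := H.B_w hz k a
  rw [hB] at hw ⊢
  fin_cases k
  · simp only [Fin.zero_eta, Matrix.cons_val_zero] at hw ⊢
    rw [← hw, hd.1, neg_neg]
  · simp only [Fin.mk_one, Matrix.cons_val_one] at hw ⊢
    simp only [Matrix.cons_val_fin_one] at hw ⊢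
    rw [← hw, hd.2, neg_neg]

/-- the sign table of `N_jk` on the diagonal -/
def sg (j k : Fin 4) : ℝ :=
  if (j = 2 ∧ k = 3) ∨ (j = 0 ∧ k = 1) ∨ (j = 1 ∧ k = 2) ∨ (j = 3 ∧ k = 0) then 1
  else if (j = 3 ∧ k = 2) ∨ (j = 1 ∧ k = 0) ∨ (j = 2 ∧ k = 1) ∨ (j = 0 ∧ k = 3) then -1 else 0

theorem LimHyp.N_diag {z : V} (hz : z ∈ O) (j k : Fin 4) :
    D.N j k (z, z) = sg j k * (h z).det := by
  have b0 := H.B_z hz 0
  have b1 := H.B_z hz 1
  have b2 := H.B_w hz 0
  have b3 := H.B_w hz 1
  simp only [Matrix.cons_val_zero, Matrix.cons_val_one, Matrix.cons_val_fin_one] at b0 b1 b2 b3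
  rw [Matrix.det_fin_two]
  unfold KData.N wc sg
  fin_cases j <;> fin_cases k <;> simp [b0, b1, b2, b3] <;> ring

theorem LimHyp.N_diag_re {z : V} (hz : z ∈ O) (j k : Fin 4) :
    D.N j k (z, z) = ((sg j k * (h z).det.re : ℝ) : ℂ) := by
  rw [H.N_diag hz]
  have hh := H.isHerm z hz
  have : (h z).det.im = 0 := by
    have h1 : star (h z).det = (h z).det := by
      rw [← Matrix.det_conjTranspose, hh.eq]
    rw [Complex.star_def, Complex.conj_eq_iff_im] at h1
    exact h1
  apply Complex.ext <;> simp [this]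

end diag

end

end Vale.Agent.P267.H156
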