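import Vale.Agent.P267.H156.KLim2

/-!
# P267 / RRK-LIM: final statements for `KData.Sf`, `KData.Kf` (helper156)

* `LimHyp.exists_tube` : all data of a tube around a compact set
* `Tube.tendsto_S` : `∫ S_jk(f(·/t))(z,w) u(w) dw → -π² f(0) sg j k • u z` uniformly on `K`
* `Tube.bound_S`, `Tube.support_S` : bounds
* `Tube.bound_K`, `Tube.integrable_K` : `‖K_t(z,·)‖_{L¹} ≤ C √t`
-/

namespace Vale.Agent.P267.H156

open Filter Topology MeasureTheory Set Metric Module
open Vale.Agent.P267.H315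
open scoped ContDiff

set_option linter.unusedSectionVars false

noncomputable section

/-- `x ↦ f(x/t)` -/
def ft (f : ℝ → ℝ) (t : ℝ) : ℝ → ℂ := fun x => ((f (x / t) : ℝ) : ℂ)

theorem hasDerivAt_comp_div {g g' : ℝ → ℝ} {t x c : ℝ} (hg : HasDerivAt g (g' (x / t)) (x / t)) :
    HasDerivAt (fun x => ((c * g (x / t) : ℝ) : ℂ)) ((c * (g' (x / t) * t⁻¹) : ℝ) : ℂ) x := by
  have h1 : HasDerivAt (fun x => g (x / t)) (g' (x / t) * t⁻¹) x := by
    have := hg.comp x ((hasDerivAt_id x).div_const t)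
    simpa [Function.comp_def] using this
  exact (h1.const_mul c).ofReal_comp

theorem deriv_ft {f : ℝ → ℝ} (hf : Differentiable ℝ f) (t : ℝ) :
    deriv (ft f t) = fun x => ((t⁻¹ * deriv f (x / t) : ℝ) : ℂ) := by
  funext x
  have h1 := hasDerivAt_comp_div (c := 1) (g' := deriv f) (x := x) (t := t)
    (hf (x / t)).hasDerivAt
  simp only [one_mul] at h1
  rw [show ft f t = fun x => ((f (x / t) : ℝ) : ℂ) from rfl, h1.deriv, mul_comm]

theorem deriv2_ft {f : ℝ → ℝ} (hf : Differentiable ℝ f) (hf' : Differentiable ℝ (deriv f))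
    (t : ℝ) :
    deriv (deriv (ft f t)) = fun x => (((t ^ 2)⁻¹ * deriv (deriv f) (x / t) : ℝ) : ℂ) := by
  rw [deriv_ft hf]
  funext x
  have h1 := hasDerivAt_comp_div (c := t⁻¹) (g' := deriv (deriv f)) (x := x) (t := t)
    (hf' (x / t)).hasDerivAt
  rw [h1.deriv]
  congr 1
  ring

variable {A : Type*} [NormedRing A] [NormedAlgebra ℂ A]

/-- coefficient of `f''` -/
def cN (D : KData A) (j k : Fin 4) (x : VV) : A := -(D.N j k x • D.m x)

/-- coefficient of `f'` -/
def cQ (D : KData A) (j k : Fin 4) (x : VV) : A := D.Q j k x * D.m x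

/-- coefficient of `f` -/
def cP (D : KData A) (j k : Fin 4) (x : VV) : A := D.P j k x * D.m x

/-- coefficients in `K` -/
def cA (D : KData A) (j : Fin 4) (x : VV) : A :=
  -(wd (fun a => D.b a x) (fun a => D.Ga j a x) * D.m x)

def cA' (D : KData A) (j : Fin 4) (x : VV) : A :=
  -((wc (fun a => D.b a x) (fun a => D.B j a x)) • D.m x)

theorem Sf_eq (D : KData A) {f : ℝ → ℝ} (hf : Differentiable ℝ f)
    (hf' : Differentiable ℝ (deriv f)) (t : ℝ) (j k : Fin 4) (x : VV) :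
    D.Sf (ft f t) j k x =
      ((t ^ 2)⁻¹ * deriv (deriv f) ((D.rr x).re / t)) • cN D j k x +
      (t⁻¹ * deriv f ((D.rr x).re / t)) • cQ D j k x + f ((D.rr x).re / t) • cP D j k x := by
  unfold KData.Sf KData.S KData.T KData.fr cN cQ cP
  rw [deriv2_ft hf hf', deriv_ft hf]
  simp only [ft]
  rw [sub_mul, add_mul, smul_mul_assoc, smul_mul_assoc, smul_mul_assoc, one_mul, mul_smul,
    Complex.coe_smul, Complex.coe_smul, Complex.coe_smul, smul_neg]
  abel

theorem Kf_eq (D : KData A) (g : ℝ → ℂ) (j : Fin 4) (x : VV) :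
    D.Kf g j x = g (D.rr x).re • cA D j x + deriv g (D.rr x).re • cA' D j x := by
  unfold KData.Kf KData.K KData.L KData.fr cA cA'
  rw [sub_mul, neg_mul, smul_mul_assoc, smul_mul_assoc, one_mul, mul_smul, smul_neg, smul_neg]
  abel

/-- the tube data -/
structure Tube (D : KData A) (U : Set VV) (O : Set V) (h : V → Matrix (Fin 2) (Fin 2) ℂ)
    (K : Set V) (c C d : ℝ) : Prop where
  H : LimHyp D U O h
  compact : IsCompact K
  sub_O : K ⊆ O
  c_pos : 0 < c
  d_pos : 0 < d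
  sub : ∀ z ∈ K, ∀ v : V, ‖v‖ ≤ d → (z, z + v) ∈ U ∧ z + v ∈ O
  tq : TubeQ K h (fun z v => (D.rr (z, z + v)).re) c C d

variable {D : KData A} {U : Set VV} {O : Set V} {h : V → Matrix (Fin 2) (Fin 2) ℂ}
  {K : Set V} {c C d : ℝ}

theorem LimHyp.exists_tube (H : LimHyp D U O h) (hK : IsCompact K) (hKO : K ⊆ O) :
    ∃ c C d₀, 0 < d₀ ∧ ∀ d, 0 < d → d ≤ d₀ → Tube D U O h K c C d := by
  obtain ⟨c, C, d₀, hc, hd₀, h1, h2⟩ := H.exists_tubeQ hK hKO
  exact ⟨c, C, d₀, hd₀, fun d hd hdd => ⟨H, hK, hKO, hc, hd,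
    fun z hz v hv => h1 z hz v (hv.trans hdd), h2 d hd hdd⟩⟩

namespace Tube

variable (T : Tube D U O h K c C d)
include T

theorem contOn_sh : ContinuousOn (fun p : V × V => ((p.1, p.1 + p.2) : VV))
    (K ×ˢ closedBall 0 d) := by fun_prop

theorem mapsTo_sh : MapsTo (fun p : V × V => ((p.1, p.1 + p.2) : VV))
    (K ×ˢ closedBall 0 d) U := fun p hp =>
  (T.sub p.1 hp.1 p.2 (by simpa using hp.2)).1

theorem mapsTo_add : MapsTo (fun p : V × V => p.1 + p.2) (K ×ˢ closedBall 0 d) O :=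
  fun p hp => (T.sub p.1 hp.1 p.2 (by simpa using hp.2)).2

/-- any function continuous on the closed tube is an admissible coefficient -/
theorem exists_tubeC {F : Type*} [NormedAddCommGroup F] [NormedSpace ℝ F] {g : V × V → F}
    (hg : ContinuousOn g (K ×ˢ closedBall 0 d)) :
    ∃ B, ∀ B', B ≤ B' → TubeC K (fun z v => g (z, v)) d B' := by
  obtain ⟨B, hB⟩ := (T.compact.prod (isCompact_closedBall (0 : V) d)).exists_bound_of_continuousOn
    hg
  refine ⟨B, fun B' hB' => ⟨hg.mono (Set.prod_mono le_rfl ball_subset_closedBall),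
    fun z hz v hv => (hB (z, v) ⟨hz, by simpa using hv.le⟩).trans hB'⟩⟩

theorem cont_cN (j k : Fin 4) : ContinuousOn (cN D j k) U := fun _ hx =>
  (((T.H.rel.cN T.H.open_U hx j k).continuousAt.smul
    (T.H.rel.cm T.H.open_U hx).continuousAt).neg).continuousWithinAt

theorem cont_cQ (j k : Fin 4) : ContinuousOn (cQ D j k) U := fun _ hx =>
  ((T.H.rel.cQ T.H.open_U hx j k).continuousAt.mul
    (T.H.rel.cm T.H.open_U hx).continuousAt).continuousWithinAt

theorem cont_cP (j k : Fin 4) : ContinuousOn (cP D j k) U := fun _ hx =>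
  ((T.H.rel.cP T.H.open_U hx j k).continuousAt.mul
    (T.H.rel.cm T.H.open_U hx).continuousAt).continuousWithinAt

theorem rr_nonneg {z : V} (hz : z ∈ K) {v : V} (hv : ‖v‖ < d) : 0 ≤ (D.rr (z, z + v)).re :=
  T.tq.nonneg hz hv

theorem lower {z : V} (hz : z ∈ K) {v : V} (hv : ‖v‖ < d) :
    c / 2 * ‖v‖ ^ 2 ≤ (D.rr (z, z + v)).re := (T.tq.sqDist hz).lower v hv

/-- the value of `cN` on the diagonal -/
theorem cN_diag {z : V} (hz : z ∈ K) (j k : Fin 4) :
    cN D j k (z, z) = (-(sg j k * (h z).det.re) : ℝ) • (1 : A) := by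
  unfold cN
  rw [T.H.N_diag_re (T.sub_O hz), T.H.m_diag z (T.sub_O hz), Complex.coe_smul, neg_smul]

/-- **LIMIT** -/
theorem tendsto_S {F F' : Type*} [NormedAddCommGroup F] [NormedSpace ℂ F]
    [NormedAddCommGroup F'] [NormedSpace ℂ F'] [CompleteSpace F']
    (act : A →L[ℂ] F →L[ℂ] F') {f : ℝ → ℝ} (hf : ContDiff ℝ 2 f) {r : ℝ} (hr : 0 ≤ r)
    (h0 : ∀ x, r ≤ x → f x = 0) {u : V → F} (hu : ContinuousOn u O) (j k : Fin 4) :
    TendstoUniformlyOn (fun (t : ℝ) z => ∫ v in ball (0 : V) d,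
        act (D.Sf (ft f t) j k (z, z + v)) (u (z + v)))
      (fun z => (-(Real.pi ^ 2 * f 0 * sg j k) : ℝ) • act 1 (u z)) (𝓝[>] 0) K := by
  obtain ⟨G, hcut⟩ := exists_cut hf hr h0
  have hfd : Differentiable ℝ f := hf.differentiable (by norm_num)
  have hfd' : Differentiable ℝ (deriv f) := by
    have h1 : ContDiff ℝ (1 + 1) f := by simpa [one_add_one_eq_two] using hf
    exact (((contDiff_succ_iff_deriv).1 h1).2.2).differentiable (by norm_num)
  -- coefficients
  have hco : ∀ g : VV → A, ContinuousOn g U →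
      ContinuousOn (fun p : V × V => act (g (p.1, p.1 + p.2)) (u (p.1 + p.2)))
        (K ×ˢ closedBall 0 d) := by
    intro g hg
    have h1 : ContinuousOn (fun p : V × V => g (p.1, p.1 + p.2)) (K ×ˢ closedBall 0 d) :=
      hg.comp T.contOn_sh T.mapsTo_sh
    have h2 : ContinuousOn (fun p : V × V => u (p.1 + p.2)) (K ×ˢ closedBall 0 d) :=
      hu.comp (by fun_prop) T.mapsTo_add
    exact (act.continuous.comp_continuousOn h1).clm_apply h2
  obtain ⟨B1, hB1⟩ := T.exists_tubeC (hco _ (T.cont_cN j k))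
  obtain ⟨B2, hB2⟩ := T.exists_tubeC (hco _ (T.cont_cQ j k))
  obtain ⟨B3, hB3⟩ := T.exists_tubeC (hco _ (T.cont_cP j k))
  set B := max B1 (max B2 B3)
  have key := tendstoUniformlyOn_ker3 T.compact T.tq hcut
    (hB1 B (le_max_left _ _)) (hB2 B ((le_max_left _ _).trans (le_max_right _ _)))
    (hB3 B ((le_max_right _ _).trans (le_max_right _ _)))
  refine (key.congr ?_).congr_right ?_
  · refine Eventually.of_forall fun t z _ => ?_
    refine integral_congr_ae (Eventually.of_forall fun v => ?_)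
    simp only [ker3]
    rw [Sf_eq D hfd hfd']
    simp only [map_add, ContinuousLinearMap.map_smul_of_tower, ContinuousLinearMap.add_apply,
      ContinuousLinearMap.smul_apply]
  · intro z hz
    have hdet := T.H.det_pos z (T.sub_O hz)
    simp only [add_zero]
    rw [T.cN_diag hz, ContinuousLinearMap.map_smul_of_tower, ContinuousLinearMap.smul_apply,
      smul_smul]
    congr 1
    field_simp

/-- support -/
theorem support_S {f : ℝ → ℝ} (hf : ContDiff ℝ 2 f) {r : ℝ} (hr : 0 ≤ r)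
    (h0 : ∀ x, r ≤ x → f x = 0) {t : ℝ} (ht : 0 < t) {z : V} (hz : z ∈ K) {v : V}
    (hv : ‖v‖ < d) (hrv : r * t ≤ c / 2 * ‖v‖ ^ 2) (j k : Fin 4) :
    D.Sf (ft f t) j k (z, z + v) = 0 := by
  obtain ⟨G, hcut⟩ := exists_cut hf hr h0
  have hfd : Differentiable ℝ f := hf.differentiable (by norm_num)
  have hfd' : Differentiable ℝ (deriv f) := by
    have h1 : ContDiff ℝ (1 + 1) f := by simpa [one_add_one_eq_two] using hf
    exact (((contDiff_succ_iff_deriv).1 h1).2.2).differentiable (by norm_num)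
  have h1 : r ≤ (D.rr (z, z + v)).re / t := by
    rw [le_div_iff₀ ht]
    exact hrv.trans (T.lower hz hv)
  rw [Sf_eq D hfd hfd', hcut.p0.zero _ h1, hcut.p1.zero _ h1, hcut.p2.zero _ h1]
  simp

/-- **BOUND**, `L¹` and pointwise -/
theorem bound_S [CompleteSpace A] {f : ℝ → ℝ} (hf : ContDiff ℝ 2 f) {r : ℝ} (hr : 0 ≤ r)
    (h0 : ∀ x, r ≤ x → f x = 0) (j k : Fin 4) :
    ∃ C1, 0 ≤ C1 ∧ ∀ t, 0 < t → t ≤ 1 → ∀ z ∈ K,
      (∀ v, ‖v‖ < d → ‖D.Sf (ft f t) j k (z, z + v)‖ ≤ C1 * (t ^ 2)⁻¹) ∧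
      IntegrableOn (fun v => D.Sf (ft f t) j k (z, z + v)) (ball (0 : V) d) ∧
      ∫ v in ball (0 : V) d, ‖D.Sf (ft f t) j k (z, z + v)‖ ≤ C1 := by
  obtain ⟨G, hcut⟩ := exists_cut hf hr h0
  have hfd : Differentiable ℝ f := hf.differentiable (by norm_num)
  have hfd' : Differentiable ℝ (deriv f) := by
    have h1 : ContDiff ℝ (1 + 1) f := by simpa [one_add_one_eq_two] using hf
    exact (((contDiff_succ_iff_deriv).1 h1).2.2).differentiable (by norm_num)
  have hco : ∀ g : VV → A, ContinuousOn g U →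
      ContinuousOn (fun p : V × V => g (p.1, p.1 + p.2)) (K ×ˢ closedBall 0 d) :=
    fun g hg => hg.comp T.contOn_sh T.mapsTo_sh
  obtain ⟨B1, hB1⟩ := T.exists_tubeC (hco _ (T.cont_cN j k))
  obtain ⟨B2, hB2⟩ := T.exists_tubeC (hco _ (T.cont_cQ j k))
  obtain ⟨B3, hB3⟩ := T.exists_tubeC (hco _ (T.cont_cP j k))
  set B := max (max B1 0) (max B2 B3)
  have hB0 : 0 ≤ B := (le_max_right _ _).trans (le_max_left _ _)
  have t1 := hB1 B ((le_max_left _ _).trans (le_max_left _ _))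
  have t2 := hB2 B ((le_max_left _ _).trans (le_max_right _ _))
  have t3 := hB3 B ((le_max_right _ _).trans (le_max_right _ _))
  have hG := hcut.p0.G_nonneg
  set W := 3 * (G * B * volume.real (closedBall (0 : Fin 2 → ℂ) (Real.sqrt (r / (c / 2)))))
  have hW : 0 ≤ W := by positivity
  refine ⟨max W (3 * (G * B)), hW.trans (le_max_left _ _), fun t ht ht1 z hz => ⟨?_, ?_, ?_⟩⟩
  · intro v hv
    rw [Sf_eq D hfd hfd']
    have hx : 0 ≤ (D.rr (z, z + v)).re / t := div_nonneg (T.rr_nonneg hz hv) ht.le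
    have ht2 : 1 ≤ (t ^ 2)⁻¹ := by
      rw [one_le_inv₀ (by positivity)]
      nlinarith
    have ht3 : t⁻¹ ≤ (t ^ 2)⁻¹ := by
      refine inv_anti₀ (by positivity) ?_
      nlinarith
    have n1 : ‖((t ^ 2)⁻¹ * deriv (deriv f) ((D.rr (z, z + v)).re / t)) •
        cN D j k (z, z + v)‖ ≤ (t ^ 2)⁻¹ * G * B := by
      rw [norm_smul, norm_mul, Real.norm_of_nonneg (by positivity : 0 ≤ (t ^ 2)⁻¹),
        Real.norm_eq_abs]
      have := hcut.p2.bdd _ hx
      have := t1.bdd z hz v hv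
      gcongr
    have n2 : ‖(t⁻¹ * deriv f ((D.rr (z, z + v)).re / t)) •
        cQ D j k (z, z + v)‖ ≤ (t ^ 2)⁻¹ * G * B := by
      rw [norm_smul, norm_mul, Real.norm_of_nonneg (by positivity : 0 ≤ t⁻¹),
        Real.norm_eq_abs]
      have := hcut.p1.bdd _ hx
      have := t2.bdd z hz v hv
      gcongr
    have n3 : ‖f ((D.rr (z, z + v)).re / t) • cP D j k (z, z + v)‖ ≤ (t ^ 2)⁻¹ * G * B := by
      rw [norm_smul, Real.norm_eq_abs]
      have k1 := hcut.p0.bdd _ hx
      have k2 := t3.bdd z hz v hv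
      calc |f ((D.rr (z, z + v)).re / t)| * ‖cP D j k (z, z + v)‖ ≤ G * B := by gcongr
        _ = 1 * G * B := by ring
        _ ≤ _ := by gcongr
    calc _ ≤ (t ^ 2)⁻¹ * G * B + (t ^ 2)⁻¹ * G * B + (t ^ 2)⁻¹ * G * B :=
          norm_add₃_le.trans (add_le_add (add_le_add n1 n2) n3)
      _ = 3 * (G * B) * (t ^ 2)⁻¹ := by ring
      _ ≤ _ := by
        refine mul_le_mul_of_nonneg_right (le_max_right _ _) (by positivity)
  · have e : (fun v => D.Sf (ft f t) j k (z, z + v)) =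
        ker3 f (deriv f) (deriv (deriv f)) (fun v => (D.rr (z, z + v)).re)
          (fun v => cN D j k (z, z + v)) (fun v => cQ D j k (z, z + v))
          (fun v => cP D j k (z, z + v)) t := by
      funext v
      rw [Sf_eq D hfd hfd']
      rfl
    rw [e]
    have hn : ∀ v, ‖v‖ < d → 0 ≤ (D.rr (z, z + v)).re := fun v hv => T.rr_nonneg hz hv
    have i2 := integrableOn_kernel (volume : Measure (Fin 2 → ℂ)) (T.tq.meas z hz) hn hcut.c2
      hcut.p2 (t1.meas hz) (t1.bdd z hz) ht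
    have i1 := integrableOn_kernel (volume : Measure (Fin 2 → ℂ)) (T.tq.meas z hz) hn hcut.c1
      hcut.p1 (t2.meas hz) (t2.bdd z hz) ht
    have i0 := integrableOn_kernel (volume : Measure (Fin 2 → ℂ)) (T.tq.meas z hz) hn hcut.c0
      hcut.p0 (t3.meas hz) (t3.bdd z hz) ht
    have := (((i2.smul (t ^ 2)⁻¹).add (i1.smul t⁻¹)).add i0)
    refine Integrable.congr this (Eventually.of_forall fun v => ?_)
    simp only [Pi.add_apply, Pi.smul_apply, ker3, smul_smul]
  · have e : ∀ v, D.Sf (ft f t) j k (z, z + v) =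
        ker3 f (deriv f) (deriv (deriv f)) (fun v => (D.rr (z, z + v)).re)
          (fun v => cN D j k (z, z + v)) (fun v => cQ D j k (z, z + v))
          (fun v => cP D j k (z, z + v)) t v := by
      intro v
      rw [Sf_eq D hfd hfd']
      rfl
    simp only [e]
    exact (norm_ker3_le T.tq hcut t1 t2 t3 ht ht1 hz).trans (le_max_left _ _)

end Tube

end

end Vale.Agent.P267.H156
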