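import Vale.Agent.P267.H156.KLim3

/-!
# P267 / RRK-LIM: bounds for the kernels `KData.Kf` (helper156)
-/

namespace Vale.Agent.P267.H156

open Filter Topology MeasureTheory Set Metric Module
open Vale.Agent.P267.H315
open scoped ContDiff

set_option linter.unusedSectionVars false

noncomputable section

/-- the singular profile `x ↦ f(x/t)/x` -/
def hKc (f : ℝ → ℝ) (t : ℝ) : ℝ → ℂ := fun x => ((hK f t x : ℝ) : ℂ)

theorem deriv_hKc {f f' f'' : ℝ → ℝ} {G r : ℝ} (hf : Cut f f' f'' G r) {t x : ℝ} (ht : 0 < t)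
    (hx : 0 < x) : deriv (hKc f t) x = ((hK' f f' t x : ℝ) : ℂ) :=
  (hasDerivAt_hK hf ht hx).ofReal_comp.deriv

variable {A : Type*} [NormedRing A] [NormedAlgebra ℂ A]
variable {D : KData A} {U : Set VV} {O : Set V} {h : V → Matrix (Fin 2) (Fin 2) ℂ}
  {K : Set V} {c C d : ℝ}

namespace Tube

variable (T : Tube D U O h K c C d)
include T

theorem cA_diag {z : V} (hz : z ∈ K) (j : Fin 4) : cA D j (z, z) = 0 := by
  have hb := T.H.b_diag (T.sub_O hz)
  simp [cA, wd, hb]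

theorem cA'_diag {z : V} (hz : z ∈ K) (j : Fin 4) : cA' D j (z, z) = 0 := by
  have hb := T.H.b_diag (T.sub_O hz)
  simp [cA', wc, hb]

theorem smooth_cA (j : Fin 4) : ContDiffOn ℝ ∞ (cA D j) U := fun x hx => by
  have h := T.H.rel
  have hU := T.H.open_U
  refine ContDiffAt.contDiffWithinAt ?_
  have e1 : ContDiffAt ℝ ∞ (fun y => wd (fun a => D.b a y) (fun a => D.Ga j a y)) x :=
    ((h.cb hU hx 0).smul (h.cGa hU hx j 1)).sub ((h.cb hU hx 1).smul (h.cGa hU hx j 0))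
  exact (e1.mul (h.cm hU hx)).neg

theorem smooth_cA' (j : Fin 4) : ContDiffOn ℝ ∞ (cA' D j) U := fun x hx => by
  have h := T.H.rel
  have hU := T.H.open_U
  refine ContDiffAt.contDiffWithinAt ?_
  have e2 : ContDiffAt ℝ ∞ (fun y => wc (fun a => D.b a y) (fun a => D.B j a y)) x :=
    ((h.cb hU hx 0).mul (h.cB hU hx j 1)).sub ((h.cb hU hx 1).mul (h.cB hU hx j 0))
  exact (e2.smul (h.cm hU hx)).neg

/-- functions vanishing on the diagonal are `O(‖v‖)` -/
theorem exists_lin {g : VV → A} (hg : ContDiffOn ℝ ∞ g U) (h0 : ∀ z ∈ K, g (z, z) = 0) :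
    ∃ B, 0 ≤ B ∧ ∀ z ∈ K, ∀ v : V, ‖v‖ ≤ d → ‖g (z, z + v)‖ ≤ B * ‖v‖ := by
  have hsub : K ×ˢ closedBall (0 : V) d ⊆ sh ⁻¹' U := fun p hp => T.mapsTo_sh hp
  have h1 : ContDiffOn ℝ 1 (fun p : VV => g (sh p)) (sh ⁻¹' U) :=
    (T.H.comp_sh hg).of_le (by simp)
  exact taylor1 T.compact T.H.shU_open hsub h1 (fun z hz => by
    show g (sh (z, 0)) = 0
    rw [sh_apply, add_zero]
    exact h0 z hz)

/-- the kernel `K_t` in model form -/
theorem Kf_hKc {f f' f'' : ℝ → ℝ} {G r : ℝ} (hf : Cut f f' f'' G r) {t : ℝ} (ht : 0 < t)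
    (j : Fin 4) {z : V} (hz : z ∈ K) {v : V} (hv : ‖v‖ < d) :
    D.Kf (hKc f t) j (z, z + v) =
      kerK f f' (fun v => (D.rr (z, z + v)).re) (fun v => cA D j (z, z + v))
        (fun v => cA' D j (z, z + v)) t v := by
  rw [Kf_eq]
  unfold kerK
  rcases eq_or_ne v 0 with rfl | hv0
  · simp only [add_zero]
    rw [T.cA_diag hz, T.cA'_diag hz]
    simp
  · have hpos : 0 < (D.rr (z, z + v)).re := by
      refine lt_of_lt_of_le ?_ (T.lower hz hv)
      have := norm_pos_iff.2 hv0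
      have := T.c_pos
      positivity
    rw [deriv_hKc hf ht hpos]
    simp only [hKc]
    rw [Complex.coe_smul, Complex.coe_smul]

/-- **BOUND for `K_t`**, pointwise and in `L¹`: `rad1 4 R x = 1_{x ≤ R} x⁻³` -/
theorem bound_K [CompleteSpace A] {f : ℝ → ℝ} (hf : ContDiff ℝ 2 f) {r : ℝ} (hr : 0 ≤ r)
    (h0 : ∀ x, r ≤ x → f x = 0) (j : Fin 4) :
    ∃ C2, 0 ≤ C2 ∧ ∀ t, 0 < t → ∀ z ∈ K,
      (∀ v, ‖v‖ < d → ‖D.Kf (hKc f t) j (z, z + v)‖ ≤
        C2 * rad1 4 (Real.sqrt (r * t / (c / 2))) ‖v‖) ∧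
      IntegrableOn (fun v => D.Kf (hKc f t) j (z, z + v)) (ball (0 : V) d) ∧
      ∫ v in ball (0 : V) d, ‖D.Kf (hKc f t) j (z, z + v)‖ ≤ C2 * Real.sqrt t := by
  obtain ⟨G, hcut⟩ := exists_cut hf hr h0
  obtain ⟨B1, hB10, hB1⟩ := T.exists_lin (T.smooth_cA j) (fun z hz => T.cA_diag hz j)
  obtain ⟨B2, hB20, hB2⟩ := T.exists_lin (T.smooth_cA' j) (fun z hz => T.cA'_diag hz j)
  set B := max B1 B2
  have hB0 : 0 ≤ B := hB10.trans (le_max_left _ _)
  have hG := hcut.p0.G_nonneg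
  have hc := T.c_pos
  have hd := T.d_pos
  have a1 : ∀ z ∈ K, ∀ v : V, ‖v‖ < d → ‖cA D j (z, z + v)‖ ≤ B * ‖v‖ := fun z hz v hv =>
    (hB1 z hz v hv.le).trans (mul_le_mul_of_nonneg_right (le_max_left _ _) (norm_nonneg _))
  have a2 : ∀ z ∈ K, ∀ v : V, ‖v‖ < d → ‖cA' D j (z, z + v)‖ ≤ B * ‖v‖ := fun z hz v hv =>
    (hB2 z hz v hv.le).trans (mul_le_mul_of_nonneg_right (le_max_right _ _) (norm_nonneg _))
  have hk : 0 ≤ constK G r B (c / 2) d := by
    unfold constK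
    positivity
  set W := G * B / (c / 2) * d ^ 2 + G * (r + 1) * B / (c / 2) ^ 2 with hW
  have hW0 : 0 ≤ W := by positivity
  refine ⟨max (constK G r B (c / 2) d) W, hk.trans (le_max_left _ _), fun t ht z hz =>
    ⟨?_, ?_, ?_⟩⟩
  · intro v hv
    rw [T.Kf_hKc hcut ht j hz hv]
    refine (norm_kerK_le (T.tq.sqDist hz) hcut hB0 (a1 z hz) (a2 z hz) ht hv).trans ?_
    exact mul_le_mul_of_nonneg_right (le_max_right _ _) (rad1_nonneg _ _ (norm_nonneg v))
  · have hm : ∀ g : VV → A, ContDiffOn ℝ ∞ g U →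
        AEStronglyMeasurable (fun v => g (z, z + v)) (volume.restrict (ball (0 : V) d)) := by
      intro g hg
      refine ContinuousOn.aestronglyMeasurable ?_ measurableSet_ball
      exact hg.continuousOn.comp (by fun_prop) fun v hv =>
        (T.sub z hz v (le_of_lt (by simpa using hv))).1
    have i1 := integrableOn_kerK (T.tq.sqDist hz) hcut hB0 (T.tq.meas z hz)
      (hm _ (T.smooth_cA j)) (hm _ (T.smooth_cA' j)) (a1 z hz) (a2 z hz) ht
    refine i1.congr_fun (fun v hv => ?_) measurableSet_ball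
    exact (T.Kf_hKc hcut ht j hz (by simpa using hv)).symm
  · have e : ∫ v in ball (0 : V) d, ‖D.Kf (hKc f t) j (z, z + v)‖ =
        ∫ v in ball (0 : V) d, ‖kerK f (deriv f) (fun v => (D.rr (z, z + v)).re)
          (fun v => cA D j (z, z + v)) (fun v => cA' D j (z, z + v)) t v‖ := by
      refine setIntegral_congr_fun measurableSet_ball fun v hv => ?_
      show ‖D.Kf (hKc f t) j (z, z + v)‖ = _
      rw [T.Kf_hKc hcut ht j hz (by simpa using hv)]
    rw [e]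
    refine (integral_norm_kerK_le (T.tq.sqDist hz) hcut hB0 (a1 z hz) (a2 z hz) ht).trans ?_
    exact mul_le_mul_of_nonneg_right (le_max_left _ _) (Real.sqrt_nonneg t)

/-- support of `K_t` -/
theorem support_K {f : ℝ → ℝ} (hf : ContDiff ℝ 2 f) {r : ℝ} (hr : 0 ≤ r)
    (h0 : ∀ x, r ≤ x → f x = 0) {t : ℝ} (ht : 0 < t) {z : V} (hz : z ∈ K) {v : V}
    (hv : ‖v‖ < d) (hrv : r * t ≤ c / 2 * ‖v‖ ^ 2) (j : Fin 4) :
    D.Kf (hKc f t) j (z, z + v) = 0 := by
  obtain ⟨G, hcut⟩ := exists_cut hf hr h0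
  have h1 : r ≤ (D.rr (z, z + v)).re / t := by
    rw [le_div_iff₀ ht]
    exact hrv.trans (T.lower hz hv)
  rw [T.Kf_hKc hcut ht j hz hv]
  unfold kerK
  simp only
  rw [hK_zero hcut h1, hK'_zero hcut h1, zero_smul, zero_smul, add_zero]

/-- `K_{t,t'} = K_t - K_{t'}`, where `K_{t,t'}` has the smooth profile `(f(x/t) - f(x/t'))/x` -/
theorem Kf_diff {f : ℝ → ℝ} (hf : ContDiff ℝ 2 f) {r : ℝ} (hr : 0 ≤ r)
    (h0 : ∀ x, r ≤ x → f x = 0) {t t' : ℝ} (ht : 0 < t) (ht' : 0 < t') {z : V} (hz : z ∈ K)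
    {v : V} (hv : ‖v‖ < d) (j : Fin 4) :
    D.Kf (fun x => (ft f t x - ft f t' x) / x) j (z, z + v) =
      D.Kf (hKc f t) j (z, z + v) - D.Kf (hKc f t') j (z, z + v) := by
  obtain ⟨G, hcut⟩ := exists_cut hf hr h0
  rw [Kf_eq, Kf_eq, Kf_eq]
  rcases eq_or_ne v 0 with rfl | hv0
  · simp only [add_zero]
    rw [T.cA_diag hz, T.cA'_diag hz]
    simp
  · have hpos : 0 < (D.rr (z, z + v)).re := by
      refine lt_of_lt_of_le ?_ (T.lower hz hv)
      have := norm_pos_iff.2 hv0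
      have := T.c_pos
      positivity
    have e1 : (fun x : ℝ => (ft f t x - ft f t' x) / (x : ℂ)) =
        fun x => hKc f t x - hKc f t' x := by
      funext x
      simp only [ft, hKc, hK]
      push_cast
      ring
    have d1 := (hasDerivAt_hK hcut ht hpos).ofReal_comp
    have d2 := (hasDerivAt_hK hcut ht' hpos).ofReal_comp
    have e2 : deriv (fun x => hKc f t x - hKc f t' x) (D.rr (z, z + v)).re =
        deriv (hKc f t) (D.rr (z, z + v)).re - deriv (hKc f t') (D.rr (z, z + v)).re := by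
      rw [show (fun x => hKc f t x - hKc f t' x) = fun x : ℝ => ((hK f t x : ℝ) : ℂ) -
        ((hK f t' x : ℝ) : ℂ) from rfl, (d1.fun_sub d2).deriv, deriv_hKc hcut ht hpos,
        deriv_hKc hcut ht' hpos]
    rw [e1, e2, show (ft f t (D.rr (z, z + v)).re - ft f t' (D.rr (z, z + v)).re) /
      ((D.rr (z, z + v)).re : ℂ) = hKc f t (D.rr (z, z + v)).re - hKc f t' (D.rr (z, z + v)).re
      from congrFun e1 _]
    simp only [sub_smul]
    abel

end Tube

/-- the profile of `K_{t,t'}` is smooth when `f` is constant near `0` -/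
theorem smooth_profile {f : ℝ → ℝ} (hf : ContDiff ℝ ∞ f) (h1 : ∀ᶠ x in 𝓝 0, f x = f 0)
    {t t' : ℝ} (ht : 0 < t) (ht' : 0 < t') :
    ContDiff ℝ ∞ (fun x : ℝ => (ft f t x - ft f t' x) / (x : ℂ)) := by
  rw [contDiff_iff_contDiffAt]
  intro x
  rcases eq_or_ne x 0 with rfl | hx
  · have e1 : ∀ s : ℝ, 0 < s → ∀ᶠ x in 𝓝 (0 : ℝ), f (x / s) = f 0 := by
      intro s hs
      have hc : Tendsto (fun x : ℝ => x / s) (𝓝 0) (𝓝 0) := by
        have : Continuous fun x : ℝ => x / s := by fun_prop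
        simpa using this.tendsto 0
      exact hc.eventually h1
    have e2 : (fun x : ℝ => (ft f t x - ft f t' x) / (x : ℂ)) =ᶠ[𝓝 0] fun _ => 0 := by
      filter_upwards [e1 t ht, e1 t' ht'] with x hx hx'
      simp only [ft]
      rw [hx, hx', sub_self, zero_div]
    exact contDiffAt_const.congr_of_eventuallyEq e2
  · have hsm : ∀ s : ℝ, ContDiff ℝ ∞ (ft f s) := by
      intro s
      have : ContDiff ℝ ∞ fun x : ℝ => f (x / s) := hf.comp (by fun_prop)
      exact Complex.ofRealCLM.contDiff.comp this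
    have hid : ContDiff ℝ ∞ fun x : ℝ => (x : ℂ) := Complex.ofRealCLM.contDiff
    simp only [div_eq_mul_inv]
    exact ((hsm t).sub (hsm t')).contDiffAt.mul
      (hid.contDiffAt.inv (show ((x : ℝ) : ℂ) ≠ 0 by exact_mod_cast hx))

/-- the identity `f_t - f_t' = x * h(x)` -/
theorem profile_identity {f : ℝ → ℝ} {t t' : ℝ} (x : ℝ) :
    ft f t x - ft f t' x = (x : ℂ) * ((ft f t x - ft f t' x) / (x : ℂ)) := by
  rcases eq_or_ne x 0 with rfl | hx
  · simp [ft]
  · have : (x : ℂ) ≠ 0 := by exact_mod_cast hx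
    field_simp

end

end Vale.Agent.P267.H156
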