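import Mathlib

/-!
# P267 / RR-B3: approximate identities from cut off functions of a squared distance (helper156)

`q : V → ℝ` behaves like a squared distance to `0`; the kernels `t^(-n/2) g (q v / t) m v`
concentrate at `0`.
-/

namespace Vale.Agent.P267.H156

open Filter Topology MeasureTheory Set Metric Module

set_option linter.unusedSectionVars false
set_option linter.unusedVariables false

noncomputable section

section one

variable {V F : Type*} [NormedAddCommGroup V] [NormedSpace ℝ V] [FiniteDimensional ℝ V]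
  [MeasurableSpace V] [BorelSpace V] (μ : Measure V) [μ.IsAddHaarMeasure]
  [NormedAddCommGroup F] [NormedSpace ℝ F] [CompleteSpace F]

/-- Hypotheses on the squared distance. -/
structure SqDist (q : V → ℝ) (c d : ℝ) : Prop where
  c_pos : 0 < c
  d_pos : 0 < d
  lower : ∀ v, ‖v‖ < d → c * ‖v‖ ^ 2 ≤ q v

/-- a cut off profile -/
structure Prof (g : ℝ → ℝ) (G r : ℝ) : Prop where
  r_nonneg : 0 ≤ r
  bdd : ∀ x, 0 ≤ x → |g x| ≤ G
  zero : ∀ x, r ≤ x → g x = 0

theorem Prof.G_nonneg {g : ℝ → ℝ} {G r : ℝ} (h : Prof g G r) : 0 ≤ G :=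
  (abs_nonneg _).trans (h.bdd 0 le_rfl)

/-- a continuous function with `g = 0` on `[r, ∞)` is a profile -/
theorem exists_prof {g : ℝ → ℝ} (hg : Continuous g) {r : ℝ} (hr : 0 ≤ r)
    (h0 : ∀ x, r ≤ x → g x = 0) : ∃ G, Prof g G r := by
  obtain ⟨C, hC⟩ := (isCompact_Icc (a := (0 : ℝ)) (b := r)).exists_bound_of_continuousOn
    hg.continuousOn
  refine ⟨max C 0, hr, fun x hx => ?_, h0⟩
  rcases le_or_gt r x with h | h
  · rw [h0 x h, abs_zero]
    exact le_max_right _ _
  · exact (hC x ⟨hx, h.le⟩).trans (le_max_left _ _)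

/-- the rescaled integrand -/
theorem scaled_bound {q : V → ℝ} {c d : ℝ} (hq : SqDist q c d) {g : ℝ → ℝ} {G r : ℝ}
    (hg : Prof g G r) {m : V → F} {B : ℝ} (hm : ∀ v, ‖v‖ < d → ‖m v‖ ≤ B) {t : ℝ} (ht : 0 < t)
    (x : V) :
    ‖(ball (0 : V) d).indicator (fun v => g (q v / t) • m v) (Real.sqrt t • x)‖ ≤
      (closedBall (0 : V) (Real.sqrt (r / c))).indicator (fun _ => G * B) x := by
  have hG := hg.G_nonneg
  have hB : 0 ≤ B := (norm_nonneg _).trans (hm 0 (by simpa using hq.d_pos))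
  have hR : 0 ≤ (closedBall (0 : V) (Real.sqrt (r / c))).indicator (fun _ => G * B) x :=
    indicator_nonneg (fun _ _ => by positivity) x
  by_cases hx : Real.sqrt t • x ∈ ball (0 : V) d
  · rw [indicator_of_mem hx]
    have hx' : ‖Real.sqrt t • x‖ < d := by simpa using hx
    have hlow := hq.lower _ hx'
    have hn : ‖Real.sqrt t • x‖ ^ 2 = t * ‖x‖ ^ 2 := by
      rw [norm_smul, mul_pow, Real.norm_of_nonneg (Real.sqrt_nonneg t), Real.sq_sqrt ht.le]
    rw [hn] at hlow
    have hc := hq.c_pos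
    by_cases hxr : ‖x‖ ≤ Real.sqrt (r / c)
    · rw [indicator_of_mem (by simpa using hxr), norm_smul]
      refine mul_le_mul (hg.bdd _ ?_) (hm _ hx') (norm_nonneg _) hG
      have : 0 ≤ c * (t * ‖x‖ ^ 2) := by positivity
      exact div_nonneg (this.trans hlow) ht.le
    · have h1 : r / c < ‖x‖ ^ 2 := by
        rw [not_le] at hxr
        exact (Real.sqrt_lt' (lt_of_le_of_lt (Real.sqrt_nonneg _) hxr)).1 hxr
      have h2 : r ≤ q (Real.sqrt t • x) / t := by
        rw [le_div_iff₀ ht]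
        rw [div_lt_iff₀ hc] at h1
        nlinarith
      rw [hg.zero _ h2, zero_smul, norm_zero]
      exact hR
  · rw [indicator_of_notMem hx, norm_zero]
    exact hR

/-- change of variables -/
theorem scale_integral (q : V → ℝ) (g : ℝ → ℝ) (m : V → F) (d : ℝ) {t : ℝ} (ht : 0 < t) :
    (Real.sqrt t ^ finrank ℝ V)⁻¹ • ∫ v in ball (0 : V) d, g (q v / t) • m v ∂μ =
      ∫ x, (ball (0 : V) d).indicator (fun v => g (q v / t) • m v) (Real.sqrt t • x) ∂μ := by
  rw [Measure.integral_comp_smul_of_nonneg μ _ (Real.sqrt t) (hR := Real.sqrt_nonneg t),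
    integral_indicator measurableSet_ball]

/-- (L2) uniform bound -/
theorem kernel_bound {q : V → ℝ} {c d : ℝ} (hq : SqDist q c d) {g : ℝ → ℝ} {G r : ℝ}
    (hg : Prof g G r) {m : V → F} {B : ℝ} (hm : ∀ v, ‖v‖ < d → ‖m v‖ ≤ B) {t : ℝ} (ht : 0 < t) :
    ‖(Real.sqrt t ^ finrank ℝ V)⁻¹ • ∫ v in ball (0 : V) d, g (q v / t) • m v ∂μ‖ ≤
      G * B * μ.real (closedBall (0 : V) (Real.sqrt (r / c))) := by
  rw [scale_integral μ q g m d ht]
  have hint : Integrable ((closedBall (0 : V) (Real.sqrt (r / c))).indicator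
      (fun _ => G * B)) μ :=
    (integrable_indicator_iff measurableSet_closedBall).2
      (integrableOn_const (measure_closedBall_lt_top).ne)
  refine (norm_integral_le_of_norm_le hint
    (Eventually.of_forall fun x => scaled_bound hq hg hm ht x)).trans (le_of_eq ?_)
  rw [integral_indicator measurableSet_closedBall, setIntegral_const, smul_eq_mul, mul_comm]

/-- (L1) limit -/
theorem tendsto_kernel {q Q : V → ℝ} {c d : ℝ} (hq : SqDist q c d)
    (hqm : AEStronglyMeasurable q (μ.restrict (ball 0 d)))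
    (hQ : ∀ v, Tendsto (fun ε : ℝ => q (ε • v) / ε ^ 2) (𝓝[>] 0) (𝓝 (Q v)))
    {g : ℝ → ℝ} {G r : ℝ} (hgc : Continuous g) (hg : Prof g G r)
    {m : V → F} {B : ℝ} (hmm : AEStronglyMeasurable m (μ.restrict (ball 0 d)))
    (hm : ∀ v, ‖v‖ < d → ‖m v‖ ≤ B) (hm0 : ContinuousAt m 0) :
    Tendsto (fun t : ℝ => (Real.sqrt t ^ finrank ℝ V)⁻¹ •
        ∫ v in ball (0 : V) d, g (q v / t) • m v ∂μ) (𝓝[>] 0)
      (𝓝 ((∫ v, g (Q v) ∂μ) • m 0)) := by
  have hd := hq.d_pos
  -- square roots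
  have hsq : Tendsto (fun t : ℝ => Real.sqrt t) (𝓝[>] 0) (𝓝[>] 0) := by
    refine tendsto_nhdsWithin_iff.2 ⟨?_, ?_⟩
    · have : Tendsto (fun t : ℝ => Real.sqrt t) (𝓝 0) (𝓝 (Real.sqrt 0)) :=
        Real.continuous_sqrt.tendsto 0
      rw [Real.sqrt_zero] at this
      exact this.mono_left nhdsWithin_le_nhds
    · filter_upwards [self_mem_nhdsWithin] with t ht
      exact Real.sqrt_pos.2 ht
  have key : Tendsto (fun t : ℝ => ∫ x, (ball (0 : V) d).indicator
      (fun v => g (q v / t) • m v) (Real.sqrt t • x) ∂μ) (𝓝[>] 0)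
      (𝓝 (∫ x, g (Q x) • m 0 ∂μ)) := by
    refine tendsto_integral_filter_of_dominated_convergence
      ((closedBall (0 : V) (Real.sqrt (r / c))).indicator fun _ => G * B) ?_ ?_ ?_ ?_
    · filter_upwards [self_mem_nhdsWithin] with t ht
      have ht0 : Real.sqrt t ≠ 0 := (Real.sqrt_pos.2 ht).ne'
      have h1 : AEStronglyMeasurable (fun v => g (q v / t) • m v) (μ.restrict (ball 0 d)) :=
        (hgc.comp_aestronglyMeasurable (hqm.mul_const t⁻¹)).smul hmm
      have h2 : AEStronglyMeasurable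
          ((ball (0 : V) d).indicator (fun v => g (q v / t) • m v)) μ :=
        (aestronglyMeasurable_indicator_iff measurableSet_ball).2 h1
      refine h2.comp_quasiMeasurePreserving ?_
      refine ⟨measurable_const_smul (Real.sqrt t), ?_⟩
      rw [Measure.map_addHaar_smul μ ht0]
      exact Measure.smul_absolutelyContinuous
    · filter_upwards [self_mem_nhdsWithin] with t ht
      exact Eventually.of_forall fun x => scaled_bound hq hg hm ht x
    · exact (integrable_indicator_iff measurableSet_closedBall).2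
        (integrableOn_const (measure_closedBall_lt_top).ne)
    · refine Eventually.of_forall fun x => ?_
      -- pointwise limit
      have hx0 : Tendsto (fun t : ℝ => Real.sqrt t • x) (𝓝[>] 0) (𝓝 (0 : V)) := by
        have := (hsq.mono_right nhdsWithin_le_nhds).smul_const x
        simpa using this
      have hin : ∀ᶠ t in 𝓝[>] (0 : ℝ), Real.sqrt t • x ∈ ball (0 : V) d :=
        hx0.eventually (ball_mem_nhds _ hd)
      have h1 : Tendsto (fun t : ℝ => q (Real.sqrt t • x) / t) (𝓝[>] 0) (𝓝 (Q x)) := by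
        refine ((hQ x).comp hsq).congr' ?_
        filter_upwards [self_mem_nhdsWithin] with t ht
        have : Real.sqrt t ^ 2 = t := Real.sq_sqrt (le_of_lt ht)
        simp only [Function.comp_apply, this]
      have h2 : Tendsto (fun t : ℝ => g (q (Real.sqrt t • x) / t) • m (Real.sqrt t • x))
          (𝓝[>] 0) (𝓝 (g (Q x) • m 0)) :=
        ((hgc.tendsto _).comp h1).smul (hm0.tendsto.comp hx0)
      refine h2.congr' ?_
      filter_upwards [hin] with t ht
      rw [indicator_of_mem ht]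
  rw [integral_smul_const] at key
  refine key.congr' ?_
  filter_upwards [self_mem_nhdsWithin] with t ht
  rw [scale_integral μ q g m d ht]

/-- lower order terms: `t^(-n/2+1) ∫ → 0` -/
theorem kernel_bound_mul {q : V → ℝ} {c d : ℝ} (hq : SqDist q c d) {g : ℝ → ℝ} {G r : ℝ}
    (hg : Prof g G r) {m : V → F} {B : ℝ} (hm : ∀ v, ‖v‖ < d → ‖m v‖ ≤ B) (k : ℕ) {t : ℝ}
    (ht : 0 < t) :
    ‖(t ^ k * (Real.sqrt t ^ finrank ℝ V)⁻¹) • ∫ v in ball (0 : V) d, g (q v / t) • m v ∂μ‖ ≤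
      t ^ k * (G * B * μ.real (closedBall (0 : V) (Real.sqrt (r / c)))) := by
  rw [mul_smul, norm_smul, Real.norm_of_nonneg (by positivity)]
  exact mul_le_mul_of_nonneg_left (kernel_bound μ hq hg hm ht) (by positivity)

theorem tendsto_kernel_lower {q : V → ℝ} {c d : ℝ} (hq : SqDist q c d) {g : ℝ → ℝ} {G r : ℝ}
    (hg : Prof g G r) {m : V → F} {B : ℝ} (hm : ∀ v, ‖v‖ < d → ‖m v‖ ≤ B) {k : ℕ} (hk : k ≠ 0) :
    Tendsto (fun t : ℝ => (t ^ k * (Real.sqrt t ^ finrank ℝ V)⁻¹) •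
      ∫ v in ball (0 : V) d, g (q v / t) • m v ∂μ) (𝓝[>] 0) (𝓝 0) := by
  have h1 : Tendsto (fun t : ℝ => t ^ k * (G * B *
      μ.real (closedBall (0 : V) (Real.sqrt (r / c))))) (𝓝[>] 0) (𝓝 0) := by
    have : Tendsto (fun t : ℝ => t ^ k * (G * B *
        μ.real (closedBall (0 : V) (Real.sqrt (r / c))))) (𝓝 0)
        (𝓝 (0 ^ k * (G * B * μ.real (closedBall (0 : V) (Real.sqrt (r / c)))))) :=
      Continuous.tendsto (by fun_prop) 0
    rw [zero_pow hk, zero_mul] at this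
    exact this.mono_left nhdsWithin_le_nhds
  refine squeeze_zero_norm' ?_ h1
  filter_upwards [self_mem_nhdsWithin] with t ht
  exact kernel_bound_mul μ hq hg hm k ht

/-- (L4) limit with a parameter -/
theorem tendsto_kernel_param {Z : Type*} [MeasurableSpace Z] (ν : Measure Z) [IsFiniteMeasure ν]
    {q Q : Z → V → ℝ} {c d : ℝ} (hq : ∀ᵐ z ∂ν, SqDist (q z) c d)
    (hqm : AEStronglyMeasurable (fun p : Z × V => q p.1 p.2) (ν.prod (μ.restrict (ball 0 d))))
    (hQ : ∀ᵐ z ∂ν, ∀ v, Tendsto (fun ε : ℝ => q z (ε • v) / ε ^ 2) (𝓝[>] 0) (𝓝 (Q z v)))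
    {g : ℝ → ℝ} {G r : ℝ} (hgc : Continuous g) (hg : Prof g G r)
    {m : Z → V → F} {B : ℝ}
    (hmm : AEStronglyMeasurable (fun p : Z × V => m p.1 p.2) (ν.prod (μ.restrict (ball 0 d))))
    (hm : ∀ᵐ z ∂ν, ∀ v, ‖v‖ < d → ‖m z v‖ ≤ B) (hm0 : ∀ᵐ z ∂ν, ContinuousAt (m z) 0) :
    Tendsto (fun t : ℝ => ∫ z, (Real.sqrt t ^ finrank ℝ V)⁻¹ •
        ∫ v in ball (0 : V) d, g (q z v / t) • m z v ∂μ ∂ν) (𝓝[>] 0)
      (𝓝 (∫ z, (∫ v, g (Q z v) ∂μ) • m z 0 ∂ν)) := by
  have hqz : ∀ᵐ z ∂ν, AEStronglyMeasurable (q z) (μ.restrict (ball 0 d)) := hqm.prodMk_left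
  have hmz : ∀ᵐ z ∂ν, AEStronglyMeasurable (m z) (μ.restrict (ball 0 d)) := hmm.prodMk_left
  refine tendsto_integral_filter_of_dominated_convergence
    (fun _ => G * B * μ.real (closedBall (0 : V) (Real.sqrt (r / c)))) ?_ ?_
    (integrable_const _) ?_
  · filter_upwards [self_mem_nhdsWithin] with t ht
    have h1 : AEStronglyMeasurable (fun p : Z × V => g (q p.1 p.2 / t) • m p.1 p.2)
        (ν.prod (μ.restrict (ball 0 d))) :=
      (hgc.comp_aestronglyMeasurable (hqm.mul_const t⁻¹)).smul hmm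
    exact h1.integral_prod_right'.const_smul _
  · filter_upwards [self_mem_nhdsWithin] with t ht
    filter_upwards [hq, hm] with z hz1 hz2
    exact kernel_bound μ hz1 hg hz2 ht
  · filter_upwards [hq, hQ, hm, hm0, hqz, hmz] with z h1 h2 h3 h4 h5 h6
    exact tendsto_kernel μ h1 h5 h2 hgc hg h6 h3 h4

/-- (L4) for the lower order terms -/
theorem tendsto_kernel_lower_param {Z : Type*} [MeasurableSpace Z] (ν : Measure Z)
    [IsFiniteMeasure ν] {q : Z → V → ℝ} {c d : ℝ} (hq : ∀ᵐ z ∂ν, SqDist (q z) c d)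
    {g : ℝ → ℝ} {G r : ℝ} (hg : Prof g G r) {m : Z → V → F} {B : ℝ}
    (hm : ∀ᵐ z ∂ν, ∀ v, ‖v‖ < d → ‖m z v‖ ≤ B) {k : ℕ} (hk : k ≠ 0) :
    Tendsto (fun t : ℝ => ∫ z, (t ^ k * (Real.sqrt t ^ finrank ℝ V)⁻¹) •
        ∫ v in ball (0 : V) d, g (q z v / t) • m z v ∂μ ∂ν) (𝓝[>] 0) (𝓝 0) := by
  have h1 : Tendsto (fun t : ℝ => t ^ k * (G * B *
      μ.real (closedBall (0 : V) (Real.sqrt (r / c)))) * ν.real univ) (𝓝[>] 0) (𝓝 0) := by
    have : Tendsto (fun t : ℝ => t ^ k * (G * B *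
        μ.real (closedBall (0 : V) (Real.sqrt (r / c)))) * ν.real univ) (𝓝 0)
        (𝓝 (0 ^ k * (G * B * μ.real (closedBall (0 : V) (Real.sqrt (r / c)))) *
          ν.real univ)) :=
      Continuous.tendsto (by fun_prop) 0
    rw [zero_pow hk, zero_mul, zero_mul] at this
    exact this.mono_left nhdsWithin_le_nhds
  refine squeeze_zero_norm' ?_ h1
  filter_upwards [self_mem_nhdsWithin] with t ht
  refine norm_integral_le_of_norm_le_const ?_
  filter_upwards [hq, hm] with z hz1 hz2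
  exact kernel_bound_mul μ hz1 hg hz2 k ht

end one

end

end Vale.Agent.P267.H156
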