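import Vale.Agent.P267.H156.Loc2

/-!
# P267 / RRK-LOC: the local theorem (helper156, with helper315's smoothness of `K_t u`)
-/

namespace Vale.Agent.P267.H156

open Filter Topology MeasureTheory Set Metric Module
open Vale.Agent.P267.H315
open scoped ContDiff

set_option linter.unusedSectionVars false

noncomputable section

variable {F : Type} [NormedAddCommGroup F] [NormedSpace ℂ F] [CompleteSpace F]

/-! ### restriction of the domain -/

theorem Rel_mono {A : Type*} [NormedRing A] [NormedAlgebra ℂ A] {D : KData A} {U U' : Set VV}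
    (h : D.Rel U) (hU : U' ⊆ U) : D.Rel U' where
  smooth_s a := (h.smooth_s a).mono hU
  smooth_al j a c := (h.smooth_al j a c).mono hU
  smooth_m := h.smooth_m.mono hU
  smooth_g j := (h.smooth_g j).mono hU
  smooth_Ga j a := (h.smooth_Ga j a).mono hU
  smooth_ka a := (h.smooth_ka a).mono hU
  smooth_Ph := h.smooth_Ph.mono hU
  smooth_b a := (h.smooth_b a).mono hU
  ds x hx := h.ds x (hU hx)
  dm x hx := h.dm x (hU hx)
  al2 x hx := h.al2 x (hU hx)
  g2 x hx := h.g2 x (hU hx)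
  Ga2 x hx := h.Ga2 x (hU hx)
  hol_al x hx := h.hol_al x (hU hx)
  hol_g x hx := h.hol_g x (hU hx)
  hol_Ga x hx := h.hol_Ga x (hU hx)
  hol_ka x hx := h.hol_ka x (hU hx)
  hol_Ph x hx := h.hol_Ph x (hU hx)
  ga x hx := h.ga x (hU hx)
  curv x hx := h.curv x (hU hx)
  star x hx := h.star x (hU hx)

theorem LimHyp.restrict {A : Type*} [NormedRing A] [NormedAlgebra ℂ A] {D : KData A}
    {U : Set VV} {O : Set V} {h : V → Matrix (Fin 2) (Fin 2) ℂ} (H : LimHyp D U O h) :
    LimHyp D (U ∩ Prod.fst ⁻¹' O) O h where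
  rel := Rel_mono H.rel inter_subset_left
  open_U := H.open_U.inter (H.open_O.preimage continuous_fst)
  open_O := H.open_O
  diag z hz := ⟨H.diag z hz, hz⟩
  h_smooth := H.h_smooth
  isHerm := H.isHerm
  pos := H.pos
  det_pos := H.det_pos
  b_eq x hx := H.b_eq x hx.1
  s_diag := H.s_diag
  ds_diag := H.ds_diag
  m_diag := H.m_diag

/-- the integral over `w` -/
theorem kint_ball (d : ℝ) (g : VV → F →L[ℂ] F) (u : V → F) (z : V) :
    kint d g u z = ∫ w in ball z d, g (z, w) (u w) := by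
  rw [kint_eq]
  simp only
  rw [← integral_indicator measurableSet_ball]
  refine integral_congr_ae (Eventually.of_forall fun w => ?_)
  simp only
  by_cases hw : w ∈ ball z d
  · have : ((z, w) : VV) ∈ near d := by
      rw [mem_ball, dist_eq_norm] at hw
      exact hw
    rw [indicator_of_mem hw, indicator_of_mem this]
  · have : ((z, w) : VV) ∉ near d := by
      rw [mem_ball, dist_eq_norm] at hw
      exact hw
    rw [indicator_of_notMem hw, indicator_of_notMem this]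

/-- **the conclusion of the local theorem** for the radius `d` and the time `t`; `Q` open. -/
structure LocPS (D : KData (F →L[ℂ] F)) (U : Set VV) (O Q : Set V) (f : ℝ → ℝ) (d t : ℝ) :
    Prop where
  /-- the tube -/
  sub : ∀ z ∈ Q, ∀ w : V, ‖w - z‖ ≤ d → (z, w) ∈ U ∧ w ∈ O
  /-- supports -/
  supp : ∃ R, 0 ≤ R ∧ R < d ∧ ∀ z ∈ Q, ∀ w : V, R ≤ ‖w - z‖ → ‖w - z‖ < d →
    (∀ j k, ss D f t j k (z, w) = 0) ∧ ∀ j, ks D f t j (z, w) = 0
  /-- the kernels `S_jk`, cut off at `|w - z| < d`, are smooth on `Q × V` -/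
  smooth_kernel : ∀ j k, ContDiffOn ℝ ∞ ((near d).indicator (ss D f t j k)) (Q ×ˢ univ)
  /-- `S u` is smooth -/
  smooth_S : ∀ j k (u : V → F), ContDiffOn ℝ ∞ u O → ContDiffOn ℝ ∞ (kint d (ss D f t j k) u) Q
  /-- `K u` is smooth -/
  smooth_K : ∀ j (u : V → F), ContDiffOn ℝ ∞ u O → ContDiffOn ℝ ∞ (kint d (ks D f t j) u) Q
  /-- sup bound -/
  bound_K : ∃ B, 0 ≤ B ∧ ∀ j (u : V → F) (M : ℝ), ContinuousOn u O → ∀ z ∈ Q,
    (∀ w : V, ‖w - z‖ < d → ‖u w‖ ≤ M) → ‖kint d (ks D f t j) u z‖ ≤ B * M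
  /-- integrability of `w ↦ K_j(z,w) u(w)` -/
  integrable_K : ∀ j (u : V → F), ContinuousOn u O → ∀ z ∈ Q,
    IntegrableOn (fun w => ks D f t j (z, w) (u w)) (ball z d)
  deg0 : ∀ u : V → F, ContDiffOn ℝ ∞ u O → ∀ z ∈ Q,
    kint d (ks D f t 2) (dbv (ev 1) u) z - kint d (ks D f t 3) (dbv (ev 0) u) z =
      kint d (ss D f t 2 3) u z + (Real.pi ^ 2 * f 0 : ℝ) • u z
  deg1 : ∀ u0 u1 : V → F, ContDiffOn ℝ ∞ u0 O → ContDiffOn ℝ ∞ u1 O → ∀ k : Fin 2, ∀ z ∈ Q,
    dbv (ev k) (fun z => kint d (ks D f t 2) u1 z - kint d (ks D f t 3) u0 z) z +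
      kint d (ks D f t (iz k)) (fun w => dbv (ev 0) u1 w - dbv (ev 1) u0 w) z =
      (kint d (ss D f t (iz k) 2) u1 z - kint d (ss D f t (iz k) 3) u0 z) +
        (Real.pi ^ 2 * f 0 : ℝ) • (![u0, u1] k) z
  deg2 : ∀ u : V → F, ContDiffOn ℝ ∞ u O → ∀ z ∈ Q,
    dbv (ev 0) (kint d (ks D f t 1) u) z - dbv (ev 1) (kint d (ks D f t 0) u) z =
      kint d (ss D f t 0 1) u z + (Real.pi ^ 2 * f 0 : ℝ) • u z
  diag : ∀ z ∈ Q, ss D f t 2 3 (z, z) - (-ss D f t 0 3 (z, z) + ss D f t 1 2 (z, z)) +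
    ss D f t 0 1 (z, z) = (f 0 : ℂ) • D.Ph (z, z)

/-- helper315's part: smoothness of the singular operators near a compact set -/
def SmoothK (D : KData (F →L[ℂ] F)) (O : Set V) (f : ℝ → ℝ) : Prop :=
  ∀ K : Set V, IsCompact K → K ⊆ O → ∃ d1 > 0, ∀ d, 0 < d → d ≤ d1 → ∃ t1 > 0, ∀ t, 0 < t →
    t < t1 → ∀ j (u : V → F), ContDiffOn ℝ ∞ u O →
      ContDiffOn ℝ ∞ (kint d (ks D f t j) u) (interior K)

theorem Tube.locPS {D : KData (F →L[ℂ] F)} {U : Set VV} {O : Set V}
    {h : V → Matrix (Fin 2) (Fin 2) ℂ} {K : Set V} {c C d r t : ℝ} (T : Tube D U O h K c C d)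
    {f : ℝ → ℝ} (P : Profile f r) (hs : Small r c d t) (hUO : ∀ x ∈ U, x.1 ∈ O)
    (hS : ∀ j (u : V → F), ContDiffOn ℝ ∞ u O →
      ContDiffOn ℝ ∞ (kint d (ks D f t j) u) (interior K)) :
    LocPS D U O (interior K) f d t where
  sub z hz w hw := (T.geo P.r_nonneg hs).sub' (interior_subset hz) hw
  supp := by
    refine ⟨Rt r c t, Rt_nonneg _ _ _, Rt_lt P.r_nonneg T.c_pos T.d_pos hs, ?_⟩
    intro z hz w h1 h2
    have hzK := interior_subset hz
    have h3 := Rt_le P.r_nonneg T.c_pos hs.t_pos.le h1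
    refine ⟨fun j k => (T.ker_ss P hs j k).supp' hzK h1 h2, fun j => ?_⟩
    have := T.support_K P.two P.r_nonneg P.zero hs.t_pos hzK (v := w - z) h2 h3 j
    rwa [add_sub_cancel] at this
  smooth_kernel j k := by
    have G := T.geo P.r_nonneg hs
    refine contDiffOn_indicator (C := {x : VV | ‖x.2 - x.1‖ ≤ Rt r c t})
      (isOpen_interior.prod isOpen_univ) (isOpen_near d)
      (isClosed_le (by fun_prop) continuous_const) ?_ ?_ ?_
    · refine (T.smooth_ss P t j k).mono ?_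
      rintro ⟨z, w⟩ ⟨⟨hz, -⟩, hw⟩
      have hw' : ‖w - z‖ < d := hw
      exact (G.sub' (interior_subset hz) hw'.le).1
    · rintro ⟨z, w⟩ ⟨⟨hz, -⟩, hw⟩ hC
      have hw' : ‖w - z‖ < d := hw
      have hC' : ¬ ‖w - z‖ ≤ Rt r c t := hC
      rw [not_le] at hC'
      exact (T.ker_ss P hs j k).supp' (interior_subset hz) hC'.le hw'
    · rintro ⟨z, w⟩ ⟨-, hw⟩
      have hw' : ‖w - z‖ ≤ Rt r c t := hw
      exact hw'.trans_lt G.R_lt
  smooth_S j k u hu :=
    (T.geo P.r_nonneg hs).contDiffOn_kint (T.ker_ss P hs j k) (T.smooth_ss P t j k) hu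
  smooth_K := hS
  bound_K := by
    choose B hB0 hB using fun j => T.bound_ks (D := D) P j
    refine ⟨∑ j, B j * Real.sqrt t, Finset.sum_nonneg fun j _ =>
      mul_nonneg (hB0 j) (Real.sqrt_nonneg t), ?_⟩
    intro j u M hu z hz hM
    have hM0 : 0 ≤ M := (norm_nonneg _).trans (hM z (by simpa using T.d_pos))
    have h1 := hB j t hs.t_pos u M hu z (interior_subset hz) (fun v hv => hM _ (by simpa using hv))
    refine h1.trans (mul_le_mul_of_nonneg_right ?_ hM0)
    exact Finset.single_le_sum (f := fun j => B j * Real.sqrt t)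
      (fun j _ => mul_nonneg (hB0 j) (Real.sqrt_nonneg t)) (Finset.mem_univ j)
  integrable_K j u hu z hz := by
    have h1 := T.integrable_ks P hs.t_pos j hu (interior_subset hz)
    have h2 : Integrable (fun v => (ball (0 : V) d).indicator
        (fun v => ks D f t j (z, z + v) (u (z + v))) v) :=
      (integrable_indicator_iff measurableSet_ball).2 h1
    have h3 := h2.comp_add_left (-z)
    refine (integrable_indicator_iff measurableSet_ball).1 (h3.congr
      (Eventually.of_forall fun w => ?_))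
    simp only
    by_cases hw : w ∈ ball z d
    · have : -z + w ∈ ball (0 : V) d := by
        rw [mem_ball_zero_iff, neg_add_eq_sub, ← dist_eq_norm]
        exact hw
      rw [indicator_of_mem hw, indicator_of_mem this, add_neg_cancel_left]
    · have : -z + w ∉ ball (0 : V) d := by
        rw [mem_ball_zero_iff, neg_add_eq_sub, ← dist_eq_norm]
        exact hw
      rw [indicator_of_notMem hw, indicator_of_notMem this]
  deg0 u hu z hz := T.deg0_lim P hs hUO (hu.of_le (by simp)) (interior_subset hz)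
  deg1 u0 u1 hu0 hu1 k z hz := T.deg1_lim P hs hUO hS hu0 hu1 k hz
  deg2 u hu z hz := T.deg2_lim P hs hUO hS hu hz
  diag z hz := by
    have hzO := T.sub_O (interior_subset hz)
    have h1 := T.H.rel.diag_f T.H.open_U (T.H.diag z hzO) (by
      filter_upwards [T.H.open_O.mem_nhds hzO] with y hy a using T.H.b_diag hy a) (ft f t)
    have h2 : ft f t 0 = (f 0 : ℂ) := by simp [ft]
    rw [h2, T.H.m_diag z hzO, mul_one] at h1
    rw [← h1]
    unfold ss
    abel

/-- **RRK-LOC** -/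
theorem rrk_loc {D : KData (F →L[ℂ] F)} {U : Set VV} {O : Set V}
    {h : V → Matrix (Fin 2) (Fin 2) ℂ} (H : LimHyp D U O h) {f : ℝ → ℝ} {r : ℝ}
    (P : Profile f r) (hr : 0 < r) (hSm : SmoothK D O f) {Q Kc : Set V} (hQ : IsOpen Q)
    (hQK : Q ⊆ Kc) (hKc : IsCompact Kc) (hKO : Kc ⊆ O) :
    ∃ d0 > 0, ∀ d, 0 < d → d ≤ d0 → ∃ t0 > 0, ∀ t, 0 < t → t < t0 → LocPS D U O Q f d t := by
  obtain ⟨c, C, d₀, hd₀, hT⟩ := H.restrict.exists_tube hKc hKO
  obtain ⟨d1, hd1, hS⟩ := hSm Kc hKc hKO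
  refine ⟨min d₀ d1, lt_min hd₀ hd1, fun d hd hdd => ?_⟩
  have T := hT d hd (hdd.trans (min_le_left _ _))
  obtain ⟨t1, ht1, hS'⟩ := hS d hd (hdd.trans (min_le_right _ _))
  have hc := T.c_pos
  refine ⟨min t1 (c / 2 * d ^ 2 / r), lt_min ht1 (by positivity), fun t ht htt => ?_⟩
  have hs : Small r c d t := ⟨ht, by
    have := htt.trans_le (min_le_right _ _)
    rw [lt_div_iff₀ hr] at this
    linarith⟩
  have L := T.locPS P hs (fun x hx => hx.2) (fun j u hu => hS' t ht (htt.trans_le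
    (min_le_left _ _)) j u hu)
  have hQi : Q ⊆ interior Kc := interior_maximal hQK hQ
  exact
  { sub := fun z hz w hw => ⟨(L.sub z (hQi hz) w hw).1.1, (L.sub z (hQi hz) w hw).2⟩
    supp := by
      obtain ⟨R, h1, h2, h3⟩ := L.supp
      exact ⟨R, h1, h2, fun z hz => h3 z (hQi hz)⟩
    smooth_kernel := fun j k => (L.smooth_kernel j k).mono (Set.prod_mono hQi le_rfl)
    smooth_S := fun j k u hu => (L.smooth_S j k u hu).mono hQi
    smooth_K := fun j u hu => (L.smooth_K j u hu).mono hQi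
    bound_K := by
      obtain ⟨B, hB0, hB⟩ := L.bound_K
      exact ⟨B, hB0, fun j u M hu z hz => hB j u M hu z (hQi hz)⟩
    integrable_K := fun j u hu z hz => L.integrable_K j u hu z (hQi hz)
    deg0 := fun u hu z hz => L.deg0 u hu z (hQi hz)
    deg1 := fun u0 u1 hu0 hu1 k z hz => L.deg1 u0 u1 hu0 hu1 k z (hQi hz)
    deg2 := fun u hu z hz => L.deg2 u hu z (hQi hz)
    diag := fun z hz => L.diag z (hQi hz) }

end

end Vale.Agent.P267.H156
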