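import Vale.Agent.P267.H156.Ident

/-!
# P267 / RRK-LOC: the limit `t' → 0` in the identities (helper156)
-/

namespace Vale.Agent.P267.H156

open Filter Topology MeasureTheory Set Metric Module
open Vale.Agent.P267.H315
open scoped ContDiff

set_option linter.unusedSectionVars false

noncomputable section

variable {F : Type} [NormedAddCommGroup F] [NormedSpace ℂ F] [CompleteSpace F]
variable {D : KData (F →L[ℂ] F)} {U : Set VV} {O : Set V} {h : V → Matrix (Fin 2) (Fin 2) ℂ}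
  {K : Set V} {c C d : ℝ}

/-- the profiles -/
structure Profile (f : ℝ → ℝ) (r : ℝ) : Prop where
  smooth : ContDiff ℝ ∞ f
  r_nonneg : 0 ≤ r
  zero : ∀ x, r ≤ x → f x = 0
  near : ∀ᶠ x in 𝓝 0, f x = f 0

theorem Profile.two {f : ℝ → ℝ} {r : ℝ} (P : Profile f r) : ContDiff ℝ 2 f :=
  P.smooth.of_le (WithTop.coe_le_coe.2 le_top)

theorem Profile.smooth_ft {f : ℝ → ℝ} {r : ℝ} (P : Profile f r) (t : ℝ) :
    ContDiff ℝ ∞ (ft f t) := by
  have : ContDiff ℝ ∞ fun x : ℝ => f (x / t) := P.smooth.comp (by fun_prop)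
  exact Complex.ofRealCLM.contDiff.comp this

/-- admissible `t` -/
structure Small (r c d t : ℝ) : Prop where
  t_pos : 0 < t
  lt : r * t < c / 2 * d ^ 2

/-- radius of the support -/
def Rt (r c t : ℝ) : ℝ := Real.sqrt (r * t / (c / 2))

theorem Rt_nonneg (r c t : ℝ) : 0 ≤ Rt r c t := Real.sqrt_nonneg _

theorem Rt_lt {r t : ℝ} (hr : 0 ≤ r) (hc : 0 < c) (hd : 0 < d) (hs : Small r c d t) :
    Rt r c t < d := by
  unfold Rt
  have ht := hs.t_pos
  rw [Real.sqrt_lt' hd, div_lt_iff₀ (by positivity)]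
  have := hs.lt
  linarith

theorem Rt_le {r t x : ℝ} (hr : 0 ≤ r) (hc : 0 < c) (ht : 0 ≤ t) (hx : Rt r c t ≤ x) :
    r * t ≤ c / 2 * x ^ 2 := by
  unfold Rt at hx
  have h1 : r * t / (c / 2) ≤ x ^ 2 := by
    calc r * t / (c / 2) = Real.sqrt (r * t / (c / 2)) ^ 2 := by
          rw [Real.sq_sqrt (by positivity)]
      _ ≤ x ^ 2 := pow_le_pow_left₀ (Real.sqrt_nonneg _) hx 2
  rw [div_le_iff₀ (by positivity)] at h1
  linarith

/-- the smooth kernels `K_{t,t'}` -/
def kk (D : KData (F →L[ℂ] F)) (f : ℝ → ℝ) (t t' : ℝ) (j : Fin 4) : VV → F →L[ℂ] F :=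
  D.Kf (fun x => (ft f t x - ft f t' x) / x) j

/-- the singular kernel `K_t` -/
def ks (D : KData (F →L[ℂ] F)) (f : ℝ → ℝ) (t : ℝ) (j : Fin 4) : VV → F →L[ℂ] F :=
  D.Kf (hKc f t) j

/-- the kernel `S_t` -/
def ss (D : KData (F →L[ℂ] F)) (f : ℝ → ℝ) (t : ℝ) (j k : Fin 4) : VV → F →L[ℂ] F :=
  D.Sf (ft f t) j k

namespace Tube

variable (T : Tube D U O h K c C d)
include T

theorem geo {r t : ℝ} (hr : 0 ≤ r) (hs : Small r c d t) : Geo K O U d (Rt r c t) where
  compact := T.compact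
  open_U := T.H.open_U
  open_O := T.H.open_O
  R_nonneg := Rt_nonneg _ _ _
  R_lt := Rt_lt hr T.c_pos T.d_pos hs
  sub := T.sub

variable {f : ℝ → ℝ} {r t : ℝ} (P : Profile f r) (hs : Small r c d t)

theorem smooth_ss (P : Profile f r) (t : ℝ) (j k : Fin 4) : ContDiffOn ℝ ∞ (ss D f t j k) U :=
  fun _ hx => (T.H.rel.cSf T.H.open_U hx (P.smooth_ft t).contDiffAt j k).contDiffWithinAt

theorem ker_ss (P : Profile f r) (hs : Small r c d t) (j k : Fin 4) :
    Ker K U d (Rt r c t) (ss D f t j k) where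
  smooth := (T.smooth_ss P t j k).of_le (by simp)
  supp := fun _ hz _ h1 h2 => T.support_S P.two P.r_nonneg P.zero hs.t_pos hz h2
    (Rt_le P.r_nonneg T.c_pos hs.t_pos.le h1) j k

theorem smooth_kk (P : Profile f r) {t t' : ℝ} (ht : 0 < t) (ht' : 0 < t') (j : Fin 4) :
    ContDiffOn ℝ ∞ (kk D f t t' j) U :=
  fun _ hx => (T.H.rel.cKf T.H.open_U hx
    (smooth_profile P.smooth P.near ht ht').contDiffAt j).contDiffWithinAt

theorem ker_kk (P : Profile f r) (hs : Small r c d t) {t' : ℝ} (ht' : 0 < t') (htt : t' ≤ t)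
    (j : Fin 4) : Ker K U d (Rt r c t) (kk D f t t' j) where
  smooth := (T.smooth_kk P hs.t_pos ht' j).of_le (by simp)
  supp := fun z hz v h1 h2 => by
    have h3 := Rt_le P.r_nonneg T.c_pos hs.t_pos.le h1
    have h4 : r * t' ≤ c / 2 * ‖v‖ ^ 2 :=
      (mul_le_mul_of_nonneg_left htt P.r_nonneg).trans h3
    rw [kk, T.Kf_diff P.two P.r_nonneg P.zero hs.t_pos ht' hz h2 j,
      T.support_K P.two P.r_nonneg P.zero hs.t_pos hz h2 h3 j,
      T.support_K P.two P.r_nonneg P.zero ht' hz h2 h4 j, sub_zero]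

/-- `rr` is real -/
theorem him (hUO : ∀ x ∈ U, x.1 ∈ O) : ∀ x ∈ U, (D.rr x).im = 0 := by
  intro x hx
  rw [T.H.rr_eq hx]
  have hh := T.H.isHerm x.1 (hUO x hx)
  have : star (herm (h x.1) fun a => D.s a x) = herm (h x.1) fun a => D.s a x := by
    unfold herm
    rw [star_sum]
    simp only [star_sum, star_mul', star_star]
    rw [Finset.sum_comm]
    refine Finset.sum_congr rfl fun a _ => Finset.sum_congr rfl fun c _ => ?_
    have : star (h x.1 c a) = h x.1 a c := hh.apply a c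
    rw [this]
    ring
  rw [Complex.star_def, Complex.conj_eq_iff_im] at this
  exact this

/-- exactness -/
theorem exact_kk (P : Profile f r) (hUO : ∀ x ∈ U, x.1 ∈ O) {t t' : ℝ} (ht : 0 < t)
    (ht' : 0 < t') (i j : Fin 4) :
    ∀ x ∈ U, db i (kk D f t t' j) x - db j (kk D f t t' i) x =
      ss D f t i j x - ss D f t' i j x := by
  intro x hx
  have h1 := T.H.rel.exact_f T.H.open_U hx (T.him hUO)
    (f := fun x => ft f t x - ft f t' x) (g := fun x => (ft f t x - ft f t' x) / x)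
    (smooth_profile P.smooth P.near ht ht').contDiffAt
    (Eventually.of_forall fun x => profile_identity x) i j
  have h2 : D.Sf (fun x => ft f t x - ft f t' x) i j x =
      D.Sf (ft f t) i j x - D.Sf (ft f t') i j x :=
    KData.Rel.Sf_sub (P.smooth_ft t).contDiffAt (P.smooth_ft t').contDiffAt i j
  rw [h2] at h1
  exact h1

/-- `u` is bounded on the closed tube -/
theorem exists_bound_u {u : V → F} (hu : ContinuousOn u O) :
    ∃ M, 0 ≤ M ∧ ∀ z ∈ K, ∀ v : V, ‖v‖ ≤ d → ‖u (z + v)‖ ≤ M := by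
  have h2 : ContinuousOn (fun p : V × V => u (p.1 + p.2)) (K ×ˢ closedBall 0 d) :=
    hu.comp (by fun_prop) T.mapsTo_add
  obtain ⟨M, hM⟩ := (T.compact.prod (isCompact_closedBall (0 : V) d)).exists_bound_of_continuousOn
    h2
  exact ⟨max M 0, le_max_right _ _, fun z hz v hv =>
    (hM (z, v) ⟨hz, by simpa using hv⟩).trans (le_max_left _ _)⟩

/-- integrability of `K_t u` -/
theorem integrable_ks (P : Profile f r) (ht : 0 < t) (j : Fin 4) {u : V → F}
    (hu : ContinuousOn u O) {z : V} (hz : z ∈ K) :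
    IntegrableOn (fun v => ks D f t j (z, z + v) (u (z + v))) (ball (0 : V) d) := by
  obtain ⟨C2, hC2, hb⟩ := T.bound_K P.two P.r_nonneg P.zero j
  obtain ⟨M, hM0, hM⟩ := T.exists_bound_u hu
  have hi := (hb t ht z hz).2.1
  have hum : AEStronglyMeasurable (fun v : V => u (z + v)) (volume.restrict (ball (0 : V) d)) := by
    refine ContinuousOn.aestronglyMeasurable ?_ measurableSet_ball
    exact hu.comp (by fun_prop) fun v hv => (T.sub z hz v (by
      rw [mem_ball_zero_iff] at hv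
      exact hv.le)).2
  have hm : AEStronglyMeasurable (fun v => ks D f t j (z, z + v) (u (z + v)))
      (volume.restrict (ball (0 : V) d)) :=
    (ContinuousLinearMap.id ℂ (F →L[ℂ] F)).aestronglyMeasurable_comp₂ hi.aestronglyMeasurable hum
  refine Integrable.mono' (hi.norm.mul_const M) hm ?_
  refine (ae_restrict_iff' measurableSet_ball).2 (Eventually.of_forall fun v hv => ?_)
  rw [mem_ball_zero_iff] at hv
  exact (ContinuousLinearMap.le_opNorm _ _).trans
    (mul_le_mul_of_nonneg_left (hM z hz v hv.le) (norm_nonneg _))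

/-- sup bound for `K_t u` -/
theorem bound_ks (P : Profile f r) (j : Fin 4) :
    ∃ C2, 0 ≤ C2 ∧ ∀ t, 0 < t → ∀ (u : V → F) (M : ℝ), ContinuousOn u O → ∀ z ∈ K,
      (∀ v : V, ‖v‖ < d → ‖u (z + v)‖ ≤ M) → ‖kint d (ks D f t j) u z‖ ≤ C2 * Real.sqrt t * M := by
  obtain ⟨C2, hC2, hb⟩ := T.bound_K P.two P.r_nonneg P.zero j
  refine ⟨C2, hC2, fun t ht u M hu z hz hM => ?_⟩
  have hM0 : 0 ≤ M := (norm_nonneg _).trans (hM 0 (by simpa using T.d_pos))
  have hi := (hb t ht z hz).2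
  calc ‖kint d (ks D f t j) u z‖ ≤ ∫ v in ball (0 : V) d, ‖ks D f t j (z, z + v)‖ * M := by
        refine norm_integral_le_of_norm_le (hi.1.norm.mul_const M) ?_
        refine (ae_restrict_iff' measurableSet_ball).2 (Eventually.of_forall fun v hv => ?_)
        rw [mem_ball_zero_iff] at hv
        exact (ContinuousLinearMap.le_opNorm _ _).trans
          (mul_le_mul_of_nonneg_left (hM v hv) (norm_nonneg _))
    _ = (∫ v in ball (0 : V) d, ‖ks D f t j (z, z + v)‖) * M := by rw [integral_mul_const]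
    _ ≤ _ := mul_le_mul_of_nonneg_right hi.2 hM0

/-- `K_{t,t'} u = K_t u - K_{t'} u` -/
theorem kint_kk (P : Profile f r) {t t' : ℝ} (ht : 0 < t) (ht' : 0 < t') (j : Fin 4) {u : V → F}
    (hu : ContinuousOn u O) {z : V} (hz : z ∈ K) :
    kint d (kk D f t t' j) u z = kint d (ks D f t j) u z - kint d (ks D f t' j) u z := by
  unfold kint
  rw [← integral_sub (T.integrable_ks P ht j hu hz) (T.integrable_ks P ht' j hu hz)]
  refine setIntegral_congr_fun measurableSet_ball fun v hv => ?_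
  rw [mem_ball_zero_iff] at hv
  show kk D f t t' j (z, z + v) (u (z + v)) = ks D f t j (z, z + v) (u (z + v)) -
    ks D f t' j (z, z + v) (u (z + v))
  unfold kk ks
  rw [T.Kf_diff P.two P.r_nonneg P.zero ht ht' hz hv j]
  rfl

/-- `K_{t,t'} u → K_t u` uniformly on `K` -/
theorem tendsto_kk (P : Profile f r) {t : ℝ} (ht : 0 < t) (j : Fin 4) {u : V → F}
    (hu : ContinuousOn u O) :
    TendstoUniformlyOn (fun t' => kint d (kk D f t t' j) u) (kint d (ks D f t j) u) (𝓝[>] 0) K := by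
  obtain ⟨C2, hC2, hb⟩ := T.bound_ks (D := D) P j
  obtain ⟨M, hM0, hM⟩ := T.exists_bound_u hu
  rw [Metric.tendstoUniformlyOn_iff]
  intro ε hε
  have h1 : Tendsto (fun t' : ℝ => C2 * Real.sqrt t' * M) (𝓝[>] 0) (𝓝 0) := by
    have : Tendsto (fun t' : ℝ => C2 * Real.sqrt t' * M) (𝓝 0) (𝓝 (C2 * Real.sqrt 0 * M)) :=
      Continuous.tendsto (by fun_prop) 0
    rw [Real.sqrt_zero, mul_zero, zero_mul] at this
    exact this.mono_left nhdsWithin_le_nhds
  filter_upwards [self_mem_nhdsWithin, h1.eventually (gt_mem_nhds hε)] with t' ht' hte z hz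
  rw [T.kint_kk P ht ht' j hu hz, dist_eq_norm, sub_sub_cancel]
  exact (hb t' ht' u M hu z hz fun v hv => hM z hz v hv.le).trans_lt hte

/-- `S_{t'} u → -π² f(0) sg j k u` uniformly on `K` -/
theorem tendsto_ss (P : Profile f r) (j k : Fin 4) {u : V → F} (hu : ContinuousOn u O) :
    TendstoUniformlyOn (fun t' => kint d (ss D f t' j k) u)
      (fun z => (-(Real.pi ^ 2 * f 0 * sg j k) : ℝ) • u z) (𝓝[>] 0) K := by
  have := T.tendsto_S (ContinuousLinearMap.id ℂ (F →L[ℂ] F)) P.two P.r_nonneg P.zero hu j k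
  exact this

end Tube

end

end Vale.Agent.P267.H156
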