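import Vale.Agent.P267.H156.Loc1

/-!
# P267 / RRK-LOC: the three identities for the singular kernel `K_t` (helper156)

`c = -π² f(0)`; hypothesis `hS` : `K_t u` is smooth for smooth `u` (helper315's Sm.lean).
-/

namespace Vale.Agent.P267.H156

open Filter Topology MeasureTheory Set Metric Module
open Vale.Agent.P267.H315
open scoped ContDiff

set_option linter.unusedSectionVars false

noncomputable section

variable {F : Type} [NormedAddCommGroup F] [NormedSpace ℂ F] [CompleteSpace F]
variable {D : KData (F →L[ℂ] F)} {U : Set VV} {O : Set V} {h : V → Matrix (Fin 2) (Fin 2) ℂ}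
  {K : Set V} {c C d : ℝ}

/-- the sequence `t/(n+1)` -/
def tn (t : ℝ) (n : ℕ) : ℝ := t / (n + 1)

theorem tn_pos {t : ℝ} (ht : 0 < t) (n : ℕ) : 0 < tn t n := by
  unfold tn
  positivity

theorem tn_le {t : ℝ} (ht : 0 < t) (n : ℕ) : tn t n ≤ t := by
  unfold tn
  have : (0 : ℝ) ≤ n := Nat.cast_nonneg n
  exact div_le_self ht.le (by linarith)

theorem tendsto_tn {t : ℝ} (ht : 0 < t) : Tendsto (tn t) atTop (𝓝[>] 0) := by
  refine tendsto_nhdsWithin_iff.2 ⟨?_, Eventually.of_forall fun n => tn_pos ht n⟩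
  unfold tn
  have := tendsto_one_div_add_atTop_nhds_zero_nat (𝕜 := ℝ)
  have h2 := this.const_mul t
  rw [mul_zero] at h2
  refine h2.congr fun n => ?_
  ring

theorem unif_comp {α ι κ : Type*} {β : Type*} [UniformSpace β] {p : Filter ι} {q : Filter κ}
    {Fn : ι → α → β} {f : α → β} {s : Set α} (h : TendstoUniformlyOn Fn f p s) {g : κ → ι}
    (hg : Tendsto g q p) : TendstoUniformlyOn (fun n => Fn (g n)) f q s :=
  fun u hu => hg.eventually (h u hu)

theorem unif_const {α ι β : Type*} [UniformSpace β] (p : Filter ι) (s : Set α) (g : α → β) :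
    TendstoUniformlyOn (fun _ : ι => g) g p s :=
  fun _ hu => Eventually.of_forall fun _ _ _ => refl_mem_uniformity hu

namespace Tube

variable (T : Tube D U O h K c C d) {f : ℝ → ℝ} {r t : ℝ}
include T

/-- **degree 0**: `K_t(∂̄ u) = S_t u + π² f(0) u` -/
theorem deg0_lim (P : Profile f r) (hs : Small r c d t) (hUO : ∀ x ∈ U, x.1 ∈ O) {u : V → F}
    (hu : ContDiffOn ℝ 1 u O) {z : V} (hz : z ∈ K) :
    kint d (ks D f t 2) (dbv (ev 1) u) z - kint d (ks D f t 3) (dbv (ev 0) u) z =
      kint d (ss D f t 2 3) u z + (Real.pi ^ 2 * f 0 : ℝ) • u z := by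
  have ht := hs.t_pos
  have G := T.geo P.r_nonneg hs
  have c1 : ContinuousOn (dbv (ev 1) u) O := continuousOn_dbv T.H.open_O hu _
  have c0 : ContinuousOn (dbv (ev 0) u) O := continuousOn_dbv T.H.open_O hu _
  have L1 : Tendsto (fun n => kint d (kk D f t (tn t n) 2) (dbv (ev 1) u) z -
      kint d (kk D f t (tn t n) 3) (dbv (ev 0) u) z) atTop
      (𝓝 (kint d (ks D f t 2) (dbv (ev 1) u) z - kint d (ks D f t 3) (dbv (ev 0) u) z)) :=
    ((unif_comp (T.tendsto_kk P ht 2 c1) (tendsto_tn ht)).tendsto_at hz).sub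
      ((unif_comp (T.tendsto_kk P ht 3 c0) (tendsto_tn ht)).tendsto_at hz)
  have L2 : Tendsto (fun n => kint d (ss D f t 2 3) u z - kint d (ss D f (tn t n) 2 3) u z) atTop
      (𝓝 (kint d (ss D f t 2 3) u z - (-(Real.pi ^ 2 * f 0 * sg 2 3) : ℝ) • u z)) :=
    tendsto_const_nhds.sub
      ((unif_comp (T.tendsto_ss P 2 3 hu.continuousOn) (tendsto_tn ht)).tendsto_at hz)
  have hE : ∀ n, kint d (kk D f t (tn t n) 2) (dbv (ev 1) u) z -
      kint d (kk D f t (tn t n) 3) (dbv (ev 0) u) z =
      kint d (ss D f t 2 3) u z - kint d (ss D f (tn t n) 2 3) u z := by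
    intro n
    have h1 := G.deg0 (g := fun j => kk D f t (tn t n) j)
      (S := fun i j x => ss D f t i j x - ss D f (tn t n) i j x)
      (fun j => T.ker_kk P hs (tn_pos ht n) (tn_le ht n) j)
      (fun i j => T.exact_kk P hUO ht (tn_pos ht n) i j) hu hz
    rw [h1, ← G.kint_sub (T.smooth_ss P t 2 3).continuousOn
      (T.smooth_ss P (tn t n) 2 3).continuousOn hu.continuousOn hz]
  have := tendsto_nhds_unique (L1.congr hE) L2
  rw [this]
  have hsg : sg 2 3 = 1 := by simp [sg]
  rw [hsg, mul_one, neg_smul, sub_neg_eq_add]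

/-- **degree 1**: `∂̄ (K_t u) + K_t (∂̄ u) = S_t u + π² f(0) u` -/
theorem deg1_lim (P : Profile f r) (hs : Small r c d t) (hUO : ∀ x ∈ U, x.1 ∈ O)
    (hS : ∀ j (u : V → F), ContDiffOn ℝ ∞ u O →
      ContDiffOn ℝ ∞ (kint d (ks D f t j) u) (interior K)) {u0 u1 : V → F}
    (hu0 : ContDiffOn ℝ ∞ u0 O) (hu1 : ContDiffOn ℝ ∞ u1 O) (k : Fin 2) {z : V}
    (hz : z ∈ interior K) :
    dbv (ev k) (fun z => kint d (ks D f t 2) u1 z - kint d (ks D f t 3) u0 z) z +
      kint d (ks D f t (iz k)) (fun w => dbv (ev 0) u1 w - dbv (ev 1) u0 w) z =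
      (kint d (ss D f t (iz k) 2) u1 z - kint d (ss D f t (iz k) 3) u0 z) +
        (Real.pi ^ 2 * f 0 : ℝ) • (![u0, u1] k) z := by
  have ht := hs.t_pos
  have G := T.geo P.r_nonneg hs
  have hu0' : ContDiffOn ℝ 1 u0 O := hu0.of_le (by simp)
  have hu1' : ContDiffOn ℝ 1 u1 O := hu1.of_le (by simp)
  have c1 : ContDiffOn ℝ ∞ (dbv (ev 0) u1) O := fun x hx =>
    (ContDiffAt.dbv (hu1.contDiffAt (T.H.open_O.mem_nhds hx)) _).contDiffWithinAt
  have c0 : ContDiffOn ℝ ∞ (dbv (ev 1) u0) O := fun x hx =>
    (ContDiffAt.dbv (hu0.contDiffAt (T.H.open_O.mem_nhds hx)) _).contDiffWithinAt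
  set w : V → F := fun w => dbv (ev 0) u1 w - dbv (ev 1) u0 w with hw
  have hwc : ContDiffOn ℝ ∞ w O := c1.sub c0
  -- the limit of the derivatives
  set Gl : V → F := fun z => ((kint d (ss D f t (iz k) 2) u1 z -
      (-(Real.pi ^ 2 * f 0 * sg (iz k) 2) : ℝ) • u1 z) - (kint d (ss D f t (iz k) 3) u0 z -
      (-(Real.pi ^ 2 * f 0 * sg (iz k) 3) : ℝ) • u0 z)) - kint d (ks D f t (iz k)) w z with hGl
  have hKO : interior K ⊆ O := interior_subset.trans T.sub_O
  have hGc : ContinuousOn Gl (interior K) := by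
    have s2 : ContinuousOn (kint d (ss D f t (iz k) 2) u1) (interior K) :=
      (G.contDiffOn_kint_one (T.ker_ss P hs (iz k) 2) hu1').continuousOn
    have s3 : ContinuousOn (kint d (ss D f t (iz k) 3) u0) (interior K) :=
      (G.contDiffOn_kint_one (T.ker_ss P hs (iz k) 3) hu0').continuousOn
    have k1 : ContinuousOn (kint d (ks D f t (iz k)) w) (interior K) :=
      (hS (iz k) w hwc).continuousOn
    exact ((s2.sub ((hu1.continuousOn.mono hKO).const_smul _)).sub
      (s3.sub ((hu0.continuousOn.mono hKO).const_smul _))).sub k1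
  have key := dbv_limit (volume : Measure V) (isOpen_interior (s := K)) (κ := Unit)
    (e := fun _ => ev k) (l := atTop)
    (φ := fun _ z => kint d (ks D f t 2) u1 z - kint d (ks D f t 3) u0 z)
    (φn := fun (n : ℕ) _ z => kint d (kk D f t (tn t n) 2) u1 z -
      kint d (kk D f t (tn t n) 3) u0 z)
    (fun _ => ((hS 2 u1 hu1).of_le (by simp)).sub ((hS 3 u0 hu0).of_le (by simp)))
    (fun n _ => (G.contDiffOn_kint_one (T.ker_kk P hs (tn_pos ht n) (tn_le ht n) 2) hu1').sub
      (G.contDiffOn_kint_one (T.ker_kk P hs (tn_pos ht n) (tn_le ht n) 3) hu0'))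
    (fun _ => ((unif_comp (T.tendsto_kk P ht 2 hu1.continuousOn) (tendsto_tn ht)).sub
      (unif_comp (T.tendsto_kk P ht 3 hu0.continuousOn) (tendsto_tn ht))).mono interior_subset)
    (G := Gl) hGc (by
      have L := ((((unif_comp (T.tendsto_ss P (iz k) 2 hu1.continuousOn) (tendsto_tn ht)).mono
        (interior_subset (s := K))).sub ((unif_comp (T.tendsto_ss P (iz k) 3 hu0.continuousOn)
          (tendsto_tn ht)).mono (interior_subset (s := K)))).add
        ((unif_comp (T.tendsto_kk P ht (iz k) hwc.continuousOn) (tendsto_tn ht)).mono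
        (interior_subset (s := K))))
      -- constant part minus L
      have L' := (unif_const (atTop : Filter ℕ) (interior K)
        (fun z => kint d (ss D f t (iz k) 2) u1 z - kint d (ss D f t (iz k) 3) u0 z)).sub L
      refine (L'.congr ?_).congr_right ?_
      · refine Eventually.of_forall fun n z hz => ?_
        have h1 := G.deg1 (g := fun j => kk D f t (tn t n) j)
          (S := fun i j x => ss D f t i j x - ss D f (tn t n) i j x)
          (fun j => T.ker_kk P hs (tn_pos ht n) (tn_le ht n) j)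
          (fun i j => T.exact_kk P hUO ht (tn_pos ht n) i j) hu0' hu1' hz k
        have hzK := interior_subset hz
        rw [G.kint_sub (T.smooth_ss P t (iz k) 2).continuousOn
          (T.smooth_ss P (tn t n) (iz k) 2).continuousOn hu1.continuousOn hzK,
          G.kint_sub (T.smooth_ss P t (iz k) 3).continuousOn
          (T.smooth_ss P (tn t n) (iz k) 3).continuousOn hu0.continuousOn hzK] at h1
        simp only [Finset.univ_unique, Finset.sum_singleton, Pi.sub_apply, Pi.add_apply]
        rw [eq_sub_of_add_eq h1]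
        abel
      · intro z _
        simp only [Pi.sub_apply, Pi.add_apply, hGl]
        abel)
    z hz
  simp only [Finset.univ_unique, Finset.sum_singleton] at key
  rw [key, hGl]
  simp only
  fin_cases k
  · have e1 : sg (iz 0) 2 = 0 := by simp [sg, iz]
    have e2 : sg (iz 0) 3 = -1 := by simp [sg, iz]
    simp only [Fin.zero_eta, Matrix.cons_val_zero, e1, e2]
    simp only [mul_zero, neg_zero, zero_smul, sub_zero, mul_neg, mul_one, neg_neg]
    abel
  · have e1 : sg (iz 1) 2 = 1 := by simp [sg, iz]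
    have e2 : sg (iz 1) 3 = 0 := by simp [sg, iz]
    simp only [Fin.mk_one, Matrix.cons_val_one, Matrix.cons_val_fin_one, e1, e2]
    simp only [mul_zero, neg_zero, zero_smul, sub_zero, mul_one, neg_smul, sub_neg_eq_add]
    abel

/-- **degree 2**: `∂̄ (K_t v) = S_t v + π² f(0) v` -/
theorem deg2_lim (P : Profile f r) (hs : Small r c d t) (hUO : ∀ x ∈ U, x.1 ∈ O)
    (hS : ∀ j (u : V → F), ContDiffOn ℝ ∞ u O →
      ContDiffOn ℝ ∞ (kint d (ks D f t j) u) (interior K)) {u : V → F}
    (hu : ContDiffOn ℝ ∞ u O) {z : V} (hz : z ∈ interior K) :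
    dbv (ev 0) (kint d (ks D f t 1) u) z - dbv (ev 1) (kint d (ks D f t 0) u) z =
      kint d (ss D f t 0 1) u z + (Real.pi ^ 2 * f 0 : ℝ) • u z := by
  have ht := hs.t_pos
  have G := T.geo P.r_nonneg hs
  have hu' : ContDiffOn ℝ 1 u O := hu.of_le (by simp)
  have hKO : interior K ⊆ O := interior_subset.trans T.sub_O
  set Gl : V → F := fun z => kint d (ss D f t 0 1) u z -
      (-(Real.pi ^ 2 * f 0 * sg 0 1) : ℝ) • u z with hGl
  have hGc : ContinuousOn Gl (interior K) := by
    have s2 : ContinuousOn (kint d (ss D f t 0 1) u) (interior K) :=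
      (G.contDiffOn_kint_one (T.ker_ss P hs 0 1) hu').continuousOn
    exact s2.sub ((hu.continuousOn.mono hKO).const_smul _)
  -- write the difference as a sum over `Fin 2` with directions `ev 0`, `ev 1`
  have key := dbv_limit (volume : Measure V) (isOpen_interior (s := K)) (κ := Fin 2)
    (e := ev) (l := atTop)
    (φ := ![fun z => kint d (ks D f t 1) u z, fun z => -kint d (ks D f t 0) u z])
    (φn := fun (n : ℕ) => ![fun z => kint d (kk D f t (tn t n) 1) u z,
      fun z => -kint d (kk D f t (tn t n) 0) u z])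
    (by
      intro i
      fin_cases i
      · exact (hS 1 u hu).of_le (by simp)
      · exact ((hS 0 u hu).of_le (by simp)).neg)
    (by
      intro n i
      fin_cases i
      · exact G.contDiffOn_kint_one (T.ker_kk P hs (tn_pos ht n) (tn_le ht n) 1) hu'
      · exact (G.contDiffOn_kint_one (T.ker_kk P hs (tn_pos ht n) (tn_le ht n) 0) hu').neg)
    (by
      intro i
      fin_cases i
      · exact (unif_comp (T.tendsto_kk P ht 1 hu.continuousOn) (tendsto_tn ht)).mono
          interior_subset
      · exact ((unif_comp (T.tendsto_kk P ht 0 hu.continuousOn) (tendsto_tn ht)).mono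
          interior_subset).neg)
    (G := Gl) hGc (by
      have L := (unif_const (atTop : Filter ℕ) (interior K)
        (fun z => kint d (ss D f t 0 1) u z)).sub
        ((unif_comp (T.tendsto_ss P 0 1 hu.continuousOn) (tendsto_tn ht)).mono
        (interior_subset (s := K)))
      refine (L.congr ?_).congr_right ?_
      · refine Eventually.of_forall fun n z hz => ?_
        have h1 := G.deg2 (g := fun j => kk D f t (tn t n) j)
          (S := fun i j x => ss D f t i j x - ss D f (tn t n) i j x)
          (fun j => T.ker_kk P hs (tn_pos ht n) (tn_le ht n) j)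
          (fun i j => T.exact_kk P hUO ht (tn_pos ht n) i j) hu' hz
        have hzK := interior_subset hz
        rw [G.kint_sub (T.smooth_ss P t 0 1).continuousOn
          (T.smooth_ss P (tn t n) 0 1).continuousOn hu.continuousOn hzK] at h1
        simp only [Fin.sum_univ_two, Pi.sub_apply, Matrix.cons_val_zero, Matrix.cons_val_one,
          Matrix.cons_val_fin_one]
        rw [dbv_neg, ← sub_eq_add_neg]
        exact h1.symm
      · intro z _
        simp only [Pi.sub_apply, hGl])
    z hz
  simp only [Fin.sum_univ_two, Matrix.cons_val_zero, Matrix.cons_val_one,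
    Matrix.cons_val_fin_one] at key
  rw [dbv_neg, ← sub_eq_add_neg] at key
  have e1 : sg 0 1 = 1 := by simp [sg]
  have key' : dbv (ev 0) (kint d (ks D f t 1) u) z - dbv (ev 1) (kint d (ks D f t 0) u) z =
    Gl z := key
  rw [key', hGl]
  simp only [e1, mul_one, neg_smul, sub_neg_eq_add]

end Tube

end

end Vale.Agent.P267.H156
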