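import Mathlib

/-!
# P267 / RRK-LOC: smoothness of `z ↦ ∫ wt(x) • Ψ(z, g x) dμ(x)` with `wt ∈ L¹`, `g` measurable
with values in a compact set (helper156)
-/

namespace Vale.Agent.P267.H156

open Filter Topology MeasureTheory Set Metric Module
open scoped ContDiff

set_option linter.unusedSectionVars false

noncomputable section

section

variable {X : Type} [MeasurableSpace X] {μ : Measure X}
  {E : Type} [NormedAddCommGroup E] [NormedSpace ℝ E] [FiniteDimensional ℝ E]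
  {Y : Type} [NormedAddCommGroup Y] [NormedSpace ℝ Y] [FiniteDimensional ℝ Y]
  [MeasurableSpace Y] [BorelSpace Y]

/-- the data of a weighted integral -/
structure Wt (μ : Measure X) (Ω : Set E) (S : Set Y) (N : Set (E × Y)) (wt : X → ℝ)
    (g : X → Y) : Prop where
  open_Ω : IsOpen Ω
  open_N : IsOpen N
  compact : IsCompact S
  sub : Ω ×ˢ S ⊆ N
  int : Integrable wt μ
  meas : AEMeasurable g μ
  maps : ∀ᵐ x ∂μ, g x ∈ S

variable {Ω : Set E} {S : Set Y} {N : Set (E × Y)} {wt : X → ℝ} {g : X → Y}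

theorem Wt.exists_bound (H : Wt μ Ω S N wt g) {W : Type} [NormedAddCommGroup W]
    {Ψ : E × Y → W} (hΨ : ContinuousOn Ψ N) {z : E} (hz : z ∈ Ω) :
    ∃ ε > 0, closedBall z ε ⊆ Ω ∧ ∃ C, ∀ z' ∈ closedBall z ε, ∀ y ∈ S, ‖Ψ (z', y)‖ ≤ C := by
  have : ProperSpace E := FiniteDimensional.proper ℝ E
  obtain ⟨ε, hε, hball⟩ := Metric.isOpen_iff.1 H.open_Ω z hz
  have hcl : closedBall z (ε / 2) ⊆ Ω := (closedBall_subset_ball (half_lt_self hε)).trans hball
  obtain ⟨C, hC⟩ := ((isCompact_closedBall z (ε / 2)).prod H.compact).exists_bound_of_continuousOn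
    (hΨ.mono ((Set.prod_mono hcl le_rfl).trans H.sub))
  exact ⟨ε / 2, half_pos hε, hcl, C, fun z' hz' y hy => hC (z', y) ⟨hz', hy⟩⟩

theorem Wt.aesm (H : Wt μ Ω S N wt g) {W : Type} [NormedAddCommGroup W] [NormedSpace ℝ W]
    {Ψ : E × Y → W} (hΨ : ContinuousOn Ψ N) {z : E} (hz : z ∈ Ω) :
    AEStronglyMeasurable (fun x => wt x • Ψ (z, g x)) μ := by
  refine H.int.aestronglyMeasurable.smul ?_
  -- restrict to the compact set `S`
  have h1 : ContinuousOn (fun y => Ψ (z, y)) S :=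
    hΨ.comp (by fun_prop) fun y hy => H.sub ⟨hz, hy⟩
  have h2 : AEStronglyMeasurable (fun y => Ψ (z, y)) ((Measure.map g μ).restrict S) :=
    h1.aestronglyMeasurable H.compact.isClosed.measurableSet
  have h3 : (Measure.map g μ).restrict S = Measure.map g μ := by
    refine Measure.restrict_eq_self_of_ae_mem ?_
    exact (ae_map_iff (p := fun y => y ∈ S) H.meas H.compact.isClosed.measurableSet).2 H.maps
  rw [h3] at h2
  exact h2.comp_aemeasurable H.meas

theorem Wt.integrable (H : Wt μ Ω S N wt g) {W : Type} [NormedAddCommGroup W] [NormedSpace ℝ W]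
    {Ψ : E × Y → W} (hΨ : ContinuousOn Ψ N) {z : E} (hz : z ∈ Ω) :
    Integrable (fun x => wt x • Ψ (z, g x)) μ := by
  obtain ⟨ε, hε, _, C, hC⟩ := H.exists_bound hΨ hz
  refine Integrable.mono' (H.int.norm.mul_const C) (H.aesm hΨ hz) ?_
  filter_upwards [H.maps] with x hx
  rw [norm_smul]
  exact mul_le_mul_of_nonneg_left (hC z (mem_closedBall_self hε.le) _ hx) (norm_nonneg _)

theorem Wt.continuousOn (H : Wt μ Ω S N wt g) {W : Type} [NormedAddCommGroup W]
    [NormedSpace ℝ W] {Ψ : E × Y → W} (hΨ : ContinuousOn Ψ N) :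
    ContinuousOn (fun z => ∫ x, wt x • Ψ (z, g x) ∂μ) Ω := by
  intro z hz
  refine ContinuousAt.continuousWithinAt ?_
  obtain ⟨ε, hε, hcl, C, hC⟩ := H.exists_bound hΨ hz
  refine continuousAt_of_dominated (bound := fun x => ‖wt x‖ * C) ?_ ?_
    (H.int.norm.mul_const C) ?_
  · filter_upwards [H.open_Ω.mem_nhds hz] with z' hz'
    exact H.aesm hΨ hz'
  · filter_upwards [closedBall_mem_nhds z hε] with z' hz'
    filter_upwards [H.maps] with x hx
    rw [norm_smul]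
    exact mul_le_mul_of_nonneg_left (hC z' hz' _ hx) (norm_nonneg _)
  · filter_upwards [H.maps] with x hx
    have h1 : ContinuousAt Ψ (z, g x) := hΨ.continuousAt (H.open_N.mem_nhds (H.sub ⟨hz, hx⟩))
    exact (ContinuousAt.comp (f := fun q : E => ((q, g x) : E × Y)) h1 (by fun_prop)).const_smul _

theorem Wt.hasFDerivAt (H : Wt μ Ω S N wt g) {W : Type} [NormedAddCommGroup W]
    [NormedSpace ℝ W] {Ψ : E × Y → W} (hΨ : ContDiffOn ℝ 1 Ψ N) {z : E} (hz : z ∈ Ω) :
    HasFDerivAt (fun z => ∫ x, wt x • Ψ (z, g x) ∂μ)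
      (∫ x, wt x • (fderiv ℝ Ψ (z, g x)).comp (ContinuousLinearMap.inl ℝ E Y) ∂μ) z := by
  have hc' : ContinuousOn (fun p => (fderiv ℝ Ψ p).comp (ContinuousLinearMap.inl ℝ E Y)) N := by
    have h1 : ContinuousOn (fderiv ℝ Ψ) N := hΨ.continuousOn_fderiv_of_isOpen H.open_N le_rfl
    exact h1.clm_comp continuousOn_const
  obtain ⟨ε, hε, hcl, C, hC⟩ := H.exists_bound hc' hz
  refine hasFDerivAt_integral_of_dominated_of_fderiv_le (𝕜 := ℝ) (bound := fun x => ‖wt x‖ * C)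
    (F' := fun z x => wt x • (fderiv ℝ Ψ (z, g x)).comp (ContinuousLinearMap.inl ℝ E Y))
    (closedBall_mem_nhds z hε) ?_ ?_ ?_ ?_ (H.int.norm.mul_const C) ?_
  · filter_upwards [H.open_Ω.mem_nhds hz] with z' hz'
    exact H.aesm hΨ.continuousOn hz'
  · exact H.integrable hΨ.continuousOn hz
  · exact H.aesm hc' hz
  · filter_upwards [H.maps] with x hx z' hz'
    rw [norm_smul]
    exact mul_le_mul_of_nonneg_left (hC z' hz' _ hx) (norm_nonneg _)
  · filter_upwards [H.maps] with x hx z' hz'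
    have h1 : HasFDerivAt Ψ (fderiv ℝ Ψ (z', g x)) (z', g x) :=
      ((hΨ.contDiffAt (H.open_N.mem_nhds (H.sub ⟨hcl hz', hx⟩))).differentiableAt
        (by simp)).hasFDerivAt
    exact (h1.comp z' (hasFDerivAt_prodMk_left z' (g x))).const_smul (wt x)

theorem Wt.contDiffOn_nat (H : Wt μ Ω S N wt g) (n : ℕ) :
    ∀ {W : Type} [NormedAddCommGroup W] [NormedSpace ℝ W] {Ψ : E × Y → W},
      ContDiffOn ℝ n Ψ N → ContDiffOn ℝ n (fun z => ∫ x, wt x • Ψ (z, g x) ∂μ) Ω := by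
  induction n with
  | zero =>
    intro W _ _ Ψ hΨ
    simp only [CharP.cast_eq_zero, contDiffOn_zero] at hΨ ⊢
    exact H.continuousOn hΨ
  | succ n ih =>
    intro W _ _ Ψ hΨ
    have hΨ1 : ContDiffOn ℝ 1 Ψ N := hΨ.of_le (by norm_cast; omega)
    have hcast : ((n + 1 : ℕ) : WithTop ℕ∞) = (n : WithTop ℕ∞) + 1 := by norm_cast
    have hΨn : ContDiffOn ℝ ((n : WithTop ℕ∞) + 1) Ψ N := by rwa [hcast] at hΨ
    rw [hcast, contDiffOn_succ_iff_fderiv_of_isOpen H.open_Ω]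
    refine ⟨fun z hz => (H.hasFDerivAt hΨ1 hz).differentiableAt.differentiableWithinAt,
      by simp, ?_⟩
    have h1 : ContDiffOn ℝ n (fun p => (fderiv ℝ Ψ p).comp (ContinuousLinearMap.inl ℝ E Y)) N := by
      have h2 : ContDiffOn ℝ n (fderiv ℝ Ψ) N := hΨn.fderiv_of_isOpen H.open_N le_rfl
      exact h2.clm_comp contDiffOn_const
    exact (ih h1).congr fun z hz => (H.hasFDerivAt hΨ1 hz).fderiv

/-- **WINT** -/
theorem Wt.contDiffOn (H : Wt μ Ω S N wt g) {W : Type} [NormedAddCommGroup W] [NormedSpace ℝ W]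
    {Ψ : E × Y → W} (hΨ : ContDiffOn ℝ ∞ Ψ N) :
    ContDiffOn ℝ ∞ (fun z => ∫ x, wt x • Ψ (z, g x) ∂μ) Ω := by
  rw [contDiffOn_infty]
  exact fun n => H.contDiffOn_nat n (hΨ.of_le (by exact_mod_cast le_top))

end

end

end Vale.Agent.P267.H156
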