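import Vale.Agent.P267.H156.Loc
import Vale.Agent.P267.H156.Wint
import Vale.Agent.P267.H734.ParInt

/-!
# P267 / RRK-LOC: smoothness of `K_t u` (helper156)

For `v ≠ 0`, `K_t(z,z+v) u(z+v) = ‖v‖⁻³ Ψ(z, ‖v‖, v/‖v‖)` with `Ψ` smooth in `(z,r,ω)` near
`r ∈ [0,R]`, `‖ω‖ = 1`.
-/

namespace Vale.Agent.P267.H156

open Filter Topology MeasureTheory Set Metric Module
open Vale.Agent.P267.H315
open scoped ContDiff

set_option linter.unusedSectionVars false

noncomputable section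

/-- parameters `(z, (r, ω))` -/
abbrev PP : Type := V × (ℝ × V)

/-- `(z, z + r ω)` -/
def pt (p : PP) : VV := (p.1, p.1 + p.2.1 • p.2.2)

theorem contDiff_pt : ContDiff ℝ ∞ pt := by
  unfold pt
  fun_prop

variable {F : Type} [NormedAddCommGroup F] [NormedSpace ℂ F] [CompleteSpace F]

/-- `σ_a(z,r,ω) = ∫_0^1 (∂_w s_a)(z, z + τ r ω)(ω) dτ` -/
def sig (D : KData (F →L[ℂ] F)) (a : Fin 2) (p : PP) : ℂ :=
  ∫ τ in (0 : ℝ)..1, fderiv ℝ (D.s a) (p.1, p.1 + τ • (p.2.1 • p.2.2)) ((0, p.2.2) : VV)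

variable {D : KData (F →L[ℂ] F)} {U : Set VV} {O : Set V} {h : V → Matrix (Fin 2) (Fin 2) ℂ}
  {K : Set V} {c C d : ℝ}

/-- domain of the parameters -/
def N0 (K : Set V) (d : ℝ) : Set PP := {p | p.1 ∈ interior K ∧ |p.2.1| * ‖p.2.2‖ < d}

theorem isOpen_N0 (K : Set V) (d : ℝ) : IsOpen (N0 K d) := by
  have h1 : IsOpen {p : PP | p.1 ∈ interior K} := isOpen_interior.preimage continuous_fst
  have h2 : IsOpen {p : PP | |p.2.1| * ‖p.2.2‖ < d} := isOpen_lt (by fun_prop) continuous_const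
  exact h1.inter h2

namespace Tube

variable (T : Tube D U O h K c C d)
include T

theorem seg {p : PP} (hp : p ∈ N0 K d) {τ : ℝ} (hτ : τ ∈ Icc (0 : ℝ) 1) :
    ((p.1, p.1 + τ • (p.2.1 • p.2.2)) : VV) ∈ U ∧ p.1 + τ • (p.2.1 • p.2.2) ∈ O := by
  refine T.sub p.1 (interior_subset hp.1) _ ?_
  rw [norm_smul, norm_smul, Real.norm_eq_abs, Real.norm_eq_abs, abs_of_nonneg hτ.1]
  have h1 := hp.2
  have h2 : 0 ≤ |p.2.1| * ‖p.2.2‖ := by positivity
  nlinarith [hτ.1, hτ.2]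

theorem pt_mem {p : PP} (hp : p ∈ N0 K d) : pt p ∈ U ∧ (pt p).2 ∈ O := by
  have := T.seg hp (τ := 1) (by simp)
  simpa [pt] using this

theorem smooth_sig (a : Fin 2) : ContDiffOn ℝ ∞ (sig D a) (N0 K d) := by
  set W : Set (PP × ℝ) := {q | ((q.1.1, q.1.1 + q.2 • (q.1.2.1 • q.1.2.2)) : VV) ∈ U} with hW
  have hWo : IsOpen W := T.H.open_U.preimage (by fun_prop)
  refine H734.contDiffOn_integral (W := W) (f := fun q : PP × ℝ => fderiv ℝ (D.s a)
    (q.1.1, q.1.1 + q.2 • (q.1.2.1 • q.1.2.2)) ((0, q.1.2.2) : VV)) hWo (isOpen_N0 K d)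
    (fun p hp τ hτ => (T.seg hp hτ).1) ?_
  have h1 : ContDiffOn ℝ ∞ (fderiv ℝ (D.s a)) U :=
    (T.H.rel.smooth_s a).fderiv_of_isOpen T.H.open_U (by simp)
  have h2 : ContDiffOn ℝ ∞ (fun q : PP × ℝ => fderiv ℝ (D.s a)
      ((q.1.1, q.1.1 + q.2 • (q.1.2.1 • q.1.2.2)) : VV)) W :=
    h1.comp (ContDiff.contDiffOn (by fun_prop)) fun q hq => hq
  have h3 : ContDiffOn ℝ ∞ (fun q : PP × ℝ => ((0, q.1.2.2) : VV)) W :=
    ContDiff.contDiffOn (by fun_prop)
  exact h2.clm_apply h3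

theorem s_eq {p : PP} (hp : p ∈ N0 K d) (a : Fin 2) :
    D.s a (pt p) = p.2.1 • sig D a p := by
  have hd : ∀ τ ∈ uIcc (0 : ℝ) 1, HasDerivAt
      (fun τ : ℝ => D.s a (p.1, p.1 + τ • (p.2.1 • p.2.2)))
      (fderiv ℝ (D.s a) (p.1, p.1 + τ • (p.2.1 • p.2.2)) ((0, p.2.1 • p.2.2) : VV)) τ := by
    intro τ hτ
    rw [uIcc_of_le zero_le_one] at hτ
    have h1 := (T.H.rel.ds' T.H.open_U (T.seg hp hτ).1 a).hasFDerivAt
    have h2 : HasDerivAt (fun τ : ℝ => ((p.1, p.1 + τ • (p.2.1 • p.2.2)) : VV))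
        ((0, p.2.1 • p.2.2) : VV) τ := by
      have e1 : HasDerivAt (fun τ : ℝ => p.1 + τ • (p.2.1 • p.2.2)) (p.2.1 • p.2.2) τ := by
        have := ((hasDerivAt_id τ).smul_const (p.2.1 • p.2.2)).const_add p.1
        simpa using this
      exact (hasDerivAt_const τ p.1).prodMk e1
    exact h1.comp_hasDerivAt τ h2
  have hcont : ContinuousOn (fun τ : ℝ => fderiv ℝ (D.s a) (p.1, p.1 + τ • (p.2.1 • p.2.2))
      ((0, p.2.1 • p.2.2) : VV)) (Icc 0 1) := by
    have h1 : ContinuousOn (fderiv ℝ (D.s a)) U :=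
      (T.H.rel.smooth_s a).continuousOn_fderiv_of_isOpen T.H.open_U (by simp)
    exact (h1.comp (Continuous.continuousOn (by fun_prop)) fun τ hτ => (T.seg hp hτ).1).clm_apply
      continuousOn_const
  have h1 := intervalIntegral.integral_eq_sub_of_hasDerivAt hd
    (hcont.intervalIntegrable_of_Icc zero_le_one)
  simp only [one_smul, zero_smul, add_zero] at h1
  rw [T.H.s_diag p.1 (T.sub_O (interior_subset hp.1)) a, sub_zero] at h1
  have e1 : ∀ τ : ℝ, fderiv ℝ (D.s a) (p.1, p.1 + τ • (p.2.1 • p.2.2))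
      ((0, p.2.1 • p.2.2) : VV) = p.2.1 • fderiv ℝ (D.s a)
      (p.1, p.1 + τ • (p.2.1 • p.2.2)) ((0, p.2.2) : VV) := by
    intro τ
    rw [← map_smul]
    congr 1
    simp
  simp only [e1] at h1
  rw [intervalIntegral.integral_smul] at h1
  exact h1.symm

theorem sig_zero {z : V} (hz : z ∈ interior K) (y : V) (a : Fin 2) :
    sig D a (z, (0, y)) = y a := by
  unfold sig
  simp only [zero_smul, smul_zero, add_zero]
  rw [T.H.ds_diag z (T.sub_O (interior_subset hz)) a y]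
  simp

/-- `θ` -/
theorem theta_eq {p : PP} (hp : p ∈ N0 K d) :
    (D.rr (pt p)).re = p.2.1 ^ 2 * (herm (h p.1) (fun a => sig D a p)).re := by
  rw [T.H.rr_eq (T.pt_mem hp).1]
  have : (fun a => D.s a (pt p)) = p.2.1 • fun a => sig D a p := by
    funext a
    exact T.s_eq hp a
  rw [this, herm_smul]
  rfl

end Tube

/-- `θ(z,r,η)`, so that `rr = r² θ` -/
def th (D : KData (F →L[ℂ] F)) (h : V → Matrix (Fin 2) (Fin 2) ℂ) (p : PP) : ℝ :=
  (herm (h p.1) (fun a => sig D a p)).re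

/-- `β_a`, so that `b_a = r β_a` -/
def be (D : KData (F →L[ℂ] F)) (h : V → Matrix (Fin 2) (Fin 2) ℂ) (p : PP) (a : Fin 2) : ℂ :=
  ∑ c, h p.1 a c * star (sig D c p)

/-- `A / r` -/
def cAb (D : KData (F →L[ℂ] F)) (h : V → Matrix (Fin 2) (Fin 2) ℂ) (j : Fin 4) (p : PP) :
    F →L[ℂ] F :=
  -(wd (be D h p) (fun a => D.Ga j a (pt p)) * D.m (pt p))

/-- `A' / r` -/
def cAb' (D : KData (F →L[ℂ] F)) (h : V → Matrix (Fin 2) (Fin 2) ℂ) (j : Fin 4) (p : PP) :
    F →L[ℂ] F :=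
  -((wc (be D h p) (fun a => D.B j a (pt p))) • D.m (pt p))

/-- the smooth kernel in the blown up coordinates -/
def Psi (D : KData (F →L[ℂ] F)) (h : V → Matrix (Fin 2) (Fin 2) ℂ) (f : ℝ → ℝ) (t : ℝ)
    (j : Fin 4) (u : V → F) (p : PP) : F :=
  (p.2.1 ^ 2 * f (p.2.1 ^ 2 * th D h p / t) / th D h p) • (cAb D h j p (u (pt p).2)) +
  ((t⁻¹ * deriv f (p.2.1 ^ 2 * th D h p / t) * (p.2.1 ^ 2 * th D h p) -
    f (p.2.1 ^ 2 * th D h p / t)) / th D h p ^ 2) • (cAb' D h j p (u (pt p).2))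

/-- the domain where `θ > 0` -/
def N1 (D : KData (F →L[ℂ] F)) (h : V → Matrix (Fin 2) (Fin 2) ℂ) (K : Set V) (d : ℝ) : Set PP :=
  N0 K d ∩ {p | 0 < th D h p}

namespace Tube

variable (T : Tube D U O h K c C d)
include T

theorem smooth_h (a c : Fin 2) : ContDiffOn ℝ ∞ (fun p : PP => h p.1 a c) (N0 K d) :=
  (T.H.h_smooth a c).comp (ContDiff.contDiffOn (by fun_prop)) fun p hp =>
    T.sub_O (interior_subset hp.1)

theorem smooth_star_sig (a : Fin 2) :
    ContDiffOn ℝ ∞ (fun p : PP => star (sig D a p)) (N0 K d) :=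
  (Complex.conjCLE : ℂ →L[ℝ] ℂ).contDiff.comp_contDiffOn (T.smooth_sig a)

theorem smooth_th : ContDiffOn ℝ ∞ (th D h) (N0 K d) := by
  have h1 : ContDiffOn ℝ ∞ (fun p : PP => herm (h p.1) (fun a => sig D a p)) (N0 K d) := by
    unfold herm
    refine ContDiffOn.sum fun a _ => ContDiffOn.sum fun c _ => ?_
    exact ((T.smooth_h a c).mul (T.smooth_sig a)).mul (T.smooth_star_sig c)
  exact Complex.reCLM.contDiff.comp_contDiffOn h1

theorem smooth_be (a : Fin 2) : ContDiffOn ℝ ∞ (fun p => be D h p a) (N0 K d) := by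
  unfold be
  exact ContDiffOn.sum fun c _ => (T.smooth_h a c).mul (T.smooth_star_sig c)

theorem smooth_pt {W : Type} [NormedAddCommGroup W] [NormedSpace ℝ W] {g : VV → W}
    (hg : ContDiffOn ℝ ∞ g U) : ContDiffOn ℝ ∞ (fun p => g (pt p)) (N0 K d) :=
  hg.comp contDiff_pt.contDiffOn fun _ hp => (T.pt_mem hp).1

theorem isOpen_N1 : IsOpen (N1 D h K d) :=
  T.smooth_th.continuousOn.isOpen_inter_preimage (isOpen_N0 K d) isOpen_Ioi

theorem smooth_cAb (j : Fin 4) : ContDiffOn ℝ ∞ (cAb D h j) (N0 K d) := by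
  have e1 : ContDiffOn ℝ ∞
      (fun p : PP => wd (be D h p) (fun a => D.Ga j a (pt p))) (N0 K d) :=
    ((T.smooth_be 0).smul (T.smooth_pt (T.H.rel.smooth_Ga j 1))).sub
      ((T.smooth_be 1).smul (T.smooth_pt (T.H.rel.smooth_Ga j 0)))
  exact (e1.mul (T.smooth_pt T.H.rel.smooth_m)).neg

theorem smooth_B (j : Fin 4) (a : Fin 2) : ContDiffOn ℝ ∞ (D.B j a) U := fun _ hx =>
  (T.H.rel.cB T.H.open_U hx j a).contDiffWithinAt

theorem smooth_cAb' (j : Fin 4) : ContDiffOn ℝ ∞ (cAb' D h j) (N0 K d) := by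
  have e1 : ContDiffOn ℝ ∞
      (fun p : PP => wc (be D h p) (fun a => D.B j a (pt p))) (N0 K d) :=
    ((T.smooth_be 0).mul (T.smooth_pt (T.smooth_B j 1))).sub
      ((T.smooth_be 1).mul (T.smooth_pt (T.smooth_B j 0)))
  exact (e1.smul (T.smooth_pt T.H.rel.smooth_m)).neg

theorem smooth_Psi {f : ℝ → ℝ} (hf : ContDiff ℝ ∞ f) (t : ℝ) (j : Fin 4) {u : V → F}
    (hu : ContDiffOn ℝ ∞ u O) : ContDiffOn ℝ ∞ (Psi D h f t j u) (N1 D h K d) := by
  have hsub : N1 D h K d ⊆ N0 K d := inter_subset_left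
  have hth : ContDiffOn ℝ ∞ (th D h) (N1 D h K d) := T.smooth_th.mono hsub
  have hne : ∀ p ∈ N1 D h K d, th D h p ≠ 0 := fun p hp => ne_of_gt hp.2
  have hr : ContDiffOn ℝ ∞ (fun p : PP => p.2.1 ^ 2) (N1 D h K d) :=
    ContDiff.contDiffOn (by fun_prop)
  have harg : ContDiffOn ℝ ∞ (fun p : PP => p.2.1 ^ 2 * th D h p / t) (N1 D h K d) :=
    (hr.mul hth).div_const t
  have hf' : ContDiff ℝ ∞ (deriv f) := ((contDiff_infty_iff_deriv).1 hf).2
  have hfa : ContDiffOn ℝ ∞ (fun p : PP => f (p.2.1 ^ 2 * th D h p / t)) (N1 D h K d) :=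
    hf.comp_contDiffOn harg
  have hfa' : ContDiffOn ℝ ∞ (fun p : PP => deriv f (p.2.1 ^ 2 * th D h p / t))
      (N1 D h K d) := hf'.comp_contDiffOn harg
  have hup : ContDiffOn ℝ ∞ (fun p : PP => u (pt p).2) (N1 D h K d) :=
    hu.comp ((contDiff_snd.comp contDiff_pt).contDiffOn) fun p hp => (T.pt_mem (hsub hp)).2
  have happ : ∀ {g : PP → F →L[ℂ] F}, ContDiffOn ℝ ∞ g (N1 D h K d) →
      ContDiffOn ℝ ∞ (fun p => g p (u (pt p).2)) (N1 D h K d) := by
    intro g hg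
    have h3 : ContDiffOn ℝ ∞
        (fun x => (ContinuousLinearMap.restrictScalarsL ℂ F F ℝ ℝ) (g x)) (N1 D h K d) :=
      (ContinuousLinearMap.restrictScalarsL ℂ F F ℝ ℝ).contDiff.comp_contDiffOn hg
    exact h3.clm_apply hup
  have c1 : ContDiffOn ℝ ∞ (fun p : PP => p.2.1 ^ 2 * f (p.2.1 ^ 2 * th D h p / t) / th D h p)
      (N1 D h K d) := (hr.mul hfa).div hth hne
  have c2 : ContDiffOn ℝ ∞ (fun p : PP =>
      (t⁻¹ * deriv f (p.2.1 ^ 2 * th D h p / t) * (p.2.1 ^ 2 * th D h p) -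
        f (p.2.1 ^ 2 * th D h p / t)) / th D h p ^ 2) (N1 D h K d) :=
    (((contDiffOn_const.mul hfa').mul (hr.mul hth)).sub hfa).div (hth.pow 2)
      fun p hp => pow_ne_zero 2 (hne p hp)
  exact (c1.smul (happ ((T.smooth_cAb j).mono hsub))).add
    (c2.smul (happ ((T.smooth_cAb' j).mono hsub)))

theorem b_eq' {p : PP} (hp : p ∈ N0 K d) (a : Fin 2) :
    D.b a (pt p) = p.2.1 • be D h p a := by
  rw [T.H.b_eq _ (T.pt_mem hp).1]
  unfold be
  rw [Finset.smul_sum]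
  refine Finset.sum_congr rfl fun c _ => ?_
  rw [T.s_eq hp c, star_smul, star_trivial, mul_smul_comm]
  rfl

theorem cA_eq {p : PP} (hp : p ∈ N0 K d) (j : Fin 4) : cA D j (pt p) = p.2.1 • cAb D h j p := by
  unfold cA cAb wd
  beta_reduce
  rw [T.b_eq' hp, T.b_eq' hp, smul_neg, ← smul_mul_assoc, smul_sub]
  simp only [smul_assoc]

theorem cA'_eq {p : PP} (hp : p ∈ N0 K d) (j : Fin 4) :
    cA' D j (pt p) = p.2.1 • cAb' D h j p := by
  unfold cA' cAb' wc
  beta_reduce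
  rw [T.b_eq' hp, T.b_eq' hp, smul_neg, ← smul_assoc, smul_sub]
  simp only [smul_mul_assoc]

/-- the representation of the singular kernel -/
theorem ks_eq_Psi {f f'' : ℝ → ℝ} {G r : ℝ} (hcut : Cut f (deriv f) f'' G r) {t : ℝ}
    (ht : 0 < t) (j : Fin 4) (u : V → F) {p : PP} (hp : p ∈ N1 D h K d) (hr : 0 < p.2.1) :
    ks D f t j (pt p) (u (pt p).2) = (p.2.1 ^ 3)⁻¹ • Psi D h f t j u p := by
  have hp0 := hp.1
  have hth : 0 < th D h p := hp.2
  have hrr : (D.rr (pt p)).re = p.2.1 ^ 2 * th D h p := T.theta_eq hp0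
  have hpos : 0 < (D.rr (pt p)).re := by
    rw [hrr]
    positivity
  have e1 : ks D f t j (pt p) = hK f t (p.2.1 ^ 2 * th D h p) • cA D j (pt p) +
      hK' f (deriv f) t (p.2.1 ^ 2 * th D h p) • cA' D j (pt p) := by
    unfold ks
    rw [Kf_eq, deriv_hKc hcut ht hpos, hrr]
    simp only [hKc]
    rw [Complex.coe_smul, Complex.coe_smul]
  rw [e1, T.cA_eq hp0, T.cA'_eq hp0]
  unfold Psi
  simp only [_root_.add_apply, _root_.smul_apply, smul_add, smul_smul]
  congr 1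
  · congr 1
    unfold hK
    field_simp
  · congr 1
    unfold hK'
    field_simp

end Tube

/-- polar coordinates (for the sup norm) -/
def pol (v : V) : ℝ × V := (‖v‖, ‖v‖⁻¹ • v)

theorem pt_pol (z : V) {v : V} (hv : v ≠ 0) : pt (z, pol v) = (z, z + v) := by
  unfold pt pol
  simp only
  rw [smul_smul, mul_inv_cancel₀ (norm_ne_zero_iff.2 hv), one_smul]

/-- **smoothness of `K_t u`** -/
theorem Tube.smooth_ks (T : Tube D U O h K c C d) {f : ℝ → ℝ} {r : ℝ} (P : Profile f r) {t : ℝ}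
    (hs : Small r c d t) (j : Fin 4) {u : V → F} (hu : ContDiffOn ℝ ∞ u O) :
    ContDiffOn ℝ ∞ (kint d (ks D f t j) u) (interior K) := by
  obtain ⟨G, hcut⟩ := exists_cut P.two P.r_nonneg P.zero
  have ht := hs.t_pos
  have hc := T.c_pos
  set R := Rt r c t with hR
  have hR0 : 0 ≤ R := Rt_nonneg _ _ _
  have hRd : R < d := Rt_lt P.r_nonneg T.c_pos T.d_pos hs
  -- the weighted integral
  have hW : Wt (volume.restrict (closedBall (0 : V) R)) (interior K)
      (Icc (0 : ℝ) R ×ˢ sphere (0 : V) 1) (N1 D h K d) (fun v => (‖v‖ ^ 3)⁻¹) pol := by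
    refine ⟨isOpen_interior, T.isOpen_N1, isCompact_Icc.prod (isCompact_sphere _ _), ?_, ?_, ?_, ?_⟩
    · rintro ⟨z, ρ, y⟩ ⟨hz, hρ, hy⟩
      simp only at hz hρ hy
      have hy1 : ‖y‖ = 1 := by simpa using hy
      have hN0 : ((z, (ρ, y)) : PP) ∈ N0 K d := by
        refine ⟨hz, ?_⟩
        simp only
        rw [hy1, mul_one, abs_of_nonneg hρ.1]
        exact hρ.2.trans_lt hRd
      refine ⟨hN0, ?_⟩
      show 0 < th D h (z, (ρ, y))
      have hzO := T.sub_O (interior_subset hz)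
      rcases hρ.1.eq_or_lt with h0 | h0
      · subst h0
        unfold th
        have : (fun a => sig D a ((z, (0, y)) : PP)) = y := by
          funext a
          exact T.sig_zero hz y a
        rw [this]
        refine herm_pos (T.H.isHerm z hzO) (T.H.pos z hzO) (T.H.det_pos z hzO) ?_
        intro h
        rw [h] at hy1
        simp at hy1
      · have h1 := T.theta_eq hN0
        have h2 := T.lower (interior_subset hz) (v := ρ • y) (by
          rw [norm_smul, hy1, mul_one, Real.norm_eq_abs, abs_of_pos h0]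
          exact hρ.2.trans_lt hRd)
        have h3 : (D.rr (pt (z, (ρ, y)))).re = (D.rr (z, z + ρ • y)).re := rfl
        have h4 : 0 < (D.rr (z, z + ρ • y)).re := by
          refine lt_of_lt_of_le ?_ h2
          rw [norm_smul, hy1, mul_one, Real.norm_eq_abs, abs_of_pos h0]
          positivity
        rw [← h3, h1] at h4
        simp only at h4
        exact (pos_iff_pos_of_mul_pos h4).1 (by positivity)
    · have := (integrable_rad1 (volume : Measure V) R)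
      rw [finrank_V] at this
      refine (this.integrableOn (s := closedBall (0 : V) R)).congr_fun ?_
        measurableSet_closedBall
      intro v hv
      have hv' : ‖v‖ ≤ R := by simpa using hv
      simp only [rad1]
      rw [indicator_of_mem (show ‖v‖ ∈ Iic R from hv')]
    · refine Measurable.aemeasurable ?_
      unfold pol
      fun_prop
    · have h0 : ∀ᵐ v ∂(volume.restrict (closedBall (0 : V) R)), v ≠ 0 := by
        refine ae_restrict_of_ae ?_
        rw [ae_iff]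
        simp
      filter_upwards [h0, ae_restrict_mem measurableSet_closedBall] with v hv0 hv
      have hv' : ‖v‖ ≤ R := by simpa using hv
      refine ⟨⟨norm_nonneg v, hv'⟩, ?_⟩
      simp only [pol]
      rw [mem_sphere_zero_iff_norm, norm_smul, norm_inv, norm_norm,
        inv_mul_cancel₀ (norm_ne_zero_iff.2 hv0)]
  have key := hW.contDiffOn (T.smooth_Psi P.smooth t j hu)
  refine key.congr fun z hz => ?_
  have hzK := interior_subset hz
  unfold kint
  have h1 : ∫ v in ball (0 : V) d, ks D f t j (z, z + v) (u (z + v)) =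
      ∫ v in ball (0 : V) d ∩ closedBall 0 R, ks D f t j (z, z + v) (u (z + v)) := by
    refine setIntegral_eq_of_subset_of_forall_sdiff_eq_zero measurableSet_ball inter_subset_left ?_
    rintro v ⟨hv, hv2⟩
    rw [mem_ball_zero_iff] at hv
    have hRv : R < ‖v‖ := by
      by_contra hle
      rw [not_lt] at hle
      exact hv2 ⟨by simpa using hv, by simpa using hle⟩
    have h3 := Rt_le P.r_nonneg T.c_pos hs.t_pos.le hRv.le
    unfold ks
    rw [T.support_K P.two P.r_nonneg P.zero hs.t_pos hzK hv h3 j]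
    simp
  have h2 : ball (0 : V) d ∩ closedBall 0 R = closedBall 0 R :=
    inter_eq_right.2 (closedBall_subset_ball hRd)
  rw [h1, h2]
  refine integral_congr_ae ?_
  have h0 : ∀ᵐ v ∂(volume.restrict (closedBall (0 : V) R)), v ≠ 0 := by
    refine ae_restrict_of_ae ?_
    rw [ae_iff]
    simp
  filter_upwards [h0, hW.maps] with v hv0 hv
  have hmem : ((z, pol v) : PP) ∈ N1 D h K d := hW.sub ⟨hz, hv⟩
  have h4 := T.ks_eq_Psi hcut ht j u hmem (by
    show 0 < ‖v‖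
    exact norm_pos_iff.2 hv0)
  rw [pt_pol z hv0] at h4
  exact h4

/-- **SmoothK** -/
theorem smoothK {D : KData (F →L[ℂ] F)} {U : Set VV} {O : Set V}
    {h : V → Matrix (Fin 2) (Fin 2) ℂ} (H : LimHyp D U O h) {f : ℝ → ℝ} {r : ℝ}
    (P : Profile f r) (hr : 0 < r) : SmoothK D O f := by
  intro K hK hKO
  obtain ⟨c, C, d₀, hd₀, hT⟩ := H.exists_tube hK hKO
  refine ⟨d₀, hd₀, fun d hd hdd => ?_⟩
  have T := hT d hd hdd
  have hc := T.c_pos
  refine ⟨c / 2 * d ^ 2 / r, by positivity, fun t ht htt j u hu => ?_⟩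
  refine T.smooth_ks P ⟨ht, ?_⟩ j hu
  rw [lt_div_iff₀ hr] at htt
  linarith

/-- **RRK-LOC**, final form -/
theorem rrkLoc {D : KData (F →L[ℂ] F)} {U : Set VV} {O : Set V}
    {h : V → Matrix (Fin 2) (Fin 2) ℂ} (H : LimHyp D U O h) {f : ℝ → ℝ} {r : ℝ}
    (P : Profile f r) (hr : 0 < r) {Q Kc : Set V} (hQ : IsOpen Q)
    (hQK : Q ⊆ Kc) (hKc : IsCompact Kc) (hKO : Kc ⊆ O) :
    ∃ d0 > 0, ∀ d, 0 < d → d ≤ d0 → ∃ t0 > 0, ∀ t, 0 < t → t < t0 → LocPS D U O Q f d t :=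
  rrk_loc H P hr (smoothK H P hr) hQ hQK hKc hKO

end

end Vale.Agent.P267.H156
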