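import Vale.Agent.P267.H315.Db
import Mathlib.Analysis.Calculus.LineDeriv.IntegrationByParts
import Mathlib.Analysis.Calculus.ParametricIntegral
import Mathlib.Analysis.Distribution.AEEqOfIntegralContDiff

/-!
# P267 / RRK-PS: Stokes, differentiation under the integral sign, weak limits (helper156)
-/

namespace Vale.Agent.P267.H156

open Filter Topology MeasureTheory Set Metric Module
open Vale.Agent.P267.H315
open scoped ContDiff

set_option linter.unusedSectionVars false

noncomputable section

/-! ### smoothness of extensions by zero -/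

theorem contDiffOn_indicator {E W : Type*} [NormedAddCommGroup E] [NormedSpace ℝ E]
    [NormedAddCommGroup W] [NormedSpace ℝ W] {n : WithTop ℕ∞} {g : E → W} {Ω B C : Set E}
    (hΩ : IsOpen Ω) (hB : IsOpen B) (hC : IsClosed C) (hg : ContDiffOn ℝ n g (Ω ∩ B))
    (h0 : ∀ x ∈ Ω ∩ B, x ∉ C → g x = 0) (hCB : Ω ∩ C ⊆ B) :
    ContDiffOn ℝ n (B.indicator g) Ω := by
  intro x hx
  refine ContDiffAt.contDiffWithinAt ?_
  by_cases hxB : x ∈ B
  · have h1 : ContDiffAt ℝ n g x := hg.contDiffAt ((hΩ.inter hB).mem_nhds ⟨hx, hxB⟩)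
    refine h1.congr_of_eventuallyEq ?_
    filter_upwards [hB.mem_nhds hxB] with y hy
    exact indicator_of_mem hy g
  · have hxC : x ∉ C := fun h => hxB (hCB ⟨hx, h⟩)
    refine (contDiffAt_const (c := (0 : W))).congr_of_eventuallyEq ?_
    filter_upwards [hC.isOpen_compl.mem_nhds hxC, hΩ.mem_nhds hx] with y hyC hyΩ
    by_cases hyB : y ∈ B
    · rw [indicator_of_mem hyB]
      exact h0 y ⟨hyΩ, hyB⟩ hyC
    · exact indicator_of_notMem hyB g

/-! ### Stokes -/

section stokes

variable {E W : Type*} [NormedAddCommGroup E] [NormedSpace ℝ E] [FiniteDimensional ℝ E]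
  [MeasurableSpace E] [BorelSpace E] (μ : Measure E) [μ.IsAddHaarMeasure]
  [NormedAddCommGroup W] [NormedSpace ℝ W]

theorem integral_fderiv_zero {g : E → W} (hg : ContDiff ℝ 1 g) (hc : HasCompactSupport g)
    (e : E) : ∫ x, fderiv ℝ g x e ∂μ = 0 := by
  have hcont : Continuous (fun x => fderiv ℝ g x e) :=
    (hg.continuous_fderiv (by simp)).clm_apply continuous_const
  have hcs : HasCompactSupport (fun x => fderiv ℝ g x e) := hc.fderiv_apply ℝ e
  have i1 : Integrable (fun x => fderiv ℝ g x e) μ := hcont.integrable_of_hasCompactSupport hcs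
  have i2 : Integrable g μ := hg.continuous.integrable_of_hasCompactSupport hc
  have h := integral_bilinear_hasFDerivAt_right_eq_neg_left_of_integrable (μ := μ)
    (B := ContinuousLinearMap.lsmul ℝ ℝ (E := W)) (f := fun _ : E => (1 : ℝ)) (f' := fun _ => 0)
    (g := g) (g' := fderiv ℝ g) (v := e) (by simp) (by simpa using i1) (by simpa using i2)
    (fun x _ => hasFDerivAt_const _ _)
    (fun x _ => (hg.differentiable (by simp) x).hasFDerivAt)
  simpa using h

end stokes

section dbv

variable {E W W' : Type*} [NormedAddCommGroup E] [NormedSpace ℂ E]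
  [NormedAddCommGroup W] [NormedSpace ℂ W] [NormedAddCommGroup W'] [NormedSpace ℂ W']

theorem dbv_apply' {L : E → W →L[ℂ] W'} {g : E → W} {x : E} (v : E)
    (hL : DifferentiableAt ℝ L x) (hg : DifferentiableAt ℝ g x) :
    dbv v (fun y => L y (g y)) x = (dbv v L x) (g x) + L x (dbv v g x) := by
  -- real bilinear application map
  have happ : HasFDerivAt (fun y => L y (g y))
      ((((ContinuousLinearMap.restrictScalarsL ℂ W W' ℝ ℝ) (L x)).comp (fderiv ℝ g x)) +
        ((((ContinuousLinearMap.restrictScalarsL ℂ W W' ℝ ℝ).comp (fderiv ℝ L x)).flip (g x))))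
        x := by
    have h1 : HasFDerivAt (fun y => (ContinuousLinearMap.restrictScalarsL ℂ W W' ℝ ℝ) (L y))
        ((ContinuousLinearMap.restrictScalarsL ℂ W W' ℝ ℝ).comp (fderiv ℝ L x)) x :=
      (ContinuousLinearMap.restrictScalarsL ℂ W W' ℝ ℝ).hasFDerivAt.comp x hL.hasFDerivAt
    exact h1.clm_apply hg.hasFDerivAt
  have key : ∀ e : E, fderiv ℝ (fun y => L y (g y)) x e =
      L x (fderiv ℝ g x e) + (fderiv ℝ L x e) (g x) := by
    intro e
    rw [happ.fderiv]
    rfl
  unfold dbv
  rw [key, key]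
  simp only [map_smul, map_add, smul_add]
  simp only [_root_.smul_apply, _root_.add_apply]
  module

end dbv

/-! ### `∂̄` and integrals -/

section int

variable {E W : Type*} [NormedAddCommGroup E] [NormedSpace ℂ E] [FiniteDimensional ℝ E]
  [MeasurableSpace E] [BorelSpace E] (μ : Measure E) [μ.IsAddHaarMeasure]
  [NormedAddCommGroup W] [NormedSpace ℂ W]

theorem integral_dbv_zero {g : E → W} (hg : ContDiff ℝ 1 g) (hc : HasCompactSupport g)
    (e : E) : ∫ x, dbv e g x ∂μ = 0 := by
  have hcont : ∀ e, Continuous (fun x => fderiv ℝ g x e) := fun e =>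
    (hg.continuous_fderiv (by simp)).clm_apply continuous_const
  have i1 : ∀ e, Integrable (fun x => fderiv ℝ g x e) μ := fun e =>
    (hcont e).integrable_of_hasCompactSupport (hc.fderiv_apply ℝ e)
  unfold dbv
  rw [integral_smul, integral_add (i1 e)
    (show Integrable (fun x => Complex.I • fderiv ℝ g x (Complex.I • e)) μ from
      (i1 _).smul Complex.I), integral_smul,
    integral_fderiv_zero μ hg hc, integral_fderiv_zero μ hg hc]
  simp

/-- `∂̄` of a slice -/
theorem dbv_snd {P : Type*} [NormedAddCommGroup P] [NormedSpace ℂ P] {G : P × E → W} {z : P}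
    {w : E} (hG : DifferentiableAt ℝ G (z, w)) (e : E) :
    dbv ((0, e) : P × E) G (z, w) = dbv e (fun w => G (z, w)) w := by
  have h1 : fderiv ℝ (fun w => G (z, w)) w = (fderiv ℝ G (z, w)).comp
      (ContinuousLinearMap.inr ℝ P E) :=
    (hG.hasFDerivAt.comp w (hasFDerivAt_prodMk_right z w)).fderiv
  unfold dbv
  rw [h1]
  simp

theorem dbv_fst {P : Type*} [NormedAddCommGroup P] [NormedSpace ℂ P] {G : P × E → W} {z : P}
    {w : E} (hG : DifferentiableAt ℝ G (z, w)) (e : P) :
    dbv ((e, 0) : P × E) G (z, w) = dbv e (fun z => G (z, w)) z := by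
  have h1 : fderiv ℝ (fun z => G (z, w)) z = (fderiv ℝ G (z, w)).comp
      (ContinuousLinearMap.inl ℝ P E) :=
    (hG.hasFDerivAt.comp z (hasFDerivAt_prodMk_left z w)).fderiv
  unfold dbv
  rw [h1]
  simp

theorem dbv_snd_const {P : Type*} [NormedAddCommGroup P] [NormedSpace ℂ P] {u : E → W} {z : P}
    {w : E} (hu : DifferentiableAt ℝ u w) (e : E) :
    dbv ((0, e) : P × E) (fun x => u x.2) (z, w) = dbv e u w := by
  have h1 : fderiv ℝ (fun x : P × E => u x.2) (z, w) =
      (fderiv ℝ u w).comp (ContinuousLinearMap.snd ℝ P E) :=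
    (HasFDerivAt.comp (z, w) (f := fun x : P × E => x.2) hu.hasFDerivAt
      (ContinuousLinearMap.snd ℝ P E).hasFDerivAt).fderiv
  unfold dbv
  rw [h1]
  simp

theorem dbv_fst_const {P : Type*} [NormedAddCommGroup P] [NormedSpace ℂ P] {u : E → W} {z : P}
    {w : E} (hu : DifferentiableAt ℝ u w) (e : P) :
    dbv ((e, 0) : P × E) (fun x => u x.2) (z, w) = 0 := by
  have h1 : fderiv ℝ (fun x : P × E => u x.2) (z, w) =
      (fderiv ℝ u w).comp (ContinuousLinearMap.snd ℝ P E) :=
    (HasFDerivAt.comp (z, w) (f := fun x : P × E => x.2) hu.hasFDerivAt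
      (ContinuousLinearMap.snd ℝ P E).hasFDerivAt).fderiv
  unfold dbv
  rw [h1]
  simp

/-- differentiation under the integral sign, kernels supported near the diagonal -/
theorem hasFDerivAt_integral_diag [CompleteSpace W] [ProperSpace E] {Ω : Set E} (hΩ : IsOpen Ω)
    {G : E × E → W} (hG : ContDiffOn ℝ 1 G (Ω ×ˢ univ)) {R : ℝ}
    (h0 : ∀ z ∈ Ω, ∀ w, R < dist w z → G (z, w) = 0) {z : E} (hz : z ∈ Ω) :
    HasFDerivAt (fun z => ∫ w, G (z, w) ∂μ)
      (∫ w, (fderiv ℝ G (z, w)).comp (ContinuousLinearMap.inl ℝ E E) ∂μ) z ∧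
    Integrable (fun w => (fderiv ℝ G (z, w)).comp (ContinuousLinearMap.inl ℝ E E)) μ := by
  have hO : IsOpen (Ω ×ˢ (univ : Set E)) := hΩ.prod isOpen_univ
  obtain ⟨ε, hε, hball⟩ := Metric.isOpen_iff.1 hΩ z hz
  have hcl : closedBall z (ε / 2) ⊆ Ω := (closedBall_subset_ball (half_lt_self hε)).trans hball
  set F' : E → E → (E →L[ℝ] W) := fun z w =>
    (fderiv ℝ G (z, w)).comp (ContinuousLinearMap.inl ℝ E E) with hF'
  have hcont' : ContinuousOn (fun p : E × E => F' p.1 p.2) (Ω ×ˢ univ) := by
    have h1 : ContinuousOn (fderiv ℝ G) (Ω ×ˢ univ) := hG.continuousOn_fderiv_of_isOpen hO le_rfl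
    exact h1.clm_comp continuousOn_const
  obtain ⟨C, hC⟩ := ((isCompact_closedBall z (ε / 2)).prod
    (isCompact_closedBall z (R + ε))).exists_bound_of_continuousOn
    (hcont'.mono (Set.prod_mono hcl (subset_univ _)))
  -- vanishing of the derivative away from the diagonal
  have hvan : ∀ z' ∈ ball z (ε / 2), ∀ w, w ∉ closedBall z (R + ε) → F' z' w = 0 := by
    intro z' hz' w hw
    have hz'Ω : z' ∈ Ω := hcl (ball_subset_closedBall hz')
    have hd : R < dist w z' := by
      rw [mem_closedBall, not_le] at hw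
      have h1 := dist_triangle w z' z
      have h2 : dist z' z < ε / 2 := hz'
      linarith
    have hev : G =ᶠ[𝓝 (z', w)] fun _ => (0 : W) := by
      have ho : IsOpen {p : E × E | R < dist p.2 p.1} :=
        isOpen_lt continuous_const (continuous_snd.dist continuous_fst)
      filter_upwards [ho.mem_nhds (show (z', w) ∈ {p : E × E | R < dist p.2 p.1} from hd),
        hO.mem_nhds (show (z', w) ∈ Ω ×ˢ (univ : Set E) from ⟨hz'Ω, mem_univ _⟩)] with p hp hp2
      exact h0 p.1 hp2.1 p.2 hp
    simp only [hF']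
    rw [hev.fderiv_eq]
    simp
  have hslice : ∀ z' ∈ Ω, Continuous fun w => G (z', w) := by
    intro z' hz'
    rw [← continuousOn_univ]
    exact hG.continuousOn.comp (f := fun w : E => ((z', w) : E × E)) (by fun_prop)
      fun w _ => ⟨hz', mem_univ _⟩
  have hslice' : ∀ z' ∈ Ω, Continuous fun w => F' z' w := by
    intro z' hz'
    rw [← continuousOn_univ]
    exact hcont'.comp (f := fun w : E => ((z', w) : E × E)) (by fun_prop)
      fun w _ => ⟨hz', mem_univ _⟩
  have hcs : ∀ z' ∈ Ω, HasCompactSupport fun w => G (z', w) := by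
    intro z' hz'
    refine HasCompactSupport.intro (isCompact_closedBall z' R) fun w hw => ?_
    rw [mem_closedBall, not_le] at hw
    exact h0 z' hz' w hw
  have hbnd : ∀ z' ∈ ball z (ε / 2), ∀ w,
      ‖F' z' w‖ ≤ (closedBall z (R + ε)).indicator (fun _ => |C|) w := by
    intro z' hz' w
    by_cases hw : w ∈ closedBall z (R + ε)
    · rw [indicator_of_mem hw]
      exact (hC (z', w) ⟨ball_subset_closedBall hz', hw⟩).trans (le_abs_self C)
    · rw [indicator_of_notMem hw, hvan z' hz' w hw, norm_zero]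
  have hint : Integrable ((closedBall z (R + ε)).indicator fun _ => |C|) μ :=
    (integrable_indicator_iff measurableSet_closedBall).2
      (integrableOn_const (measure_closedBall_lt_top).ne)
  refine ⟨?_, ?_⟩
  · refine hasFDerivAt_integral_of_dominated_of_fderiv_le (𝕜 := ℝ)
      (bound := (closedBall z (R + ε)).indicator fun _ => |C|) (F' := F')
      (ball_mem_nhds z (half_pos hε)) ?_ ?_ ?_ ?_ hint ?_
    · filter_upwards [hΩ.mem_nhds hz] with z' hz'
      exact (hslice z' hz').aestronglyMeasurable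
    · exact (hslice z hz).integrable_of_hasCompactSupport (hcs z hz)
    · exact (hslice' z hz).aestronglyMeasurable
    · exact Eventually.of_forall fun w z' hz' => hbnd z' hz' w
    · refine Eventually.of_forall fun w z' hz' => ?_
      have hz'Ω : z' ∈ Ω := hcl (ball_subset_closedBall hz')
      have h1 : HasFDerivAt G (fderiv ℝ G (z', w)) (z', w) :=
        ((hG.contDiffAt (hO.mem_nhds ⟨hz'Ω, mem_univ _⟩)).differentiableAt
          (by simp)).hasFDerivAt
      exact h1.comp z' (hasFDerivAt_prodMk_left z' w)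
  · refine Integrable.mono' hint (hslice' z hz).aestronglyMeasurable
      (Eventually.of_forall fun w => hbnd z (mem_ball_self (half_pos hε)) w)

theorem dbv_integral_diag [CompleteSpace W] [ProperSpace E] {Ω : Set E} (hΩ : IsOpen Ω)
    {G : E × E → W} (hG : ContDiffOn ℝ 1 G (Ω ×ˢ univ)) {R : ℝ}
    (h0 : ∀ z ∈ Ω, ∀ w, R < dist w z → G (z, w) = 0) {z : E} (hz : z ∈ Ω) (e : E) :
    dbv e (fun z => ∫ w, G (z, w) ∂μ) z = ∫ w, dbv ((e, 0) : E × E) G (z, w) ∂μ := by
  obtain ⟨h1, h2⟩ := hasFDerivAt_integral_diag μ hΩ hG h0 hz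
  have i1 : ∀ e : E, Integrable (fun w => fderiv ℝ G (z, w) ((e, 0) : E × E)) μ := by
    intro e
    have := h2.apply_continuousLinearMap e
    simpa using this
  have h3 : ∀ e : E, fderiv ℝ (fun z => ∫ w, G (z, w) ∂μ) z e =
      ∫ w, fderiv ℝ G (z, w) ((e, 0) : E × E) ∂μ := by
    intro e
    rw [h1.fderiv, ContinuousLinearMap.integral_apply h2]
    simp
  unfold dbv
  rw [h3, h3, integral_smul]
  congr 1
  have e' : Complex.I • ((e, 0) : E × E) = (Complex.I • e, 0) := by simp
  rw [e', integral_add (i1 e)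
    (show Integrable (fun w => Complex.I • fderiv ℝ G (z, w) ((Complex.I • e, 0) : E × E)) μ from
      (i1 _).smul Complex.I), integral_smul]

end int

end

end Vale.Agent.P267.H156
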