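import Vale.Agent.P267.H156.Unif

/-!
# P267 / RRK-LIM: the limit of `t⁻² f''(q/t) N + t⁻¹ f'(q/t) M + f(q/t) P`, and the uniform
bound (helper156)
-/

namespace Vale.Agent.P267.H156

open Filter Topology MeasureTheory Set Metric Module

set_option linter.unusedSectionVars false

noncomputable section

theorem finrank_V : finrank ℝ (Fin 2 → ℂ) = 4 := by
  rw [Module.finrank_pi_fintype]
  simp [Complex.finrank_real_complex]

section bound

variable {V F : Type*} [NormedAddCommGroup V] [NormedSpace ℝ V] [FiniteDimensional ℝ V]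
  [MeasurableSpace V] [BorelSpace V] (μ : Measure V) [μ.IsAddHaarMeasure]
  [NormedAddCommGroup F] [NormedSpace ℝ F] [CompleteSpace F]

/-- integrability of a kernel on the ball -/
theorem integrableOn_kernel {q : V → ℝ} {d : ℝ}
    (hqm : AEStronglyMeasurable q (μ.restrict (ball 0 d)))
    (hq0 : ∀ v, ‖v‖ < d → 0 ≤ q v)
    {g : ℝ → ℝ} {G r : ℝ} (hgc : Continuous g) (hg : Prof g G r) {m : V → F} {B : ℝ}
    (hmm : AEStronglyMeasurable m (μ.restrict (ball 0 d)))
    (hm : ∀ v, ‖v‖ < d → ‖m v‖ ≤ B) {t : ℝ} (ht : 0 < t) :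
    IntegrableOn (fun v => g (q v / t) • m v) (ball 0 d) μ := by
  have hmeas : AEStronglyMeasurable (fun v => g (q v / t) • m v) (μ.restrict (ball 0 d)) :=
    (hgc.comp_aestronglyMeasurable (hqm.mul_const t⁻¹)).smul hmm
  have : IsFiniteMeasure (μ.restrict (ball (0 : V) d)) :=
    ⟨by rw [Measure.restrict_apply_univ]; exact measure_ball_lt_top⟩
  refine Integrable.of_bound hmeas (G * B) ?_
  refine (ae_restrict_iff' measurableSet_ball).2 (Eventually.of_forall fun v hv => ?_)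
  have hv' : ‖v‖ < d := by simpa using hv
  rw [norm_smul]
  exact mul_le_mul (hg.bdd _ (div_nonneg (hq0 v hv') ht.le)) (hm v hv') (norm_nonneg _) hg.G_nonneg

/-- `L¹` bound of the rescaled kernel -/
theorem kernel_bound_norm {q : V → ℝ} {c d : ℝ} (hq : SqDist q c d) {g : ℝ → ℝ} {G r : ℝ}
    (hg : Prof g G r) {m : V → F} {B : ℝ} (hm : ∀ v, ‖v‖ < d → ‖m v‖ ≤ B) {t : ℝ} (ht : 0 < t) :
    ∫ v in ball (0 : V) d, ‖g (q v / t) • m v‖ ∂μ ≤
      Real.sqrt t ^ finrank ℝ V * (G * B * μ.real (closedBall (0 : V) (Real.sqrt (r / c)))) := by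
  have hg' : Prof (fun x => |g x|) G r :=
    ⟨hg.r_nonneg, fun x hx => by rw [abs_abs]; exact hg.bdd x hx,
      fun x hx => by rw [hg.zero x hx, abs_zero]⟩
  have h1 := kernel_bound μ (F := ℝ) hq hg' (m := fun v => ‖m v‖) (B := B)
    (fun v hv => by rw [norm_norm]; exact hm v hv) ht
  have h2 : 0 < Real.sqrt t ^ finrank ℝ V := by positivity
  have h3 : (fun v => ‖g (q v / t) • m v‖) = fun v => |g (q v / t)| • ‖m v‖ := by
    funext v
    rw [norm_smul, Real.norm_eq_abs, smul_eq_mul]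
  rw [h3]
  have h4 : 0 ≤ ∫ v in ball (0 : V) d, |g (q v / t)| • ‖m v‖ ∂μ :=
    integral_nonneg fun v => by positivity
  rw [norm_smul, norm_inv, Real.norm_of_nonneg h2.le, Real.norm_of_nonneg h4,
    inv_mul_le_iff₀ h2] at h1
  exact h1

end bound

section three

variable {F : Type*} [NormedAddCommGroup F] [NormedSpace ℝ F] [CompleteSpace F]
  {Z : Type*} [TopologicalSpace Z] [FirstCountableTopology Z]

/-- the profile data: `f` cut off at `r`, with its first two derivatives -/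
structure Cut (f f' f'' : ℝ → ℝ) (G r : ℝ) : Prop where
  d1 : ∀ x, 0 ≤ x → HasDerivAt f (f' x) x
  d2 : ∀ x, 0 ≤ x → HasDerivAt f' (f'' x) x
  c0 : Continuous f
  c1 : Continuous f'
  c2 : Continuous f''
  p0 : Prof f G r
  p1 : Prof f' G r
  p2 : Prof f'' G r

theorem exists_cut {f : ℝ → ℝ} (hf : ContDiff ℝ 2 f) {r : ℝ} (hr : 0 ≤ r)
    (h0 : ∀ x, r ≤ x → f x = 0) : ∃ G, Cut f (deriv f) (deriv (deriv f)) G r := by
  have hf' : ContDiff ℝ 1 (deriv f) := by
    have : ContDiff ℝ (1 + 1) f := by simpa [one_add_one_eq_two] using hf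
    exact ((contDiff_succ_iff_deriv).1 this).2.2
  have hf'' : ContDiff ℝ 0 (deriv (deriv f)) := by
    have : ContDiff ℝ (0 + 1) (deriv f) := by simpa using hf'
    exact ((contDiff_succ_iff_deriv).1 this).2.2
  have d1 : ∀ x, HasDerivAt f (deriv f x) x := fun x =>
    (hf.differentiable (by norm_num) x).hasDerivAt
  have d2 : ∀ x, HasDerivAt (deriv f) (deriv (deriv f) x) x := fun x =>
    (hf'.differentiable (by norm_num) x).hasDerivAt
  have e1 : ∀ x, r < x → deriv f x = 0 := fun x hx =>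
    deriv_zero_of_zero (c := x) (fun y _ => d1 y) h0 le_rfl hx
  have e1' : ∀ x, r ≤ x → deriv f x = 0 := by
    intro x hx
    rcases hx.lt_or_eq with h | h
    · exact e1 x h
    · subst h
      have hc : ContinuousWithinAt (deriv f) (Ioi r) r := hf'.continuous.continuousWithinAt
      have h1 : Tendsto (deriv f) (𝓝[>] r) (𝓝 0) := by
        refine tendsto_const_nhds.congr' ?_
        filter_upwards [self_mem_nhdsWithin] with y hy
        exact (e1 y hy).symm
      exact tendsto_nhds_unique hc.tendsto h1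
  have e2 : ∀ x, r < x → deriv (deriv f) x = 0 := fun x hx =>
    deriv_zero_of_zero (c := x) (fun y _ => d2 y) e1' le_rfl hx
  have e2' : ∀ x, r ≤ x → deriv (deriv f) x = 0 := by
    intro x hx
    rcases hx.lt_or_eq with h | h
    · exact e2 x h
    · subst h
      have hc : ContinuousWithinAt (deriv (deriv f)) (Ioi r) r :=
        hf''.continuous.continuousWithinAt
      have h1 : Tendsto (deriv (deriv f)) (𝓝[>] r) (𝓝 0) := by
        refine tendsto_const_nhds.congr' ?_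
        filter_upwards [self_mem_nhdsWithin] with y hy
        exact (e2 y hy).symm
      exact tendsto_nhds_unique hc.tendsto h1
  obtain ⟨G0, p0⟩ := exists_prof hf.continuous hr h0
  obtain ⟨G1, p1⟩ := exists_prof hf'.continuous hr e1'
  obtain ⟨G2, p2⟩ := exists_prof hf''.continuous hr e2'
  have mono : ∀ {g : ℝ → ℝ} {G G' : ℝ}, Prof g G r → G ≤ G' → Prof g G' r :=
    fun h hG => ⟨h.r_nonneg, fun x hx => (h.bdd x hx).trans hG, h.zero⟩
  exact ⟨max G0 (max G1 G2), fun x _ => d1 x, fun x _ => d2 x, hf.continuous, hf'.continuous,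
    hf''.continuous, mono p0 (le_max_left _ _),
    mono p1 ((le_max_left _ _).trans (le_max_right _ _)),
    mono p2 ((le_max_right _ _).trans (le_max_right _ _))⟩

/-- the model kernel `t⁻² f''(q/t) N + t⁻¹ f'(q/t) M + f(q/t) P` -/
def ker3 (f f' f'' : ℝ → ℝ) (q : (Fin 2 → ℂ) → ℝ) (N M P : (Fin 2 → ℂ) → F) (t : ℝ)
    (v : Fin 2 → ℂ) : F :=
  ((t ^ 2)⁻¹ * f'' (q v / t)) • N v + (t⁻¹ * f' (q v / t)) • M v + f (q v / t) • P v

variable {f f' f'' : ℝ → ℝ} {G r : ℝ} {K : Set Z} {h : Z → Matrix (Fin 2) (Fin 2) ℂ}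
  {q : Z → (Fin 2 → ℂ) → ℝ} {c C d B : ℝ} {N M P : Z → (Fin 2 → ℂ) → F}

/-- hypotheses on the squared distance -/
structure TubeQ (K : Set Z) (h : Z → Matrix (Fin 2) (Fin 2) ℂ) (q : Z → (Fin 2 → ℂ) → ℝ)
    (c C d : ℝ) : Prop where
  quad : Quad K q (fun z v => (herm (h z) v).re) c C d
  small : d ≤ rad c C
  meas : ∀ z ∈ K, AEStronglyMeasurable (q z) (volume.restrict (ball 0 d))
  isHermitian : ∀ z ∈ K, (h z).IsHermitian
  pos : ∀ z ∈ K, 0 < (h z 0 0).re
  det_pos : ∀ z ∈ K, 0 < (h z).det.re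

/-- hypotheses on a coefficient -/
structure TubeC (K : Set Z) (N : Z → (Fin 2 → ℂ) → F) (d B : ℝ) : Prop where
  cont : ContinuousOn (fun p : Z × (Fin 2 → ℂ) => N p.1 p.2) (K ×ˢ ball 0 d)
  bdd : ∀ z ∈ K, ∀ v, ‖v‖ < d → ‖N z v‖ ≤ B

theorem TubeC.meas (hN : TubeC K N d B) {z : Z} (hz : z ∈ K) :
    AEStronglyMeasurable (N z) (volume.restrict (ball 0 d)) := by
  refine ContinuousOn.aestronglyMeasurable ?_ measurableSet_ball
  exact hN.cont.comp (f := fun v => (z, v)) (by fun_prop) fun v hv => ⟨hz, hv⟩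

theorem TubeQ.sqDist (hq : TubeQ K h q c C d) {z : Z} (hz : z ∈ K) : SqDist (q z) (c / 2) d :=
  hq.quad.sqDist hq.small hz

theorem TubeQ.nonneg (hq : TubeQ K h q c C d) {z : Z} (hz : z ∈ K) {v : Fin 2 → ℂ}
    (hv : ‖v‖ < d) : 0 ≤ q z v := by
  have h1 := (hq.sqDist hz).lower v hv
  have := hq.quad.c_pos
  exact le_trans (by positivity) h1

theorem herm_continuous (h : Matrix (Fin 2) (Fin 2) ℂ) : Continuous (herm h) := by
  unfold herm
  fun_prop

theorem TubeQ.integral (hq : TubeQ K h q c C d) (hf : Cut f f' f'' G r) {z : Z} (hz : z ∈ K) :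
    ∫ v : Fin 2 → ℂ, f'' (herm (h z) v).re = Real.pi ^ 2 / (h z).det.re * f 0 :=
  integral_herm (hq.isHermitian z hz) (hq.pos z hz) (hq.det_pos z hz) hf.d1 hf.d2 hf.c2 hf.p0.zero

/-- (LIM) uniform convergence -/
theorem tendstoUniformlyOn_ker3 (hK : IsCompact K) (hq : TubeQ K h q c C d)
    (hf : Cut f f' f'' G r) (hN : TubeC K N d B) (hM : TubeC K M d B) (hP : TubeC K P d B) :
    TendstoUniformlyOn (fun (t : ℝ) z => ∫ v in ball (0 : Fin 2 → ℂ) d,
        ker3 f f' f'' (q z) (N z) (M z) (P z) t v)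
      (fun z => (Real.pi ^ 2 / (h z).det.re * f 0) • N z 0) (𝓝[>] 0) K := by
  have hd := hq.quad.d_pos
  have hsub0 : ∀ z ∈ K, (z, (0 : Fin 2 → ℂ)) ∈ K ×ˢ ball (0 : Fin 2 → ℂ) d :=
    fun z hz => ⟨hz, by simpa using hd⟩
  have hmap0 : ContinuousOn (fun z : Z => (z, (0 : Fin 2 → ℂ))) K := by fun_prop
  have hN0 : ContinuousOn (fun z => N z 0) K := hN.cont.comp hmap0 hsub0
  have hM0 : ContinuousOn (fun z => M z 0) K := hM.cont.comp hmap0 hsub0
  have hP0 : ContinuousOn (fun z => P z 0) K := hP.cont.comp hmap0 hsub0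
  have hQm : ∀ z ∈ K, AEStronglyMeasurable (fun v : Fin 2 → ℂ => (herm (h z) v).re) volume :=
    fun z _ => (Complex.continuous_re.comp (herm_continuous (h z))).aestronglyMeasurable
  have I2 := continuousOn_constInt (volume : Measure (Fin 2 → ℂ)) hq.quad hQm hf.c2 hf.p2
  have I1 := continuousOn_constInt (volume : Measure (Fin 2 → ℂ)) hq.quad hQm hf.c1 hf.p1
  have I0 := continuousOn_constInt (volume : Measure (Fin 2 → ℂ)) hq.quad hQm hf.c0 hf.p0
  have L2 := tendstoUniformlyOn_kernel (volume : Measure (Fin 2 → ℂ)) hK hq.quad hq.small hq.meas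
    hf.c2 hf.p2 hN.cont hN.bdd (I2.smul hN0)
  -- the lower order terms tend to zero uniformly
  have low : ∀ (k : ℕ), k ≠ 0 → ∀ {g : ℝ → ℝ}, Prof g G r → ∀ {m : Z → (Fin 2 → ℂ) → F},
      TubeC K m d B → TendstoUniformlyOn (fun (t : ℝ) z =>
        (t ^ k * (Real.sqrt t ^ finrank ℝ (Fin 2 → ℂ))⁻¹) •
          ∫ v in ball (0 : Fin 2 → ℂ) d, g (q z v / t) • m z v) (fun _ => 0) (𝓝[>] 0) K := by
    intro k hk g hg m hm
    rw [Metric.tendstoUniformlyOn_iff]
    intro ε hε
    have h1 : Tendsto (fun t : ℝ => t ^ k * (G * B * volume.real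
        (closedBall (0 : Fin 2 → ℂ) (Real.sqrt (r / (c / 2)))))) (𝓝[>] 0) (𝓝 0) := by
      have : Tendsto (fun t : ℝ => t ^ k * (G * B * volume.real
          (closedBall (0 : Fin 2 → ℂ) (Real.sqrt (r / (c / 2)))))) (𝓝 0)
          (𝓝 (0 ^ k * (G * B * volume.real
            (closedBall (0 : Fin 2 → ℂ) (Real.sqrt (r / (c / 2))))))) :=
        Continuous.tendsto (by fun_prop) 0
      rw [zero_pow hk, zero_mul] at this
      exact this.mono_left nhdsWithin_le_nhds
    filter_upwards [self_mem_nhdsWithin, h1.eventually (gt_mem_nhds hε)] with t ht hte z hz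
    rw [dist_zero_left]
    exact (kernel_bound_mul volume (hq.sqDist hz) hg (hm.bdd z hz) k ht).trans_lt hte
  have L1 := low 1 one_ne_zero hf.p1 hM
  have L0 := low 2 two_ne_zero hf.p0 hP
  have L := (L2.add L1).add L0
  refine (L.congr ?_).congr_right ?_
  · filter_upwards [self_mem_nhdsWithin] with t ht z hz
    have ht' : 0 < t := ht
    have h4 : Real.sqrt t ^ finrank ℝ (Fin 2 → ℂ) = t ^ 2 := by
      rw [finrank_V, show (4 : ℕ) = 2 * 2 from rfl, pow_mul, Real.sq_sqrt ht'.le]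
    have hn : ∀ v, ‖v‖ < d → 0 ≤ q z v := fun v hv => hq.nonneg hz hv
    have i2 := integrableOn_kernel (volume : Measure (Fin 2 → ℂ)) (hq.meas z hz) hn hf.c2 hf.p2
      (hN.meas hz) (hN.bdd z hz) ht'
    have i1 := integrableOn_kernel (volume : Measure (Fin 2 → ℂ)) (hq.meas z hz) hn hf.c1 hf.p1
      (hM.meas hz) (hM.bdd z hz) ht'
    have i0 := integrableOn_kernel (volume : Measure (Fin 2 → ℂ)) (hq.meas z hz) hn hf.c0 hf.p0
      (hP.meas hz) (hP.bdd z hz) ht'
    simp only [Pi.add_apply, ker3, h4]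
    have e : ∀ v, ((t ^ 2)⁻¹ * f'' (q z v / t)) • N z v + (t⁻¹ * f' (q z v / t)) • M z v +
        f (q z v / t) • P z v = (t ^ 2)⁻¹ • (f'' (q z v / t) • N z v) +
        t⁻¹ • (f' (q z v / t) • M z v) + f (q z v / t) • P z v := by
      intro v
      rw [mul_smul, mul_smul]
    simp only [e]
    rw [integral_add (by exact (i2.smul _).add (i1.smul _)) (by exact i0),
      integral_add (by exact i2.smul _) (by exact i1.smul _), integral_smul, integral_smul]
    have e1 : t ^ 1 * (t ^ 2)⁻¹ = t⁻¹ := by field_simp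
    have e2 : t ^ 2 * (t ^ 2)⁻¹ = 1 := by field_simp
    rw [e1, e2, one_smul]
  · intro z hz
    simp only [Pi.add_apply, add_zero]
    rw [hq.integral hf hz]

/-- (BOUND) the `L¹` norms of the kernels are bounded for `0 < t ≤ 1` -/
theorem norm_ker3_le (hq : TubeQ K h q c C d) (hf : Cut f f' f'' G r) (hN : TubeC K N d B)
    (hM : TubeC K M d B) (hP : TubeC K P d B) {t : ℝ} (ht : 0 < t) (ht1 : t ≤ 1) {z : Z}
    (hz : z ∈ K) :
    ∫ v in ball (0 : Fin 2 → ℂ) d, ‖ker3 f f' f'' (q z) (N z) (M z) (P z) t v‖ ≤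
      3 * (G * B * volume.real (closedBall (0 : Fin 2 → ℂ) (Real.sqrt (r / (c / 2))))) := by
  have h4 : Real.sqrt t ^ finrank ℝ (Fin 2 → ℂ) = t ^ 2 := by
    rw [finrank_V, show (4 : ℕ) = 2 * 2 from rfl, pow_mul, Real.sq_sqrt ht.le]
  have hn : ∀ v, ‖v‖ < d → 0 ≤ q z v := fun v hv => hq.nonneg hz hv
  have i2 := integrableOn_kernel (volume : Measure (Fin 2 → ℂ)) (hq.meas z hz) hn hf.c2 hf.p2
    (hN.meas hz) (hN.bdd z hz) ht
  have i1 := integrableOn_kernel (volume : Measure (Fin 2 → ℂ)) (hq.meas z hz) hn hf.c1 hf.p1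
    (hM.meas hz) (hM.bdd z hz) ht
  have i0 := integrableOn_kernel (volume : Measure (Fin 2 → ℂ)) (hq.meas z hz) hn hf.c0 hf.p0
    (hP.meas hz) (hP.bdd z hz) ht
  have b2 := kernel_bound_norm (volume : Measure (Fin 2 → ℂ)) (hq.sqDist hz) hf.p2
    (hN.bdd z hz) ht
  have b1 := kernel_bound_norm (volume : Measure (Fin 2 → ℂ)) (hq.sqDist hz) hf.p1
    (hM.bdd z hz) ht
  have b0 := kernel_bound_norm (volume : Measure (Fin 2 → ℂ)) (hq.sqDist hz) hf.p0
    (hP.bdd z hz) ht
  rw [h4] at b2 b1 b0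
  set W := G * B * volume.real (closedBall (0 : Fin 2 → ℂ) (Real.sqrt (r / (c / 2)))) with hW
  have hB : 0 ≤ B := (norm_nonneg _).trans (hN.bdd z hz 0 (by simpa using hq.quad.d_pos))
  have hG := hf.p0.G_nonneg
  have hW0 : 0 ≤ W := by positivity
  have ht2 : 0 < t ^ 2 := by positivity
  calc ∫ v in ball (0 : Fin 2 → ℂ) d, ‖ker3 f f' f'' (q z) (N z) (M z) (P z) t v‖
      ≤ ∫ v in ball (0 : Fin 2 → ℂ) d, ((t ^ 2)⁻¹ * ‖f'' (q z v / t) • N z v‖ +
        t⁻¹ * ‖f' (q z v / t) • M z v‖ + ‖f (q z v / t) • P z v‖) := by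
        refine integral_mono_of_nonneg (Eventually.of_forall fun v => norm_nonneg _)
          (((i2.norm.const_mul _).add (i1.norm.const_mul _)).add i0.norm)
          (Eventually.of_forall fun v => ?_)
        simp only [ker3]
        refine (norm_add₃_le).trans (le_of_eq ?_)
        rw [mul_smul, mul_smul, norm_smul (t ^ 2)⁻¹, norm_smul t⁻¹,
          Real.norm_of_nonneg (by positivity : 0 ≤ (t ^ 2)⁻¹),
          Real.norm_of_nonneg (by positivity : 0 ≤ t⁻¹)]
    _ = (t ^ 2)⁻¹ * (∫ v in ball (0 : Fin 2 → ℂ) d, ‖f'' (q z v / t) • N z v‖) +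
        t⁻¹ * (∫ v in ball (0 : Fin 2 → ℂ) d, ‖f' (q z v / t) • M z v‖) +
        ∫ v in ball (0 : Fin 2 → ℂ) d, ‖f (q z v / t) • P z v‖ := by
        rw [integral_add (by exact (i2.norm.const_mul _).add (i1.norm.const_mul _))
          (by exact i0.norm), integral_add (by exact i2.norm.const_mul _)
          (by exact i1.norm.const_mul _), integral_const_mul, integral_const_mul]
    _ ≤ W + W + W := by
        refine add_le_add (add_le_add ?_ ?_) ?_
        · rw [inv_mul_le_iff₀ ht2]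
          exact b2
        · rw [inv_mul_le_iff₀ ht]
          refine b1.trans (mul_le_mul_of_nonneg_right ?_ hW0)
          nlinarith
        · refine b0.trans ?_
          have h5 : t ^ 2 ≤ 1 := by nlinarith
          calc t ^ 2 * W ≤ 1 * W := mul_le_mul_of_nonneg_right h5 hW0
            _ = W := one_mul W
    _ = _ := by ring

end three

end

end Vale.Agent.P267.H156
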