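import Vale.Agent.P267.H156.Lim
import Vale.Agent.P267.H156.Const

/-!
# P267 / RRK-LIM: uniform limits and uniform bounds for the kernels (helper156)
-/

namespace Vale.Agent.P267.H156

open Filter Topology MeasureTheory Set Metric Module

noncomputable section

section gen

variable {V F : Type*} [NormedAddCommGroup V] [NormedSpace ℝ V] [FiniteDimensional ℝ V]
  [MeasurableSpace V] [BorelSpace V] (μ : Measure V) [μ.IsAddHaarMeasure]
  [NormedAddCommGroup F] [NormedSpace ℝ F] [CompleteSpace F]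

/-- (L1) limit along an arbitrary filter -/
theorem tendsto_kernel_gen {ι : Type*} {l : Filter ι} [l.IsCountablyGenerated]
    {q : ι → V → ℝ} {Q : V → ℝ} {T : ι → ℝ} {c d : ℝ} (hd : 0 < d)
    (hT : Tendsto T l (𝓝[>] 0))
    (hq : ∀ᶠ i in l, SqDist (q i) c d)
    (hqm : ∀ᶠ i in l, AEStronglyMeasurable (q i) (μ.restrict (ball 0 d)))
    (hQ : ∀ v, Tendsto (fun i => q i (Real.sqrt (T i) • v) / T i) l (𝓝 (Q v)))
    {g : ℝ → ℝ} {G r : ℝ} (hgc : Continuous g) (hg : Prof g G r)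
    {m : ι → V → F} {m0 : F} {B : ℝ}
    (hmm : ∀ᶠ i in l, AEStronglyMeasurable (m i) (μ.restrict (ball 0 d)))
    (hm : ∀ᶠ i in l, ∀ v, ‖v‖ < d → ‖m i v‖ ≤ B)
    (hm0 : ∀ v, Tendsto (fun i => m i (Real.sqrt (T i) • v)) l (𝓝 m0)) :
    Tendsto (fun i => (Real.sqrt (T i) ^ finrank ℝ V)⁻¹ •
        ∫ v in ball (0 : V) d, g (q i v / T i) • m i v ∂μ) l
      (𝓝 ((∫ v, g (Q v) ∂μ) • m0)) := by
  have hTpos : ∀ᶠ i in l, 0 < T i := hT.eventually self_mem_nhdsWithin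
  have hsq : Tendsto (fun i => Real.sqrt (T i)) l (𝓝 0) := by
    have := (Real.continuous_sqrt.tendsto 0).comp (hT.mono_right nhdsWithin_le_nhds)
    rwa [Real.sqrt_zero] at this
  have key : Tendsto (fun i => ∫ x, (ball (0 : V) d).indicator
      (fun v => g (q i v / T i) • m i v) (Real.sqrt (T i) • x) ∂μ) l
      (𝓝 (∫ x, g (Q x) • m0 ∂μ)) := by
    refine tendsto_integral_filter_of_dominated_convergence
      ((closedBall (0 : V) (Real.sqrt (r / c))).indicator fun _ => G * B) ?_ ?_ ?_ ?_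
    · filter_upwards [hTpos, hqm, hmm] with i ht hqmi hmmi
      have ht0 : Real.sqrt (T i) ≠ 0 := (Real.sqrt_pos.2 ht).ne'
      have h1 : AEStronglyMeasurable (fun v => g (q i v / T i) • m i v)
          (μ.restrict (ball 0 d)) :=
        (hgc.comp_aestronglyMeasurable (hqmi.mul_const (T i)⁻¹)).smul hmmi
      have h2 : AEStronglyMeasurable
          ((ball (0 : V) d).indicator (fun v => g (q i v / T i) • m i v)) μ :=
        (aestronglyMeasurable_indicator_iff measurableSet_ball).2 h1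
      refine h2.comp_quasiMeasurePreserving ?_
      refine ⟨measurable_const_smul (Real.sqrt (T i)), ?_⟩
      rw [Measure.map_addHaar_smul μ ht0]
      exact Measure.smul_absolutelyContinuous
    · filter_upwards [hTpos, hq, hm] with i ht hqi hmi
      exact Eventually.of_forall fun x => scaled_bound hqi hg hmi ht x
    · exact (integrable_indicator_iff measurableSet_closedBall).2
        (integrableOn_const (measure_closedBall_lt_top).ne)
    · refine Eventually.of_forall fun x => ?_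
      -- pointwise limit
      have hx0 : Tendsto (fun i => Real.sqrt (T i) • x) l (𝓝 (0 : V)) := by
        have := hsq.smul_const x
        simpa using this
      have hin : ∀ᶠ i in l, Real.sqrt (T i) • x ∈ ball (0 : V) d :=
        hx0.eventually (ball_mem_nhds _ hd)
      have h2 : Tendsto (fun i => g (q i (Real.sqrt (T i) • x) / T i) •
          m i (Real.sqrt (T i) • x)) l (𝓝 (g (Q x) • m0)) :=
        ((hgc.tendsto _).comp (hQ x)).smul (hm0 x)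
      refine h2.congr' ?_
      filter_upwards [hin] with i hi
      rw [indicator_of_mem hi]
  rw [integral_smul_const] at key
  refine key.congr' ?_
  filter_upwards [hTpos] with i ht
  rw [scale_integral μ (q i) g (m i) d ht]

end gen

section quad

variable {V : Type*} [NormedAddCommGroup V] [NormedSpace ℝ V] {Z : Type*} [TopologicalSpace Z]

/-- `q z` is, uniformly in `z ∈ K`, a positive quadratic form `Q z` up to order three. -/
structure Quad (K : Set Z) (q Q : Z → V → ℝ) (c C d : ℝ) : Prop where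
  c_pos : 0 < c
  C_nonneg : 0 ≤ C
  d_pos : 0 < d
  hom : ∀ z ∈ K, ∀ (ε : ℝ) v, Q z (ε • v) = ε ^ 2 * Q z v
  lower : ∀ z ∈ K, ∀ v, c * ‖v‖ ^ 2 ≤ Q z v
  err : ∀ z ∈ K, ∀ v, ‖v‖ < d → |q z v - Q z v| ≤ C * ‖v‖ ^ 3
  cont : ∀ v, ContinuousOn (fun z => Q z v) K

variable {K : Set Z} {q Q : Z → V → ℝ} {c C d : ℝ}

theorem Quad.mono (h : Quad K q Q c C d) {d' : ℝ} (h0 : 0 < d') (h1 : d' ≤ d) :
    Quad K q Q c C d' :=
  ⟨h.c_pos, h.C_nonneg, h0, h.hom, h.lower, fun z hz v hv => h.err z hz v (hv.trans_le h1), h.cont⟩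

/-- radius on which `q ≥ (c/2) ‖v‖²` -/
def rad (c C : ℝ) : ℝ := c / (2 * (C + 1))

theorem Quad.rad_pos (h : Quad K q Q c C d) : 0 < rad c C := by
  have := h.c_pos
  have := h.C_nonneg
  unfold rad
  positivity

theorem Quad.sqDist (h : Quad K q Q c C d) (hd : d ≤ rad c C) {z : Z} (hz : z ∈ K) :
    SqDist (q z) (c / 2) d := by
  refine ⟨half_pos h.c_pos, h.d_pos, fun v hv => ?_⟩
  have h1 := h.lower z hz v
  have h2 := (abs_le.1 (h.err z hz v hv)).1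
  have hC := h.C_nonneg
  have h3 : C * ‖v‖ ≤ c / 2 := by
    have h4 : ‖v‖ ≤ c / (2 * (C + 1)) := hv.le.trans hd
    rw [le_div_iff₀ (by positivity)] at h4
    nlinarith [norm_nonneg v]
  have h5 : C * ‖v‖ ^ 3 ≤ c / 2 * ‖v‖ ^ 2 := by
    have := mul_le_mul_of_nonneg_right h3 (sq_nonneg ‖v‖)
    calc C * ‖v‖ ^ 3 = C * ‖v‖ * ‖v‖ ^ 2 := by ring
      _ ≤ _ := this
  linarith

/-- the joint limit of the rescaled square -/
theorem Quad.tendsto (h : Quad K q Q c C d) {z₀ : Z} (hz₀ : z₀ ∈ K) (v : V) :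
    Tendsto (fun p : ℝ × Z => q p.2 (Real.sqrt p.1 • v) / p.1) (𝓝[>] 0 ×ˢ 𝓝[K] z₀)
      (𝓝 (Q z₀ v)) := by
  have hK : ∀ᶠ p : ℝ × Z in 𝓝[>] 0 ×ˢ 𝓝[K] z₀, p.2 ∈ K :=
    tendsto_snd.eventually self_mem_nhdsWithin
  have ht : ∀ᶠ p : ℝ × Z in 𝓝[>] 0 ×ˢ 𝓝[K] z₀, 0 < p.1 :=
    tendsto_fst.eventually self_mem_nhdsWithin
  have ht0 : Tendsto (fun p : ℝ × Z => p.1) (𝓝[>] 0 ×ˢ 𝓝[K] z₀) (𝓝 0) :=
    tendsto_fst.mono_right nhdsWithin_le_nhds
  have hs0 : Tendsto (fun p : ℝ × Z => Real.sqrt p.1) (𝓝[>] 0 ×ˢ 𝓝[K] z₀) (𝓝 0) := by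
    have := (Real.continuous_sqrt.tendsto 0).comp ht0
    rwa [Real.sqrt_zero] at this
  have hin : ∀ᶠ p : ℝ × Z in 𝓝[>] 0 ×ˢ 𝓝[K] z₀, ‖Real.sqrt p.1 • v‖ < d := by
    have : Tendsto (fun p : ℝ × Z => ‖Real.sqrt p.1 • v‖) (𝓝[>] 0 ×ˢ 𝓝[K] z₀) (𝓝 0) := by
      have := (hs0.smul_const v).norm
      simpa using this
    exact this.eventually (gt_mem_nhds h.d_pos)
  have h1 : Tendsto (fun p : ℝ × Z => Q p.2 v) (𝓝[>] 0 ×ˢ 𝓝[K] z₀) (𝓝 (Q z₀ v)) :=
    ((h.cont v) z₀ hz₀).tendsto.comp tendsto_snd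
  have h2 : Tendsto (fun p : ℝ × Z => q p.2 (Real.sqrt p.1 • v) / p.1 - Q p.2 v)
      (𝓝[>] 0 ×ˢ 𝓝[K] z₀) (𝓝 0) := by
    have h3 : Tendsto (fun p : ℝ × Z => C * ‖v‖ ^ 3 * Real.sqrt p.1)
        (𝓝[>] 0 ×ˢ 𝓝[K] z₀) (𝓝 0) := by
      have := hs0.const_mul (C * ‖v‖ ^ 3)
      simpa using this
    refine squeeze_zero_norm' ?_ h3
    filter_upwards [hK, ht, hin] with p hpK hpt hpin
    have h4 := h.err p.2 hpK _ hpin
    have h5 : Q p.2 (Real.sqrt p.1 • v) = p.1 * Q p.2 v := by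
      rw [h.hom p.2 hpK, Real.sq_sqrt hpt.le]
    rw [h5, norm_smul, Real.norm_of_nonneg (Real.sqrt_nonneg _)] at h4
    have h6 : q p.2 (Real.sqrt p.1 • v) / p.1 - Q p.2 v =
        (q p.2 (Real.sqrt p.1 • v) - p.1 * Q p.2 v) / p.1 := by
      field_simp
    rw [h6, Real.norm_eq_abs, abs_div, abs_of_pos hpt, div_le_iff₀ hpt]
    refine h4.trans (le_of_eq ?_)
    have h7 : Real.sqrt p.1 ^ 2 = p.1 := Real.sq_sqrt hpt.le
    calc C * (Real.sqrt p.1 * ‖v‖) ^ 3 = C * ‖v‖ ^ 3 * Real.sqrt p.1 * Real.sqrt p.1 ^ 2 := by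
          ring
      _ = _ := by rw [h7]
  have := h2.add h1
  simpa using this

end quad

section unif

variable {V F : Type*} [NormedAddCommGroup V] [NormedSpace ℝ V] [FiniteDimensional ℝ V]
  [MeasurableSpace V] [BorelSpace V] (μ : Measure V) [μ.IsAddHaarMeasure]
  [NormedAddCommGroup F] [NormedSpace ℝ F] [CompleteSpace F]
  {Z : Type*} [TopologicalSpace Z] [FirstCountableTopology Z]

/-- a function continuous on `K × ball 0 d` has joint limits -/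
theorem tendsto_of_contOn {K : Set Z} {d : ℝ} (hd : 0 < d) {m : Z → V → F}
    (hm : ContinuousOn (fun p : Z × V => m p.1 p.2) (K ×ˢ ball 0 d)) {z₀ : Z} (hz₀ : z₀ ∈ K)
    (v : V) :
    Tendsto (fun p : ℝ × Z => m p.2 (Real.sqrt p.1 • v)) (𝓝[>] 0 ×ˢ 𝓝[K] z₀)
      (𝓝 (m z₀ 0)) := by
  have h0 : Tendsto (fun p : ℝ × Z => Real.sqrt p.1 • v) (𝓝[>] 0 ×ˢ 𝓝[K] z₀) (𝓝 0) := by
    have h1 : Tendsto (fun p : ℝ × Z => p.1) (𝓝[>] 0 ×ˢ 𝓝[K] z₀) (𝓝 0) :=
      tendsto_fst.mono_right nhdsWithin_le_nhds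
    have h2 := (Real.continuous_sqrt.tendsto 0).comp h1
    rw [Real.sqrt_zero] at h2
    simpa using h2.smul_const v
  have hin : ∀ᶠ p : ℝ × Z in 𝓝[>] 0 ×ˢ 𝓝[K] z₀, Real.sqrt p.1 • v ∈ ball (0 : V) d :=
    h0.eventually (ball_mem_nhds _ hd)
  have hK : ∀ᶠ p : ℝ × Z in 𝓝[>] 0 ×ˢ 𝓝[K] z₀, p.2 ∈ K :=
    tendsto_snd.eventually self_mem_nhdsWithin
  have h3 : Tendsto (fun p : ℝ × Z => (p.2, Real.sqrt p.1 • v)) (𝓝[>] 0 ×ˢ 𝓝[K] z₀)
      (𝓝[K ×ˢ ball 0 d] (z₀, 0)) := by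
    refine tendsto_nhdsWithin_iff.2 ⟨?_, ?_⟩
    · exact (tendsto_snd.mono_right nhdsWithin_le_nhds).prodMk_nhds h0
    · filter_upwards [hin, hK] with p h1 h2
      exact ⟨h2, h1⟩
  exact ((hm (z₀, 0) ⟨hz₀, by simpa using hd⟩).tendsto).comp h3

/-- uniform convergence of the leading term -/
theorem tendstoUniformlyOn_kernel {K : Set Z} (hK : IsCompact K) {q Q : Z → V → ℝ} {c C d : ℝ}
    (hq : Quad K q Q c C d) (hdr : d ≤ rad c C)
    (hqm : ∀ z ∈ K, AEStronglyMeasurable (q z) (μ.restrict (ball 0 d)))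
    {g : ℝ → ℝ} {G r : ℝ} (hgc : Continuous g) (hg : Prof g G r)
    {m : Z → V → F} {B : ℝ}
    (hmc : ContinuousOn (fun p : Z × V => m p.1 p.2) (K ×ˢ ball 0 d))
    (hm : ∀ z ∈ K, ∀ v, ‖v‖ < d → ‖m z v‖ ≤ B)
    (hL : ContinuousOn (fun z => (∫ v, g (Q z v) ∂μ) • m z 0) K) :
    TendstoUniformlyOn (fun (t : ℝ) z => (Real.sqrt t ^ finrank ℝ V)⁻¹ •
        ∫ v in ball (0 : V) d, g (q z v / t) • m z v ∂μ)
      (fun z => (∫ v, g (Q z v) ∂μ) • m z 0) (𝓝[>] 0) K := by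
  rw [← tendstoLocallyUniformlyOn_iff_tendstoUniformlyOn_of_compact hK]
  intro U hU z₀ hz₀
  have hmm : ∀ z ∈ K, AEStronglyMeasurable (m z) (μ.restrict (ball 0 d)) := by
    intro z hz
    refine ContinuousOn.aestronglyMeasurable ?_ measurableSet_ball
    exact hmc.comp (f := fun v => (z, v)) (by fun_prop) fun v hv => ⟨hz, hv⟩
  have hKe : ∀ᶠ p : ℝ × Z in 𝓝[>] 0 ×ˢ 𝓝[K] z₀, p.2 ∈ K :=
    tendsto_snd.eventually self_mem_nhdsWithin
  have h1 := tendsto_kernel_gen μ (l := 𝓝[>] (0 : ℝ) ×ˢ 𝓝[K] z₀) (q := fun p => q p.2)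
    (Q := Q z₀) (T := fun p => p.1) (c := c / 2) (d := d) hq.d_pos tendsto_fst
    (hKe.mono fun p hp => hq.sqDist hdr hp) (hKe.mono fun p hp => hqm _ hp)
    (fun v => hq.tendsto hz₀ v) hgc hg (m := fun p => m p.2) (m0 := m z₀ 0) (B := B)
    (hKe.mono fun p hp => hmm _ hp) (hKe.mono fun p hp => hm _ hp)
    (fun v => tendsto_of_contOn hq.d_pos hmc hz₀ v)
  have h2 : Tendsto (fun p : ℝ × Z => (∫ v, g (Q p.2 v) ∂μ) • m p.2 0)
      (𝓝[>] 0 ×ˢ 𝓝[K] z₀) (𝓝 ((∫ v, g (Q z₀ v) ∂μ) • m z₀ 0)) :=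
    (hL z₀ hz₀).tendsto.comp tendsto_snd
  have h3 := (Uniform.tendsto_nhds_right.1 (h2.prodMk_nhds h1))
  have h4 : ∀ᶠ p : ℝ × Z in 𝓝[>] 0 ×ˢ 𝓝[K] z₀, ((∫ v, g (Q p.2 v) ∂μ) • m p.2 0,
      (Real.sqrt p.1 ^ finrank ℝ V)⁻¹ • ∫ v in ball (0 : V) d, g (q p.2 v / p.1) • m p.2 v ∂μ)
      ∈ U := by
    have h5 : Tendsto (fun p : ℝ × Z => ((∫ v, g (Q p.2 v) ∂μ) • m p.2 0,
      (Real.sqrt p.1 ^ finrank ℝ V)⁻¹ • ∫ v in ball (0 : V) d, g (q p.2 v / p.1) • m p.2 v ∂μ))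
      (𝓝[>] 0 ×ˢ 𝓝[K] z₀) (uniformity F) := by
      refine (h2.prodMk_nhds h1).mono_right ?_
      exact nhds_le_uniformity _
    exact h5 hU
  rw [eventually_prod_iff] at h4
  obtain ⟨pa, hpa, pb, hpb, hab⟩ := h4
  exact ⟨{z | pb z}, hpb, hpa.mono fun t ht z hz => hab ht hz⟩

/-- continuity of the constant -/
theorem continuousOn_constInt {K : Set Z} {q Q : Z → V → ℝ} {c C d : ℝ}
    (hq : Quad K q Q c C d) (hQm : ∀ z ∈ K, AEStronglyMeasurable (Q z) μ)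
    {g : ℝ → ℝ} {G r : ℝ} (hgc : Continuous g) (hg : Prof g G r) :
    ContinuousOn (fun z => ∫ v, g (Q z v) ∂μ) K := by
  intro z₀ hz₀
  have hKe : ∀ᶠ z in 𝓝[K] z₀, z ∈ K := self_mem_nhdsWithin
  have hc := hq.c_pos
  refine tendsto_integral_filter_of_dominated_convergence
    ((closedBall (0 : V) (Real.sqrt (r / c))).indicator fun _ => G) ?_ ?_ ?_ ?_
  · filter_upwards [hKe] with z hz
    exact hgc.comp_aestronglyMeasurable (hQm z hz)
  · filter_upwards [hKe] with z hz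
    refine Eventually.of_forall fun v => ?_
    have hlow := hq.lower z hz v
    by_cases hv : ‖v‖ ≤ Real.sqrt (r / c)
    · rw [indicator_of_mem (by simpa using hv), Real.norm_eq_abs]
      exact hg.bdd _ (le_trans (by positivity) hlow)
    · rw [indicator_of_notMem (by simpa using hv)]
      rw [not_le] at hv
      have h1 : r / c < ‖v‖ ^ 2 :=
        (Real.sqrt_lt' (lt_of_le_of_lt (Real.sqrt_nonneg _) hv)).1 hv
      rw [div_lt_iff₀ hc] at h1
      rw [hg.zero _ (by linarith), norm_zero]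
  · exact (integrable_indicator_iff measurableSet_closedBall).2
      (integrableOn_const (measure_closedBall_lt_top).ne)
  · exact Eventually.of_forall fun v => (hgc.tendsto _).comp ((hq.cont v) z₀ hz₀).tendsto

end unif

end

end Vale.Agent.P267.H156
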